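import Mathlib

/-!
# P162: statement-level definitions (Thorp shuffle, convolution powers, total variation)
Keep this file small: it is part of what the judges read.
-/

namespace Vale.Agent.Lib.P162

open Equiv

/-- New position (0-indexed) of the card in position `p` of a deck of `2 * m` cards after one Thorp
shuffle with coins `c`: the cards in positions `i` and `m + i` go to positions `2 i` and `2 i + 1`,
in the order decided by the coin `c i`. -/
def thorpMap (m : ℕ) (c : Fin m → Bool) (p : Fin (2 * m)) : ℕ :=
  if h : (p : ℕ) < m then 2 * (p : ℕ) + (if c ⟨(p : ℕ), h⟩ then 1 else 0)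
  else 2 * ((p : ℕ) - m) + (if c ⟨(p : ℕ) - m, by have := p.isLt; omega⟩ then 0 else 1)

/-- The law `q_n`, `n = 2 * m`, of one Thorp shuffle: the probability (over `m` fair coins) that the
permutation of positions is `g`. -/
noncomputable def thorpLaw (m : ℕ) (g : Perm (Fin (2 * m))) : ℝ :=
  ((Finset.univ.filter fun c : Fin m → Bool => ∀ p, ((g p : Fin (2 * m)) : ℕ) = thorpMap m c p).card : ℝ)
    / 2 ^ m

/-- Convolution on a finite group. -/
def conv {G : Type} [Group G] [Fintype G] (μ ν : G → ℝ) (g : G) : ℝ :=
  ∑ h : G, μ h * ν (h⁻¹ * g)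

/-- `t`-fold convolution power. -/
def convPow {G : Type} [Group G] [Fintype G] [DecidableEq G] (μ : G → ℝ) : ℕ → G → ℝ
  | 0 => fun g => if g = 1 then 1 else 0
  | t + 1 => conv μ (convPow μ t)

/-- Total variation distance to the uniform law. -/
noncomputable def tvUnif {G : Type} [Fintype G] (μ : G → ℝ) : ℝ :=
  (1 / 2) * ∑ g : G, |μ g - 1 / (Fintype.card G : ℝ)|

/-- Mixing time of the Thorp shuffle of a deck of `2 * m` cards. -/
noncomputable def tmix (m : ℕ) : ℕ :=
  sInf {t : ℕ | tvUnif (convPow (thorpLaw m) t) ≤ 1 / 4}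

end Vale.Agent.Lib.P162
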