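import Mathlib
import Vale.Agent.Lib.P162.Thorp

/-!
# P162: internal definitions (shared, FROZEN -- do not edit)

Goal of the project: `t_mix(2^d) <= 2000 d^2` for the Thorp shuffle.

Notation of the paper proof.
* `V` a real Hilbert space, `ρ : Perm P →* (V →L[ℝ] V)` an orthogonal representation (`IsIso ρ`).
* `lap ρ = ∑_{a,b} (1 - ρ (swap a b))` (ordered pairs; twice the random transposition Laplacian).
* `hat ρ : ℝ[Perm P] → (V →L[ℝ] V)` the extension of `ρ` to the group algebra.
* `Dominated V x c` : for all orthogonal `ρ` and `v`, `‖hat ρ x v‖ ≤ ‖exp (-c • lap ρ) v‖`.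
* positions `X ⊕ X` (two halves), `flip S` swaps `inl u ↔ inr u` for `u ∈ S`.
* `stepPass x = inl(x) * inr(x) * avgFlip`.
* `BV d = Fin d → Bool`, `pass d` one full pass on the cube.
-/

namespace Vale.Agent.Lib.P162

open Equiv NormedSpace

section Rep

variable {V : Type} [NormedAddCommGroup V] [InnerProductSpace ℝ V]

/-- The representation acts by isometries. -/
def IsIso {G : Type} [Group G] (ρ : G →* (V →L[ℝ] V)) : Prop :=
  ∀ (g : G) (v : V), ‖ρ g v‖ = ‖v‖

/-- `∑_{a,b} (1 - ρ (swap a b))`. -/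
noncomputable def lap {P : Type} [Fintype P] [DecidableEq P] (ρ : Perm P →* (V →L[ℝ] V)) :
    V →L[ℝ] V :=
  ∑ a : P, ∑ b : P, (1 - ρ (swap a b))

/-- `∑_{a,b ∈ R} (1 - ρ (swap a b))`. -/
noncomputable def lapOn {P : Type} [DecidableEq P] (ρ : Perm P →* (V →L[ℝ] V))
    (R : Finset P) : V →L[ℝ] V :=
  ∑ a ∈ R, ∑ b ∈ R, (1 - ρ (swap a b))

/-- Extension of `ρ` to the group algebra. -/
noncomputable def hat {G : Type} [Group G] (ρ : G →* (V →L[ℝ] V)) :
    MonoidAlgebra ℝ G →ₐ[ℝ] (V →L[ℝ] V) :=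
  MonoidAlgebra.lift ℝ (V →L[ℝ] V) G ρ

end Rep

/-- Push-forward of group algebra elements along a group homomorphism. -/
noncomputable def push {G H : Type} [Group G] [Group H] (f : G →* H) :
    MonoidAlgebra ℝ G →ₐ[ℝ] MonoidAlgebra ℝ H :=
  MonoidAlgebra.mapDomainAlgHom ℝ ℝ f

/-- `x` (one block of the shuffle) contracts at least as much as `exp (-c • lap)`,
in every orthogonal representation on `V`. -/
def Dominated (V : Type) [NormedAddCommGroup V] [InnerProductSpace ℝ V]
    {P : Type} [Fintype P] [DecidableEq P] (x : MonoidAlgebra ℝ (Perm P)) (c : ℝ) : Prop :=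
  ∀ ρ : Perm P →* (V →L[ℝ] V), IsIso ρ → ∀ v : V, ‖hat ρ x v‖ ≤ ‖exp (-c • lap ρ) v‖

section Halves

variable (X : Type)

/-- `Perm X` acting on the left half of `X ⊕ X`. -/
def inlHom : Perm X →* Perm (X ⊕ X) :=
  (Perm.sumCongrHom X X).comp (MonoidHom.inl (Perm X) (Perm X))

/-- `Perm X` acting on the right half of `X ⊕ X`. -/
def inrHom : Perm X →* Perm (X ⊕ X) :=
  (Perm.sumCongrHom X X).comp (MonoidHom.inr (Perm X) (Perm X))

variable {X} [DecidableEq X]

/-- underlying map of `flip`. -/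
def flipFun (S : Finset X) : X ⊕ X → X ⊕ X
  | Sum.inl u => if u ∈ S then Sum.inr u else Sum.inl u
  | Sum.inr u => if u ∈ S then Sum.inl u else Sum.inr u

theorem flipFun_flipFun (S : Finset X) (p : X ⊕ X) : flipFun S (flipFun S p) = p := by
  rcases p with u | u <;> by_cases h : u ∈ S <;> simp [flipFun, h]

/-- swap `inl u ↔ inr u` for all `u ∈ S`. -/
def flip (S : Finset X) : Perm (X ⊕ X) :=
  ⟨flipFun S, flipFun S, flipFun_flipFun S, flipFun_flipFun S⟩

variable (X) [Fintype X]

/-- the uniform average of the `flip S`. -/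
noncomputable def avgFlip : MonoidAlgebra ℝ (Perm (X ⊕ X)) :=
  ((2 : ℝ) ^ Fintype.card X)⁻¹ • ∑ S : Finset X, MonoidAlgebra.single (flip S) (1 : ℝ)

variable {X}

/-- first randomise along the matching `inl u ↔ inr u`, then apply `x` in both halves. -/
noncomputable def stepPass (x : MonoidAlgebra ℝ (Perm X)) : MonoidAlgebra ℝ (Perm (X ⊕ X)) :=
  push (inlHom X) x * push (inrHom X) x * avgFlip X

variable {V : Type} [NormedAddCommGroup V] [InnerProductSpace ℝ V]

/-- the Laplacian of the two halves. -/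
noncomputable def lapHalves (ρ : Perm (X ⊕ X) →* (V →L[ℝ] V)) : V →L[ℝ] V :=
  lap (ρ.comp (inlHom X)) + lap (ρ.comp (inrHom X))

/-- parity sector projection: the joint eigenspace of the `ρ (flip {u})` with eigenvalue `-1`
exactly for `u ∈ O`. -/
noncomputable def sec (ρ : Perm (X ⊕ X) →* (V →L[ℝ] V)) (O : Finset X) : V →L[ℝ] V :=
  ((2 : ℝ) ^ Fintype.card X)⁻¹ • ∑ S : Finset X, ((-1 : ℝ) ^ (S ∩ O).card) • ρ (flip S)

end Halves

section Cube

/-- bit vectors; index `0` is the most significant bit of a position. -/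
abbrev BV (d : ℕ) : Type := Fin d → Bool

/-- `inl p ↦ cons false p`, `inr p ↦ cons true p`. -/
def psi (d : ℕ) : BV d ⊕ BV d ≃ BV (d + 1) :=
  (Equiv.boolProdEquivSum (BV d)).symm.trans (Fin.consEquiv (fun _ => Bool))

/-- one full pass on the cube (`d` steps of the Thorp shuffle, up to relabelling). -/
noncomputable def pass : (d : ℕ) → MonoidAlgebra ℝ (Perm (BV d))
  | 0 => 1
  | d + 1 => push (psi d).permCongrHom.toMonoidHom (stepPass (pass d))

/-- flip bit `j` of `p` iff the coin `c` of the edge of `p` in direction `j` says so. -/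
def flipAtFun {d : ℕ} (j : Fin d) (c : BV d → Bool) (p : BV d) : BV d :=
  Function.update p j (xor (p j) (c (Function.update p j false)))

theorem flipAtFun_flipAtFun {d : ℕ} (j : Fin d) (c : BV d → Bool) (p : BV d) :
    flipAtFun j c (flipAtFun j c p) = p := by
  unfold flipAtFun
  simp

/-- `flipAtFun` as a permutation. -/
def flipAt {d : ℕ} (j : Fin d) (c : BV d → Bool) : Perm (BV d) :=
  ⟨flipAtFun j c, flipAtFun j c, flipAtFun_flipAtFun j c, flipAtFun_flipAtFun j c⟩

/-- averaging over independent fair swaps along all edges of direction `j`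
(the coins are indexed redundantly by all of `BV d → Bool`). -/
noncomputable def dirAvg {d : ℕ} (j : Fin d) : MonoidAlgebra ℝ (Perm (BV d)) :=
  ((2 : ℝ) ^ (2 ^ d))⁻¹ • ∑ c : BV d → Bool, MonoidAlgebra.single (flipAt j c) (1 : ℝ)

/-- `a_{d-1} * ... * a_1 * a_0`. -/
noncomputable def dirProd (d : ℕ) : MonoidAlgebra ℝ (Perm (BV d)) :=
  (List.ofFn fun j : Fin d => dirAvg (Fin.rev j)).prod

/-- cyclic rotation of the bits: `(rotP p) j = p (j + 1)`. -/
def rotP (d : ℕ) : Perm (BV d) :=
  (finRotate d).arrowCongr (Equiv.refl Bool) |>.symm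

/-- the constants of the induction. -/
noncomputable def cseq : ℕ → ℝ
  | 0 => 1 / 272
  | 1 => 1 / 272
  | d + 2 => cseq (d + 1) / 2 * (1 - 1 / 2 ^ (d + 1))

end Cube

section Regular

/-- functions on a finite group with the `ℓ²` norm. -/
abbrev EG (G : Type) [Fintype G] : Type := EuclideanSpace ℝ G

/-- left regular representation: `reg g (δ_h) = δ_{g h}`. -/
noncomputable def reg (G : Type) [Group G] [Fintype G] : G →* (EG G →L[ℝ] EG G) where
  toFun g := ((LinearIsometryEquiv.piLpCongrLeft 2 ℝ ℝ (Equiv.mulLeft g)).toContinuousLinearEquiv :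
    EG G →L[ℝ] EG G)
  map_one' := by
    ext f h
    simp [LinearIsometryEquiv.piLpCongrLeft_apply]
    rfl
  map_mul' a b := by
    ext f h
    simp [LinearIsometryEquiv.piLpCongrLeft_apply]
    rfl

/-- right translations: `rtr g (δ_h) = δ_{h g⁻¹}`. -/
noncomputable def rtr (G : Type) [Group G] [Fintype G] (g : G) : EG G →L[ℝ] EG G :=
  ((LinearIsometryEquiv.piLpCongrLeft 2 ℝ ℝ (Equiv.mulRight g⁻¹)).toContinuousLinearEquiv :
    EG G →L[ℝ] EG G)

/-- the point mass. -/
noncomputable def dlt {G : Type} [Fintype G] [DecidableEq G] (g : G) : EG G :=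
  EuclideanSpace.single g (1 : ℝ)

/-- `n! ·` (return probability of continuous time random transpositions): the trace of
`exp (-2 s • lap)` in the regular representation. -/
noncomputable def Zfun (P : Type) [Fintype P] [DecidableEq P] (s : ℝ) : ℝ :=
  ((Fintype.card P).factorial : ℝ) * ‖exp (-s • lap (reg (Perm P))) (dlt (1 : Perm P))‖ ^ 2

/-- a function on the group as an element of the group algebra. -/
noncomputable def toMA {G : Type} [Fintype G] (μ : G → ℝ) : MonoidAlgebra ℝ G :=
  ∑ g : G, MonoidAlgebra.single g (μ g)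

/-- the upper bound for `Zfun`; `r = exp (-2 s)`. -/
noncomputable def Fbd (n : ℕ) (r : ℝ) : ℝ :=
  if n = 0 then 1 else ∑ J ∈ Finset.range n, (3 : ℝ) ^ J * ((n.descFactorial J : ℝ)) ^ 2 * r ^ (J * n)

end Regular

section PureSpaces

variable {V : Type} [NormedAddCommGroup V] [InnerProductSpace ℝ V]
variable {P : Type} [DecidableEq P]

/-- vectors invariant under all transpositions of points outside `R`. -/
def Inv (ρ : Perm P →* (V →L[ℝ] V)) (R : Finset P) : Submodule ℝ V where
  carrier := {v | ∀ a b : P, a ∉ R → b ∉ R → ρ (swap a b) v = v}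
  add_mem' := by
    intro x y hx hy a b ha hb
    rw [map_add, hx a b ha hb, hy a b ha hb]
  zero_mem' := by
    intro a b _ _
    simp
  smul_mem' := by
    intro c x hx a b ha hb
    rw [map_smul, hx a b ha hb]

/-- the part of `Inv ρ R` orthogonal to all `Inv ρ (R.erase i)`, `i ∈ R`. -/
noncomputable def Pure (ρ : Perm P →* (V →L[ℝ] V)) (R : Finset P) : Submodule ℝ V :=
  Inv ρ R ⊓ (⨆ i ∈ R, Inv ρ (R.erase i))ᗮ

end PureSpaces

end Vale.Agent.Lib.P162
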