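import Mathlib
import Vale.Agent.Lib.P162.Defs

/-!
# P162 module B1 `ThorpPerm`: the Thorp law as an average of permutations   (statements FROZEN)

* `exists_thorpPerm`: `p ↦ thorpMap m c p` maps `Fin (2m)` to `[0, 2m)` and is injective (hence bijective:
  `Finite.injective_iff_bijective`, `Equiv.ofBijective`): from the value `v` one recovers `i = v / 2`, and then whether `p = i` or `p = m + i`
  from `v % 2` and `c i`.
* `thorpPerm_injective`: `c i` is read off from `thorpPerm m c ⟨i, _⟩ = 2 i + [c i]`.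
* `toMA_thorpLaw`: `thorpLaw m g = #{c | g = thorpPerm m c} / 2^m`; so
  `toMA (thorpLaw m) = ∑_g single g (∑_c [g = thorpPerm m c] / 2^m) = 2^{-m} ∑_c single (thorpPerm m c) 1`.
* `thorpLaw_sum`: every `c` is counted for exactly one `g`.
-/

namespace Vale.Agent.Lib.P162

open Equiv

theorem thorpMap_lt (m : ℕ) (c : Fin m → Bool) (p : Fin (2 * m)) : thorpMap m c p < 2 * m := by
  have hp := p.isLt
  unfold thorpMap
  split_ifs <;> omega

theorem thorpMap_low (m : ℕ) (c : Fin m → Bool) (p : Fin (2 * m)) (h : (p : ℕ) < m) :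
    thorpMap m c p = 2 * (p : ℕ) + (if c ⟨(p : ℕ), h⟩ then 1 else 0) := by
  unfold thorpMap
  rw [dif_pos h]

theorem thorpMap_high (m : ℕ) (c : Fin m → Bool) (p : Fin (2 * m)) (h : ¬ (p : ℕ) < m) :
    thorpMap m c p = 2 * ((p : ℕ) - m) +
      (if c ⟨(p : ℕ) - m, by have := p.isLt; omega⟩ then 0 else 1) := by
  unfold thorpMap
  rw [dif_neg h]

theorem thorpMap_injective (m : ℕ) (c : Fin m → Bool) :
    Function.Injective (thorpMap m c) := by
  intro p q hpq
  have hp := p.isLt
  have hq := q.isLt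
  apply Fin.ext
  by_cases h1 : (p : ℕ) < m <;> by_cases h2 : (q : ℕ) < m
  · rw [thorpMap_low m c p h1, thorpMap_low m c q h2] at hpq
    split_ifs at hpq <;> omega
  · rw [thorpMap_low m c p h1, thorpMap_high m c q h2] at hpq
    have hidx : (p : ℕ) = (q : ℕ) - m := by
      split_ifs at hpq <;> omega
    have hfin : (⟨(p : ℕ), h1⟩ : Fin m) = ⟨(q : ℕ) - m, by omega⟩ := Fin.ext hidx
    rw [hfin] at hpq
    split_ifs at hpq <;> omega
  · rw [thorpMap_high m c p h1, thorpMap_low m c q h2] at hpq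
    have hidx : (q : ℕ) = (p : ℕ) - m := by
      split_ifs at hpq <;> omega
    have hfin : (⟨(q : ℕ), h2⟩ : Fin m) = ⟨(p : ℕ) - m, by omega⟩ := Fin.ext hidx
    rw [hfin] at hpq
    split_ifs at hpq <;> omega
  · rw [thorpMap_high m c p h1, thorpMap_high m c q h2] at hpq
    split_ifs at hpq <;> omega

theorem exists_thorpPerm (m : ℕ) (c : Fin m → Bool) :
    ∃ g : Perm (Fin (2 * m)), ∀ p, ((g p : Fin (2 * m)) : ℕ) = thorpMap m c p := by
  let F : Fin (2 * m) → Fin (2 * m) := fun p => ⟨thorpMap m c p, thorpMap_lt m c p⟩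
  have hinj : Function.Injective F := by
    intro p q h
    exact thorpMap_injective m c (congrArg Fin.val h)
  exact ⟨Equiv.ofBijective F (Finite.injective_iff_bijective.mp hinj), fun p => rfl⟩

/-- the permutation of positions of one Thorp shuffle with coins `c`. -/
noncomputable def thorpPerm (m : ℕ) (c : Fin m → Bool) : Perm (Fin (2 * m)) :=
  Classical.choose (exists_thorpPerm m c)

theorem thorpPerm_apply (m : ℕ) (c : Fin m → Bool) (p : Fin (2 * m)) :
    ((thorpPerm m c p : Fin (2 * m)) : ℕ) = thorpMap m c p :=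
  Classical.choose_spec (exists_thorpPerm m c) p

theorem thorpMap_coins_injective (m : ℕ) (c c' : Fin m → Bool)
    (h : ∀ p, thorpMap m c p = thorpMap m c' p) : c = c' := by
  funext i
  have hi := i.isLt
  have h1 := h ⟨(i : ℕ), by omega⟩
  rw [thorpMap_low m c _ hi, thorpMap_low m c' _ hi] at h1
  have e : (⟨((⟨(i : ℕ), by omega⟩ : Fin (2 * m)) : ℕ), hi⟩ : Fin m) = i := Fin.ext rfl
  rw [e] at h1
  cases hc : c i <;> cases hc' : c' i <;> simp [hc, hc'] at h1 ⊢

theorem thorpPerm_injective (m : ℕ) : Function.Injective (thorpPerm m) := by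
  intro c c' h
  apply thorpMap_coins_injective
  intro p
  rw [← thorpPerm_apply, ← thorpPerm_apply, h]

theorem thorpLaw_eq (m : ℕ) (g : Perm (Fin (2 * m))) :
    thorpLaw m g = ((2 : ℝ) ^ m)⁻¹ * ∑ c : Fin m → Bool, (if thorpPerm m c = g then (1 : ℝ) else 0) := by
  unfold thorpLaw
  rw [div_eq_inv_mul]
  congr 1
  rw [Finset.sum_boole]
  congr 2
  ext c
  simp only [Finset.mem_filter, Finset.mem_univ, true_and]
  constructor
  · intro h
    apply Equiv.ext
    intro p
    apply Fin.ext
    rw [thorpPerm_apply, h]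
  · intro h p
    rw [← h, thorpPerm_apply]

theorem toMA_thorpLaw (m : ℕ) :
    toMA (thorpLaw m)
      = ((2 : ℝ) ^ m)⁻¹ • ∑ c : Fin m → Bool, MonoidAlgebra.single (thorpPerm m c) (1 : ℝ) := by
  unfold toMA
  have h1 : ∀ g : Perm (Fin (2 * m)), MonoidAlgebra.single g (thorpLaw m g)
      = ((2 : ℝ) ^ m)⁻¹ • ∑ c : Fin m → Bool,
          MonoidAlgebra.single g (if thorpPerm m c = g then (1 : ℝ) else 0) := by
    intro g
    rw [thorpLaw_eq]
    have h2 : ∀ a b : ℝ, MonoidAlgebra.single g (a * b) = a • MonoidAlgebra.single g b := by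
      intro a b
      rw [MonoidAlgebra.smul_single, smul_eq_mul]
    rw [h2]
    congr 1
    exact map_sum (MonoidAlgebra.singleAddHom g) _ _
  simp only [h1]
  rw [← Finset.smul_sum, Finset.sum_comm]
  congr 1
  refine Finset.sum_congr rfl fun c _ => ?_
  rw [Finset.sum_eq_single (thorpPerm m c)]
  · simp
  · intro b _ hb
    rw [if_neg (Ne.symm hb)]
    simp
  · intro h
    exact absurd (Finset.mem_univ _) h

theorem thorpLaw_sum (m : ℕ) : ∑ g, thorpLaw m g = 1 := by
  simp only [thorpLaw_eq]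
  rw [← Finset.mul_sum, Finset.sum_comm]
  have h : ∀ c : Fin m → Bool,
      ∑ g : Perm (Fin (2 * m)), (if thorpPerm m c = g then (1 : ℝ) else 0) = 1 := by
    intro c
    simp
  simp only [h]
  simp

end Vale.Agent.Lib.P162
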