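import Mathlib
import Vale.Agent.Lib.P162.Defs
import Vale.Agent.Lib.P162.ThorpPerm

/-!
# P162 module B2 `Bits`: one Thorp step in binary   (statements FROZEN)

Positions of a deck of `2 * 2^e = 2^(e+1)` cards in binary, BIG-endian: `val p = ∑_j [p j] 2^(d-1-j)` for `p : BV d`.
Recursively `val (Fin.cons b p) = [b] 2^d + val p` and `val (Fin.snoc p b) = 2 val p + [b]`.
`bvEquiv d : BV d ≃ Fin (2^d)` (you may build it as you like, e.g. by recursion with `Fin.consEquiv`, `finProdFinEquiv`/`finSumFinEquiv`,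
or from `finFunctionFinEquiv` and `Fin.rev`); `φ : BV (e+1) ≃ Fin (2 * 2^e)` is `bvEquiv (e+1)` followed by a cast (`finCongr`).

One Thorp step: the card at `p = [b] m + i` (`m = 2^e`, `i < m`, `b` = top bit) goes to `2 i + ([b] xor [c i])`.  In binary:
`Fin.cons b q ↦ Fin.snoc q (xor b (c q))`, which is `rotP (e+1) (flipAt 0 c' (Fin.cons b q))` if `c' (Fin.cons false q) = c (val q)`
(`(rotP d p) j = p (j+1)` cyclically, `flipAt 0 c' p = update p 0 (xor (p 0) (c' (update p 0 false)))`).
So `thorp_conj`: for `c' : BV (e+1) → Bool`,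
`φ.permCongr (rotP (e+1) * flipAt 0 c') = thorpPerm (2^e) (fun i => c' (Fin.cons false ((bvEquiv e).symm i)))`
(check on values with `thorpPerm_apply`, `Fin.ext`).
The map `c' ↦ (fun i => c' (cons false (..)))`, `(BV (e+1) → Bool) → (Fin (2^e) → Bool)` is surjective with all fibres of size `2^(2^e)`
(split `c'` by the value of the top bit: `(BV (e+1) → Bool) ≃ (BV e → Bool) × (BV e → Bool)`), so the average over `c'` (normalised by `2^(2^(e+1))`)
equals the average over `c` (normalised by `2^(2^e)`).  Conclude with `toMA_thorpLaw`; `push f (single g r) = single (f g) r`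
(`MonoidAlgebra.mapDomainAlgHom_apply`, `MonoidAlgebra.mapDomain_single`), `single a 1 * single b 1 = single (a*b) 1`.
-/

namespace Vale.Agent.Lib.P162

open Equiv

/-- big-endian value of a bit vector -/
def bval : (d : ℕ) → BV d → ℕ
  | 0, _ => 0
  | d + 1, p => (if p 0 then 2 ^ d else 0) + bval d (Fin.tail p)

theorem bval_lt : ∀ (d : ℕ) (p : BV d), bval d p < 2 ^ d
  | 0, _ => by simp [bval]
  | d + 1, p => by
      have := bval_lt d (Fin.tail p)
      simp only [bval]
      split_ifs <;> rw [pow_succ] <;> omega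

theorem bval_injective : ∀ d, Function.Injective (bval d)
  | 0 => fun p q _ => Subsingleton.elim _ _
  | d + 1 => fun p q h => by
      have hp := bval_lt d (Fin.tail p)
      have hq := bval_lt d (Fin.tail q)
      simp only [bval] at h
      have h2 : p 0 = q 0 ∧ bval d (Fin.tail p) = bval d (Fin.tail q) := by
        cases hp0 : p 0 <;> cases hq0 : q 0 <;> simp [hp0, hq0] at h ⊢ <;> omega
      rw [← Fin.cons_self_tail p, ← Fin.cons_self_tail q, h2.1, bval_injective d h2.2]

theorem bval_cons (d : ℕ) (b : Bool) (q : BV d) :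
    bval (d + 1) (Fin.cons b q : BV (d + 1)) = (if b then 2 ^ d else 0) + bval d q := by
  simp [bval, Fin.tail_cons]

theorem bval_snoc : ∀ (d : ℕ) (q : BV d) (b : Bool),
    bval (d + 1) (Fin.snoc q b : BV (d + 1)) = 2 * bval d q + (if b then 1 else 0)
  | 0, q, b => by
      have h : (Fin.snoc q b : BV 1) 0 = b := Fin.snoc_last (α := fun _ => Bool) b q
      simp [bval, h]
  | d + 1, q, b => by
      have hq : q = (Fin.cons (q 0) (Fin.tail q) : BV (d + 1)) := (Fin.cons_self_tail q).symm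
      have h1 : (Fin.snoc q b : BV (d + 2))
          = (Fin.cons (q 0) (Fin.snoc (Fin.tail q) b : BV (d + 1)) : BV (d + 2)) := by
        conv_lhs => rw [hq]
        exact (Fin.cons_snoc_eq_snoc_cons (q 0) (Fin.tail q) b).symm
      rw [h1, bval_cons, bval_snoc d (Fin.tail q) b]
      conv_rhs => rw [hq, bval_cons]
      split_ifs <;> simp [pow_succ] <;> ring


/-- bit vectors as numbers -/
noncomputable def bvE (d : ℕ) : BV d ≃ Fin (2 ^ d) :=
  Equiv.ofBijective (fun p => ⟨bval d p, bval_lt d p⟩)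
    ((Fintype.bijective_iff_injective_and_card _).2
      ⟨fun _ _ h => bval_injective d (congrArg Fin.val h), by simp⟩)

theorem bvE_val (d : ℕ) (p : BV d) : ((bvE d p : Fin (2 ^ d)) : ℕ) = bval d p := rfl

/-- positions of the deck in binary -/
noncomputable def bvPhi (e : ℕ) : BV (e + 1) ≃ Fin (2 * 2 ^ e) :=
  (bvE (e + 1)).trans (finCongr (by rw [pow_succ, mul_comm]))

theorem bvPhi_val (e : ℕ) (p : BV (e + 1)) : ((bvPhi e p : Fin (2 * 2 ^ e)) : ℕ) = bval (e + 1) p :=
  rfl

theorem rotP_cons (e : ℕ) (b : Bool) (q : BV e) :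
    rotP (e + 1) (Fin.cons b q : BV (e + 1)) = (Fin.snoc q b : BV (e + 1)) := by
  funext j
  have h : rotP (e + 1) (Fin.cons b q : BV (e + 1)) j
      = (Fin.cons b q : BV (e + 1)) (finRotate (e + 1) j) := rfl
  rw [h]
  cases j using Fin.lastCases with
  | last => rw [finRotate_last]; simp
  | cast i =>
    rw [finRotate_apply, Fin.coeSucc_eq_succ]
    simp

theorem flipAt_cons (e : ℕ) (c' : BV (e + 1) → Bool) (b : Bool) (q : BV e) :
    flipAt 0 c' (Fin.cons b q : BV (e + 1))
      = (Fin.cons (xor b (c' (Fin.cons false q))) q : BV (e + 1)) := by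
  show flipAtFun 0 c' (Fin.cons b q : BV (e + 1)) = _
  unfold flipAtFun
  simp [Fin.update_cons_zero]

/-- restriction of the coins to the edges -/
noncomputable def resC (e : ℕ) (c' : BV (e + 1) → Bool) : Fin (2 ^ e) → Bool :=
  fun i => c' (Fin.cons false ((bvE e).symm i))

theorem thorp_conj (e : ℕ) (c' : BV (e + 1) → Bool) :
    (bvPhi e).permCongr (rotP (e + 1) * flipAt 0 c') = thorpPerm (2 ^ e) (resC e c') := by
  ext x
  obtain ⟨p, rfl⟩ := (bvPhi e).surjective x
  rw [Equiv.permCongr_apply, Equiv.symm_apply_apply, thorpPerm_apply, bvPhi_val, Perm.mul_apply]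
  obtain ⟨b, q, rfl⟩ : ∃ b q, p = (Fin.cons b q : BV (e + 1)) :=
    ⟨p 0, Fin.tail p, (Fin.cons_self_tail p).symm⟩
  rw [flipAt_cons, rotP_cons, bval_snoc]
  have hq := bval_lt e q
  have hval : ((bvPhi e (Fin.cons b q : BV (e + 1)) : Fin (2 * 2 ^ e)) : ℕ)
      = (if b then 2 ^ e else 0) + bval e q := by rw [bvPhi_val, bval_cons]
  have hres : ∀ (k : ℕ) (hk : k < 2 ^ e), k = bval e q →
      resC e c' ⟨k, hk⟩ = c' (Fin.cons false q) := by
    intro k hk hkq
    unfold resC
    have : (⟨k, hk⟩ : Fin (2 ^ e)) = bvE e q := Fin.ext (by rw [bvE_val]; exact hkq)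
    rw [this, Equiv.symm_apply_apply]
  unfold thorpMap
  cases b with
  | false =>
    have hlt : ((bvPhi e (Fin.cons false q : BV (e + 1)) : Fin (2 * 2 ^ e)) : ℕ) < 2 ^ e := by
      rw [hval]; simpa using hq
    rw [dif_pos hlt, hres _ hlt (by rw [hval]; simp), hval]
    simp
  | true =>
    have hlt : ¬ ((bvPhi e (Fin.cons true q : BV (e + 1)) : Fin (2 * 2 ^ e)) : ℕ) < 2 ^ e := by
      rw [hval]; simp
    rw [dif_neg hlt, hres _ _ (by rw [hval]; simp), hval]
    cases c' (Fin.cons false q) <;> simp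


/-- split the coins according to the top bit -/
noncomputable def splitC (e : ℕ) :
    (BV (e + 1) → Bool) ≃ (Fin (2 ^ e) → Bool) × (Fin (2 ^ e) → Bool) where
  toFun c' := (resC e c', fun i => c' (Fin.cons true ((bvE e).symm i)))
  invFun x := fun p => if p 0 then x.2 (bvE e (Fin.tail p)) else x.1 (bvE e (Fin.tail p))
  left_inv c' := by
    funext p
    have hp : (Fin.cons (p 0) (Fin.tail p) : BV (e + 1)) = p := Fin.cons_self_tail p
    simp only [resC, Equiv.symm_apply_apply]
    cases h : p 0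
    · rw [h] at hp
      simp [hp]
    · rw [h] at hp
      simp [hp]
  right_inv x := by
    refine Prod.ext ?_ ?_
    · funext i
      simp [resC, Fin.tail_cons]
    · funext i
      simp [Fin.tail_cons]

theorem sum_resC (e : ℕ) {M : Type} [AddCommMonoid M] (F : (Fin (2 ^ e) → Bool) → M) :
    ∑ c' : BV (e + 1) → Bool, F (resC e c') = (2 ^ (2 ^ e)) • ∑ c : Fin (2 ^ e) → Bool, F c := by
  rw [Fintype.sum_equiv (splitC e) (fun c' => F (resC e c'))
    (fun x : (Fin (2 ^ e) → Bool) × (Fin (2 ^ e) → Bool) => F x.1) (fun _ => rfl),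
    Fintype.sum_prod_type]
  simp only [Finset.sum_const, Finset.card_univ, Fintype.card_fun, Fintype.card_bool,
    Fintype.card_fin]
  rw [Finset.smul_sum]

theorem push_single {G H : Type} [Group G] [Group H] (f : G →* H) (g : G) (r : ℝ) :
    push f (MonoidAlgebra.single g r) = MonoidAlgebra.single (f g) r := by
  simp [push]

theorem thorp_bits (e : ℕ) : ∃ φ : BV (e + 1) ≃ Fin (2 * 2 ^ e),
    toMA (thorpLaw (2 ^ e)) = push φ.permCongrHom.toMonoidHom
      (MonoidAlgebra.single (rotP (e + 1)) (1 : ℝ) * dirAvg (0 : Fin (e + 1))) := by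
  refine ⟨bvPhi e, ?_⟩
  rw [toMA_thorpLaw]
  unfold dirAvg
  rw [mul_smul_comm, Finset.mul_sum, map_smul, map_sum]
  have h1 : ∀ c' : BV (e + 1) → Bool,
      push (bvPhi e).permCongrHom.toMonoidHom
        (MonoidAlgebra.single (rotP (e + 1)) (1 : ℝ) * MonoidAlgebra.single (flipAt 0 c') (1 : ℝ))
      = MonoidAlgebra.single (thorpPerm (2 ^ e) (resC e c')) (1 : ℝ) := by
    intro c'
    rw [MonoidAlgebra.single_mul_single, one_mul, push_single, ← thorp_conj]
    rfl
  simp only [h1]
  rw [sum_resC e (fun c => MonoidAlgebra.single (thorpPerm (2 ^ e) c) (1 : ℝ))]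
  rw [← Nat.cast_smul_eq_nsmul ℝ, smul_smul]
  congr 1
  push_cast
  have h2 : (2 : ℝ) ^ 2 ^ (e + 1) = (2 : ℝ) ^ 2 ^ e * (2 : ℝ) ^ 2 ^ e := by
    rw [← pow_add]; congr 1; rw [pow_succ]; ring
  rw [h2]
  have h3 : (2 : ℝ) ^ 2 ^ e ≠ 0 := by positivity
  field_simp

end Vale.Agent.Lib.P162
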