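import Mathlib
import Vale.Agent.Lib.P162.Defs

/-!
# P162 module B0 `ConvMA`: convolution of functions = product in the group algebra   (statements FROZEN)

`toMA μ = ∑_g single g (μ g)`.  `toMA_conv`: expand both sides with `MonoidAlgebra.single_mul_single`, reindex `g = h * k`.
(or compare coefficients: `MonoidAlgebra.ext`, `MonoidAlgebra.coeff_mul`/`mul_apply`-type lemmas.)
`sum_conv`: `∑_g ∑_h μ h ν (h⁻¹ g) = (∑ μ)(∑ ν)` (`Finset.sum_comm`, `Equiv.sum_comp (Equiv.mulLeft h⁻¹)`).
-/

namespace Vale.Agent.Lib.P162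

variable {G : Type} [Group G] [Fintype G] [DecidableEq G]

theorem toMA_conv (μ ν : G → ℝ) : toMA (conv μ ν) = toMA μ * toMA ν := by
  unfold toMA conv
  rw [Finset.sum_mul_sum]
  simp only [MonoidAlgebra.single_mul_single]
  have h1 : ∀ g : G, MonoidAlgebra.single g (∑ h : G, μ h * ν (h⁻¹ * g))
      = ∑ h : G, MonoidAlgebra.single g (μ h * ν (h⁻¹ * g)) := by
    intro g
    exact map_sum (MonoidAlgebra.singleAddHom g) _ _
  simp only [h1]
  rw [Finset.sum_comm]
  refine Finset.sum_congr rfl fun h _ => ?_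
  rw [← Equiv.sum_comp (Equiv.mulLeft h)]
  refine Finset.sum_congr rfl fun k _ => ?_
  simp

theorem toMA_convPow (μ : G → ℝ) (t : ℕ) : toMA (convPow μ t) = toMA μ ^ t := by
  induction t with
  | zero =>
    simp only [convPow, pow_zero]
    unfold toMA
    rw [Finset.sum_eq_single (1 : G)]
    · simp [MonoidAlgebra.one_def]
    · intro b _ hb
      simp [hb]
    · intro h
      exact absurd (Finset.mem_univ _) h
  | succ t ih =>
    simp only [convPow]
    rw [toMA_conv, ih, pow_succ']

theorem sum_conv (μ ν : G → ℝ) : ∑ g, conv μ ν g = (∑ g, μ g) * ∑ g, ν g := by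
  unfold conv
  rw [Finset.sum_comm, Finset.sum_mul]
  refine Finset.sum_congr rfl fun h _ => ?_
  rw [← Finset.mul_sum]
  congr 1
  exact Equiv.sum_comp (Equiv.mulLeft h⁻¹) ν

theorem sum_convPow (μ : G → ℝ) (h : ∑ g, μ g = 1) (t : ℕ) : ∑ g, convPow μ t g = 1 := by
  induction t with
  | zero => simp [convPow]
  | succ t ih =>
    simp only [convPow]
    rw [sum_conv, h, ih, one_mul]

end Vale.Agent.Lib.P162
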