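import Mathlib
import Vale.Agent.Lib.P162.Defs

/-!
# P162 module C0 `ExpOp`: wrappers for `NormedSpace.exp` on `V →L[ℝ] V`   (statements FROZEN)

Hint: Mathlib's lemmas on `NormedSpace.exp` want `NormedAlgebra ℚ 𝔸`; inside a proof write
`let +nondep : NormedAlgebra ℚ (V →L[ℝ] V) := .restrictScalars ℚ ℝ (V →L[ℝ] V)`
and then `NormedSpace.exp_add_of_commute`, `SemiconjBy.exp_right`, `Commute.exp_right`, ... apply.
`NormedSpace.exp_eq_tsum ℝ`, `NormedSpace.expSeries_summable'`/`NormedSpace.exp_series_hasSum_exp'`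
give the series; evaluate at a vector with `ContinuousLinearMap.apply ℝ V v` (a continuous linear map
on operators) and `ContinuousLinearMap.map_tsum` / `HasSum.mapL`.
-/

namespace Vale.Agent.Lib.P162

open NormedSpace

variable {V : Type} [NormedAddCommGroup V] [InnerProductSpace ℝ V] [CompleteSpace V]
variable {W : Type} [NormedAddCommGroup W] [InnerProductSpace ℝ W] [CompleteSpace W]

theorem exp_add_comm {A B : V →L[ℝ] V} (h : Commute A B) : exp (A + B) = exp A * exp B := by
  let +nondep : NormedAlgebra ℚ (V →L[ℝ] V) := .restrictScalars ℚ ℝ (V →L[ℝ] V)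
  exact exp_add_of_commute h

theorem commute_exp {A B : V →L[ℝ] V} (h : Commute A B) : Commute A (exp B) := by
  let +nondep : NormedAlgebra ℚ (V →L[ℝ] V) := .restrictScalars ℚ ℝ (V →L[ℝ] V)
  exact h.exp_right

/-- power series of `exp A` evaluated at a vector. -/
theorem exp_apply_hasSum (A : V →L[ℝ] V) (v : V) :
    HasSum (fun n : ℕ => ((n.factorial : ℝ)⁻¹) • ((A ^ n) v)) (exp A v) := by
  have h := (exp_series_hasSum_exp' (𝕂 := ℝ) A).mapL (ContinuousLinearMap.apply ℝ V v)
  simpa using h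

/-- intertwining passes to the exponential (two different spaces). -/
theorem exp_intertwine {A : V →L[ℝ] V} {B : W →L[ℝ] W} (J : W →L[ℝ] V)
    (h : ∀ w, A (J w) = J (B w)) (w : W) : exp A (J w) = J (exp B w) := by
  have hpow : ∀ (n : ℕ) (w : W), (A ^ n) (J w) = J ((B ^ n) w) := by
    intro n
    induction n with
    | zero => intro w; simp
    | succ n ih =>
      intro w
      have e1 : (A ^ (n + 1)) (J w) = (A ^ n) (A (J w)) := by rw [pow_succ]; rfl
      have e2 : (B ^ (n + 1)) w = (B ^ n) (B w) := by rw [pow_succ]; rfl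
      rw [e1, e2, h, ih]
  have h1 := exp_apply_hasSum A (J w)
  have h2 := (exp_apply_hasSum B w).mapL J
  have h3 : (fun n : ℕ => ((n.factorial : ℝ)⁻¹) • ((A ^ n) (J w))) =
      fun n : ℕ => J (((n.factorial : ℝ)⁻¹) • ((B ^ n) w)) := by
    funext n
    rw [hpow, map_smul]
  rw [h3] at h1
  exact h1.unique h2

theorem exp_eigen {A : V →L[ℝ] V} {v : V} {l : ℝ} (h : A v = l • v) :
    exp A v = Real.exp l • v := by
  have hpow : ∀ n : ℕ, (A ^ n) v = l ^ n • v := by
    intro n
    induction n with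
    | zero => simp
    | succ n ih =>
      have e1 : (A ^ (n + 1)) v = A ((A ^ n) v) := by rw [pow_succ']; rfl
      rw [e1, ih, map_smul, h, smul_smul, pow_succ]
  have h1 := exp_apply_hasSum A v
  have h2 : HasSum (fun n : ℕ => ((n.factorial : ℝ)⁻¹ * l ^ n) • v) (Real.exp l • v) := by
    have h3 : HasSum (fun n : ℕ => (n.factorial : ℝ)⁻¹ * l ^ n) (Real.exp l) := by
      have h4 := exp_series_hasSum_exp' (𝕂 := ℝ) l
      rw [← Real.exp_eq_exp_ℝ] at h4
      simpa using h4
    exact h3.smul_const v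
  have h5 : (fun n : ℕ => ((n.factorial : ℝ)⁻¹) • ((A ^ n) v)) =
      fun n : ℕ => ((n.factorial : ℝ)⁻¹ * l ^ n) • v := by
    funext n
    rw [hpow, smul_smul]
  rw [h5] at h1
  exact h1.unique h2

theorem exp_fix {A : V →L[ℝ] V} {v : V} (h : A v = 0) : exp A v = v := by
  have := exp_eigen (A := A) (v := v) (l := 0) (by rw [h, zero_smul])
  simpa using this

theorem exp_symm {A : V →L[ℝ] V} (h : ∀ x y, inner ℝ (A x) y = inner ℝ x (A y)) (x y : V) :
    inner ℝ (exp A x) y = inner ℝ x (exp A y) := by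
  have hpow : ∀ (n : ℕ) (x y : V), inner ℝ ((A ^ n) x) y = inner ℝ x ((A ^ n) y) := by
    intro n
    induction n with
    | zero => intro x y; simp
    | succ n ih =>
      intro x y
      have e1 : (A ^ (n + 1)) x = (A ^ n) (A x) := by rw [pow_succ]; rfl
      have e2 : (A ^ (n + 1)) y = A ((A ^ n) y) := by rw [pow_succ']; rfl
      rw [e1, e2, ih, h]
  have h1 := (exp_apply_hasSum A x).mapL (innerSL ℝ y)
  have h2 := (exp_apply_hasSum A y).mapL (innerSL ℝ x)
  have h3 : (fun n : ℕ => innerSL ℝ y (((n.factorial : ℝ)⁻¹) • ((A ^ n) x))) =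
      fun n : ℕ => innerSL ℝ x (((n.factorial : ℝ)⁻¹) • ((A ^ n) y)) := by
    funext n
    simp only [innerSL_apply_apply, inner_smul_right]
    rw [real_inner_comm, hpow]
  rw [h3] at h1
  have h4 := h1.unique h2
  simp only [innerSL_apply_apply] at h4
  rw [real_inner_comm, h4]

theorem exp_natCast_smul (k : ℕ) (A : V →L[ℝ] V) : exp ((k : ℝ) • A) = exp A ^ k := by
  let +nondep : NormedAlgebra ℚ (V →L[ℝ] V) := .restrictScalars ℚ ℝ (V →L[ℝ] V)
  rw [← exp_nsmul, Nat.cast_smul_eq_nsmul]

theorem hasDerivAt_exp_apply (A : V →L[ℝ] V) (w : V) (t : ℝ) :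
    HasDerivAt (fun u : ℝ => exp (u • A) w) (A (exp (t • A) w)) t := by
  have h := hasDerivAt_exp_smul_const' (𝕂 := ℝ) A t
  have h2 := (ContinuousLinearMap.apply ℝ V w).hasFDerivAt.comp_hasDerivAt t h
  have h3 : A (exp (t • A) w) = (ContinuousLinearMap.apply ℝ V w) (A * exp (t • A)) := rfl
  rw [h3]
  exact h2

/-- a closed subspace invariant under `A` is invariant under `exp A`. -/
theorem exp_mem_of_invariant {A : V →L[ℝ] V} (K : Submodule ℝ V) (hK : IsClosed (K : Set V))
    (h : ∀ v ∈ K, A v ∈ K) {v : V} (hv : v ∈ K) : exp A v ∈ K := by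
  have hpow : ∀ n : ℕ, (A ^ n) v ∈ K := by
    intro n
    induction n with
    | zero => simpa using hv
    | succ n ih =>
      have e1 : (A ^ (n + 1)) v = A ((A ^ n) v) := by rw [pow_succ']; rfl
      rw [e1]
      exact h _ ih
  have h1 := exp_apply_hasSum A v
  refine hK.mem_of_tendsto h1 (Filter.Eventually.of_forall fun s => ?_)
  exact K.sum_mem fun n _ => K.smul_mem _ (hpow n)

end Vale.Agent.Lib.P162
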