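import Mathlib
import Vale.Agent.Lib.P162.Defs
import Vale.Agent.Lib.P162.ExpOp

/-!
# P162 module C1 `Rep`: basic facts on orthogonal representations   (statements FROZEN)

All proofs are short.  `IsIso.inner_map`: polarization (or build a `LinearIsometry`).
`lap_central`: `ρ g * ρ (swap a b) = ρ (swap (g a) (g b)) * ρ g` (`Equiv.swap_apply_apply` /
`Equiv.Perm.mul_swap_eq_swap_mul`...), then reindex the double sum by `g`.
`Dominated.pow`: induction on `k`, `‖T^(k+1) v‖ = ‖T (T^k v)‖ ≤ ‖E (T^k v)‖ = ‖T^k (E v)‖ ≤ ‖E^k (E v)‖`,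
with `E = exp (-c • lap ρ)`, using `hat_commute_lap`, `commute_exp`, `exp_natCast_smul`.
-/

namespace Vale.Agent.Lib.P162

open Equiv NormedSpace

section General

variable {V : Type} [NormedAddCommGroup V] [InnerProductSpace ℝ V]
variable {G : Type} [Group G] {ρ : G →* (V →L[ℝ] V)}

theorem IsIso.inner_map (hρ : IsIso ρ) (g : G) (x y : V) :
    inner ℝ (ρ g x) (ρ g y) = inner ℝ x y := by
  rw [real_inner_eq_norm_add_mul_self_sub_norm_mul_self_sub_norm_mul_self_div_two,
    real_inner_eq_norm_add_mul_self_sub_norm_mul_self_sub_norm_mul_self_div_two x y,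
    ← map_add, hρ, hρ, hρ]

theorem IsIso.inner_left (hρ : IsIso ρ) (g : G) (x y : V) :
    inner ℝ (ρ g x) y = inner ℝ x (ρ g⁻¹ y) := by
  have h : ρ g (ρ g⁻¹ y) = y := by
    have : (ρ g * ρ g⁻¹) y = y := by
      rw [← map_mul, mul_inv_cancel, map_one]
      rfl
    exact this
  conv_lhs => rw [← h]
  exact hρ.inner_map g x _

theorem IsIso.comp {H : Type} [Group H] (hρ : IsIso ρ) (f : H →* G) : IsIso (ρ.comp f) :=
  fun h v => hρ (f h) v

theorem hat_single (ρ : G →* (V →L[ℝ] V)) (g : G) (r : ℝ) :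
    hat ρ (MonoidAlgebra.single g r) = r • ρ g :=
  MonoidAlgebra.lift_single ρ g r

theorem hat_push {H : Type} [Group H] (ρ : G →* (V →L[ℝ] V)) (f : H →* G)
    (x : MonoidAlgebra ℝ H) : hat ρ (push f x) = hat (ρ.comp f) x := by
  induction x using MonoidAlgebra.induction_on with
  | of h =>
    simp only [MonoidAlgebra.of_apply, push, MonoidAlgebra.mapDomainAlgHom_apply,
      MonoidAlgebra.mapDomain_single, hat_single]
    rfl
  | add a b ha hb =>
    rw [map_add, map_add, map_add, ha, hb]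
  | smul r a ha =>
    rw [map_smul, map_smul, map_smul, ha]

theorem hat_commute_of_forall {B : V →L[ℝ] V} (h : ∀ g, Commute (ρ g) B)
    (x : MonoidAlgebra ℝ G) : Commute (hat ρ x) B := by
  induction x using MonoidAlgebra.induction_on with
  | of g =>
    rw [MonoidAlgebra.of_apply, hat_single, one_smul]
    exact h g
  | add a b ha hb =>
    rw [map_add]
    exact ha.add_left hb
  | smul r a ha =>
    rw [map_smul]
    exact ha.smul_left r

end General

section PermRep

variable {V : Type} [NormedAddCommGroup V] [InnerProductSpace ℝ V]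
variable {P : Type} [DecidableEq P] {ρ : Perm P →* (V →L[ℝ] V)}

theorem swap_swap_apply (ρ : Perm P →* (V →L[ℝ] V)) (a b : P) (x : V) :
    ρ (swap a b) (ρ (swap a b) x) = x := by
  have : (ρ (swap a b) * ρ (swap a b)) x = x := by
    rw [← map_mul, swap_mul_self, map_one]
    rfl
  exact this

theorem swap_symm (hρ : IsIso ρ) (a b : P) (x y : V) :
    inner ℝ (ρ (swap a b) x) y = inner ℝ x (ρ (swap a b) y) := by
  rw [hρ.inner_left, swap_inv]

theorem one_sub_swap_symm (hρ : IsIso ρ) (a b : P) (x y : V) :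
    inner ℝ ((1 - ρ (swap a b)) x) y = inner ℝ x ((1 - ρ (swap a b)) y) := by
  simp only [sub_apply, one_apply_eq_self, inner_sub_left,
    inner_sub_right, swap_symm hρ]

theorem one_sub_swap_nonneg (hρ : IsIso ρ) (a b : P) (x : V) :
    0 ≤ inner ℝ x ((1 - ρ (swap a b)) x) := by
  simp only [sub_apply, one_apply_eq_self, inner_sub_right,
    real_inner_self_eq_norm_sq]
  have h := real_inner_le_norm x (ρ (swap a b) x)
  rw [hρ] at h
  nlinarith

theorem one_sub_swap_le (hρ : IsIso ρ) (a b : P) (x : V) :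
    inner ℝ x ((1 - ρ (swap a b)) x) ≤ 2 * ‖x‖ ^ 2 := by
  simp only [sub_apply, one_apply_eq_self, inner_sub_right,
    real_inner_self_eq_norm_sq]
  have h := neg_le_of_abs_le (abs_real_inner_le_norm x (ρ (swap a b) x))
  rw [hρ] at h
  nlinarith

theorem norm_one_sub_swap_sq (hρ : IsIso ρ) (a b : P) (x : V) :
    ‖(1 - ρ (swap a b)) x‖ ^ 2 = 2 * inner ℝ x ((1 - ρ (swap a b)) x) := by
  simp only [sub_apply, one_apply_eq_self, inner_sub_right,
    real_inner_self_eq_norm_sq]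
  rw [norm_sub_sq_real, hρ]
  ring

/-- conjugation of a transposition. -/
theorem rho_mul_swap (ρ : Perm P →* (V →L[ℝ] V)) (g : Perm P) (a b : P) :
    ρ g * ρ (swap a b) = ρ (swap (g a) (g b)) * ρ g := by
  rw [← map_mul, ← map_mul, mul_swap_eq_swap_mul]

theorem lapOn_symm (hρ : IsIso ρ) (R : Finset P) (x y : V) :
    inner ℝ (lapOn ρ R x) y = inner ℝ x (lapOn ρ R y) := by
  simp only [lapOn, sum_apply, sum_inner, inner_sum]
  exact Finset.sum_congr rfl fun a _ => Finset.sum_congr rfl fun b _ =>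
    one_sub_swap_symm hρ a b x y

variable [Fintype P]

theorem lapOn_univ (ρ : Perm P →* (V →L[ℝ] V)) : lapOn ρ Finset.univ = lap ρ := rfl

theorem lap_symm (hρ : IsIso ρ) (x y : V) :
    inner ℝ (lap ρ x) y = inner ℝ x (lap ρ y) := by
  rw [← lapOn_univ]
  exact lapOn_symm hρ _ x y

theorem lap_nonneg (hρ : IsIso ρ) (x : V) : 0 ≤ inner ℝ x (lap ρ x) := by
  simp only [lap, sum_apply, inner_sum]
  exact Finset.sum_nonneg fun a _ => Finset.sum_nonneg fun b _ => one_sub_swap_nonneg hρ a b x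

theorem lap_le (hρ : IsIso ρ) (x : V) :
    inner ℝ x (lap ρ x) ≤ 2 * (Fintype.card P : ℝ) ^ 2 * ‖x‖ ^ 2 := by
  simp only [lap, sum_apply, inner_sum]
  calc ∑ a : P, ∑ b : P, inner ℝ x ((1 - ρ (swap a b)) x)
      ≤ ∑ _a : P, ∑ _b : P, 2 * ‖x‖ ^ 2 :=
        Finset.sum_le_sum fun a _ => Finset.sum_le_sum fun b _ => one_sub_swap_le hρ a b x
    _ = 2 * (Fintype.card P : ℝ) ^ 2 * ‖x‖ ^ 2 := by
        simp only [Finset.sum_const, Finset.card_univ, nsmul_eq_mul]
        ring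

theorem lap_central (ρ : Perm P →* (V →L[ℝ] V)) (g : Perm P) : Commute (ρ g) (lap ρ) := by
  have h : lap ρ = ∑ a : P, ∑ b : P, (1 - ρ (swap (g a) (g b))) := by
    unfold lap
    rw [← Equiv.sum_comp g]
    refine Finset.sum_congr rfl fun a _ => ?_
    rw [← Equiv.sum_comp g]
  unfold Commute SemiconjBy
  conv_rhs => rw [h]
  unfold lap
  rw [Finset.mul_sum, Finset.sum_mul]
  refine Finset.sum_congr rfl fun a _ => ?_
  rw [Finset.mul_sum, Finset.sum_mul]
  refine Finset.sum_congr rfl fun b _ => ?_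
  rw [mul_sub, sub_mul, mul_one, one_mul, rho_mul_swap]

theorem hat_commute_lap (ρ : Perm P →* (V →L[ℝ] V)) (x : MonoidAlgebra ℝ (Perm P)) :
    Commute (hat ρ x) (lap ρ) :=
  hat_commute_of_forall (lap_central ρ) x

theorem lap_permCongr {Q : Type} [Fintype Q] [DecidableEq Q] (φ : Q ≃ P)
    (ρ : Perm P →* (V →L[ℝ] V)) :
    lap (ρ.comp φ.permCongrHom.toMonoidHom) = lap ρ := by
  unfold lap
  rw [← Equiv.sum_comp φ]
  refine Finset.sum_congr rfl fun a _ => ?_
  rw [← Equiv.sum_comp φ]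
  refine Finset.sum_congr rfl fun b _ => ?_
  have h : φ.permCongrHom.toMonoidHom (swap a b) = swap (φ a) (φ b) := by
    ext p
    simp only [MulEquiv.toMonoidHom_eq_coe, MonoidHom.coe_coe, permCongrHom_coe,
      permCongr_apply]
    rw [← symm_trans_swap_trans]
    rfl
  rw [MonoidHom.comp_apply, h]

theorem Dominated.push_equiv {Q : Type} [Fintype Q] [DecidableEq Q] (φ : Q ≃ P)
    {x : MonoidAlgebra ℝ (Perm Q)} {c : ℝ} (h : Dominated V x c) :
    Dominated V (push φ.permCongrHom.toMonoidHom x) c := by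
  intro ρ hρ v
  rw [hat_push, ← lap_permCongr φ ρ]
  exact h _ (hρ.comp _) v

theorem Dominated.pow [CompleteSpace V] {x : MonoidAlgebra ℝ (Perm P)} {c : ℝ}
    (h : Dominated V x c) (k : ℕ) : Dominated V (x ^ k) ((k : ℝ) * c) := by
  intro ρ hρ
  have hE : ∀ k : ℕ, exp (-((k : ℝ) * c) • lap ρ) = exp (-c • lap ρ) ^ k := by
    intro k
    rw [← exp_natCast_smul, smul_smul]
    congr 1
    congr 1
    ring
  have hcomm : ∀ k : ℕ, Commute (hat ρ (x ^ k)) (exp (-c • lap ρ)) := fun k =>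
    commute_exp ((hat_commute_lap ρ (x ^ k)).smul_right _)
  induction k with
  | zero =>
    intro v
    simp
  | succ k ih =>
    intro v
    rw [hE (k + 1), pow_succ', map_mul, pow_succ]
    rw [hE k] at ih
    calc ‖(hat ρ x * hat ρ (x ^ k)) v‖ = ‖hat ρ x (hat ρ (x ^ k) v)‖ := rfl
      _ ≤ ‖exp (-c • lap ρ) (hat ρ (x ^ k) v)‖ := h ρ hρ _
      _ = ‖(exp (-c • lap ρ) * hat ρ (x ^ k)) v‖ := rfl
      _ = ‖(hat ρ (x ^ k) * exp (-c • lap ρ)) v‖ := by rw [(hcomm k).eq]
      _ = ‖hat ρ (x ^ k) (exp (-c • lap ρ) v)‖ := rfl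
      _ ≤ ‖(exp (-c • lap ρ) ^ k) (exp (-c • lap ρ) v)‖ := ih _
      _ = ‖(exp (-c • lap ρ) ^ k * exp (-c • lap ρ)) v‖ := rfl

/-- the heat semigroup is a contraction. -/
theorem norm_exp_neg_lap_le [CompleteSpace V] (hρ : IsIso ρ) {t : ℝ} (ht : 0 ≤ t) (w : V) :
    ‖exp (-t • lap ρ) w‖ ≤ ‖w‖ := by
  set A : V →L[ℝ] V := -lap ρ with hA
  have hd : ∀ u : ℝ, HasDerivAt (fun u : ℝ => ‖exp (u • A) w‖ ^ 2)
      (2 * inner ℝ (exp (u • A) w) (A (exp (u • A) w))) u := fun u =>
    (hasDerivAt_exp_apply A w u).norm_sq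
  have hanti : Antitone (fun u : ℝ => ‖exp (u • A) w‖ ^ 2) := by
    apply antitone_of_deriv_nonpos (fun u => (hd u).differentiableAt)
    intro u
    rw [(hd u).deriv, hA, _root_.neg_apply, inner_neg_right]
    have := lap_nonneg hρ (exp (u • -lap ρ) w)
    linarith
  have h := hanti ht
  simp only [zero_smul, exp_zero, one_apply_eq_self] at h
  have h2 : t • A = -t • lap ρ := by rw [hA, smul_neg, neg_smul]
  rw [h2] at h
  exact (sq_le_sq₀ (norm_nonneg _) (norm_nonneg _)).1 h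

/-- `‖exp (-c • lap ρ) v‖` is nonincreasing in `c`. Proof: for `0 ≤ t`, `‖exp (-t • lap ρ) w‖ ≤ ‖w‖`
(the derivative of `t ↦ ‖exp (-t • L) w‖^2` is `-2 ⟪y, L y⟫ ≤ 0`), then
`exp (-c' • L) = exp (-(c'-c) • L) * exp (-c • L)`. -/
theorem Dominated.mono [CompleteSpace V] {x : MonoidAlgebra ℝ (Perm P)} {c c' : ℝ}
    (h : Dominated V x c') (hc : c ≤ c') : Dominated V x c := by
  intro ρ hρ v
  refine (h ρ hρ v).trans ?_
  have hsplit : exp (-c' • lap ρ) = exp (-(c' - c) • lap ρ) * exp (-c • lap ρ) := by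
    rw [← exp_add_comm (((Commute.refl (lap ρ)).smul_left _).smul_right _), ← add_smul]
    congr 2
    ring
  rw [hsplit]
  exact norm_exp_neg_lap_le hρ (sub_nonneg.2 hc) _

end PermRep

end Vale.Agent.Lib.P162
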