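import Mathlib
import Vale.Agent.Lib.P162.Defs
import Vale.Agent.Lib.P162.Rep

/-!
# P162 module C3 `Sectors`: Fourier decomposition under the group of flips   (statements FROZEN)

`flip : (Finset X, symmDiff) → Perm (X ⊕ X)` is a homomorphism, `sec ρ O` is the projection on the
character `S ↦ (-1)^|S ∩ O|`.
* `(-1)^|(S ∆ S') ∩ O| = (-1)^|S ∩ O| * (-1)^|S' ∩ O|` (and the same in the other variable)
  is the basic sign identity (`sign_symmDiff`).
* `sec_sum`: `∑_O (-1)^|S ∩ O| = 0` unless `S = ∅` (pair `O` with `O ∆ {u}`, `u ∈ S`: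
  `Finset.sum_involution`), `= 2^|X|` for `S = ∅`.
* `flip_mul_sec`: reindex `S' ↦ S ∆ S'`.
* `sec_orth`: pick `u ∈ O ∆ O'`; `⟪a,b⟫ = ⟪ρ(flip{u}) a, ρ(flip{u}) b⟫ = -⟪a,b⟫`.
* `sec_parseval`: expand `‖∑_O sec O y‖^2` with `sec_sum`, `sec_orth`.
* `sec_twist`: termwise with the sign identity.
-/

namespace Vale.Agent.Lib.P162

open Equiv NormedSpace

variable {X : Type} [DecidableEq X]

theorem flip_mul (S S' : Finset X) : flip S * flip S' = flip (symmDiff S S') := by
  ext p
  rcases p with u | u <;> by_cases h : u ∈ S <;> by_cases h' : u ∈ S' <;>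
    simp [flip, flipFun, h, h', Finset.mem_symmDiff]

theorem flip_empty : flip (∅ : Finset X) = 1 := by
  ext p
  rcases p with u | u <;> simp [flip, flipFun]

theorem flip_singleton (u : X) : flip ({u} : Finset X) = swap (Sum.inl u) (Sum.inr u) := by
  ext p
  rcases p with v | v
  · by_cases h : v = u
    · subst h
      simp [flip, flipFun]
    · have h1 : (Sum.inl v : X ⊕ X) ≠ Sum.inl u := fun hh => h (Sum.inl.inj hh)
      rw [swap_apply_of_ne_of_ne h1 (by simp)]
      simp [flip, flipFun, h]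
  · by_cases h : v = u
    · subst h
      simp [flip, flipFun]
    · have h1 : (Sum.inr v : X ⊕ X) ≠ Sum.inr u := fun hh => h (Sum.inr.inj hh)
      rw [swap_apply_of_ne_of_ne (by simp) h1]
      simp [flip, flipFun, h]

theorem flip_inv (S : Finset X) : (flip S)⁻¹ = flip S := by
  ext p
  rfl

theorem sgn_eq_prod (S O : Finset X) :
    (-1 : ℝ) ^ (S ∩ O).card = ∏ u ∈ O, (if u ∈ S then (-1 : ℝ) else 1) := by
  rw [Finset.prod_ite, Finset.prod_const, Finset.prod_const_one, mul_one,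
    Finset.filter_mem_eq_inter, Finset.inter_comm]

theorem sign_symmDiff (S S' O : Finset X) :
    (-1 : ℝ) ^ (symmDiff S S' ∩ O).card = (-1 : ℝ) ^ (S ∩ O).card * (-1 : ℝ) ^ (S' ∩ O).card := by
  rw [sgn_eq_prod, sgn_eq_prod, sgn_eq_prod, ← Finset.prod_mul_distrib]
  apply Finset.prod_congr rfl
  intro u _
  by_cases h : u ∈ S <;> by_cases h' : u ∈ S' <;> simp [h, h', Finset.mem_symmDiff]

theorem sign_symmDiff_right (S O O' : Finset X) :
    (-1 : ℝ) ^ (S ∩ symmDiff O O').card = (-1 : ℝ) ^ (S ∩ O).card * (-1 : ℝ) ^ (S ∩ O').card := by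
  rw [Finset.inter_comm S, Finset.inter_comm S, Finset.inter_comm S]
  exact sign_symmDiff O O' S

theorem sign_sq (S O : Finset X) :
    (-1 : ℝ) ^ (S ∩ O).card * (-1 : ℝ) ^ (S ∩ O).card = 1 := by
  rw [← mul_pow]
  simp

theorem sign_singleton (u : X) (O : Finset X) :
    (-1 : ℝ) ^ (({u} : Finset X) ∩ O).card = if u ∈ O then (-1 : ℝ) else 1 := by
  by_cases h : u ∈ O
  · rw [Finset.singleton_inter_of_mem h]
    simp [h]
  · rw [Finset.singleton_inter_of_notMem h]
    simp [h]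

/-- `O ↦ O ∆ D` as a permutation of `Finset X`. -/
def sdEquiv (D : Finset X) : Finset X ≃ Finset X :=
  Function.Involutive.toPerm (fun O => symmDiff O D) (fun O => symmDiff_symmDiff_cancel_right D O)

theorem sdEquiv_apply (D O : Finset X) : sdEquiv D O = symmDiff O D := rfl

variable [Fintype X]

theorem char_sum_right (S : Finset X) (hS : S ≠ ∅) :
    ∑ O : Finset X, (-1 : ℝ) ^ (S ∩ O).card = 0 := by
  obtain ⟨u, hu⟩ := Finset.nonempty_iff_ne_empty.2 hS
  have h1 : ∑ O : Finset X, (-1 : ℝ) ^ (S ∩ O).card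
      = ∑ O : Finset X, (-1 : ℝ) ^ (S ∩ symmDiff O {u}).card :=
    (Fintype.sum_equiv (sdEquiv {u}) _ _ (fun O => rfl)).symm
  have h2 : ∑ O : Finset X, (-1 : ℝ) ^ (S ∩ symmDiff O {u}).card
      = -∑ O : Finset X, (-1 : ℝ) ^ (S ∩ O).card := by
    rw [← Finset.sum_neg_distrib]
    apply Finset.sum_congr rfl
    intro O _
    rw [sign_symmDiff_right, Finset.inter_comm S {u}, sign_singleton, if_pos hu]
    ring
  linarith [h1.trans h2]

theorem char_sum_left (O : Finset X) (hO : O ≠ ∅) :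
    ∑ S : Finset X, (-1 : ℝ) ^ (S ∩ O).card = 0 := by
  have := char_sum_right O hO
  simp_rw [Finset.inter_comm O] at this
  exact this

omit [DecidableEq X] in
theorem two_pow_card_ne : ((2 : ℝ) ^ Fintype.card X) ≠ 0 := by positivity

variable {V : Type} [NormedAddCommGroup V] [InnerProductSpace ℝ V]
variable {ρ : Perm (X ⊕ X) →* (V →L[ℝ] V)}

theorem sec_sum (ρ : Perm (X ⊕ X) →* (V →L[ℝ] V)) : ∑ O : Finset X, sec ρ O = 1 := by
  unfold sec
  rw [← Finset.smul_sum, Finset.sum_comm]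
  have h : ∀ S : Finset X, ∑ O : Finset X, ((-1 : ℝ) ^ (S ∩ O).card) • ρ (flip S)
      = if S = ∅ then ((2 : ℝ) ^ Fintype.card X) • (1 : V →L[ℝ] V) else 0 := by
    intro S
    rw [← Finset.sum_smul]
    split_ifs with hS
    · subst hS
      simp [flip_empty]
    · rw [char_sum_right S hS, zero_smul]
  simp_rw [h]
  rw [Finset.sum_ite_eq' Finset.univ ∅, if_pos (Finset.mem_univ _), smul_smul,
    inv_mul_cancel₀ two_pow_card_ne, one_smul]

theorem flip_mul_sec (ρ : Perm (X ⊕ X) →* (V →L[ℝ] V)) (S O : Finset X) :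
    ρ (flip S) * sec ρ O = ((-1 : ℝ) ^ (S ∩ O).card) • sec ρ O := by
  have key : ρ (flip S) * ∑ S' : Finset X, ((-1 : ℝ) ^ (S' ∩ O).card) • ρ (flip S')
      = ((-1 : ℝ) ^ (S ∩ O).card) • ∑ S' : Finset X, ((-1 : ℝ) ^ (S' ∩ O).card) • ρ (flip S') := by
    rw [Finset.mul_sum, Finset.smul_sum]
    rw [← Fintype.sum_equiv (sdEquiv S)
      (fun S' => ((-1 : ℝ) ^ (S ∩ O).card) • ((-1 : ℝ) ^ (symmDiff S' S ∩ O).card) •
        ρ (flip (symmDiff S' S)))
      (fun S' => ((-1 : ℝ) ^ (S ∩ O).card) • ((-1 : ℝ) ^ (S' ∩ O).card) • ρ (flip S'))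
      (fun S' => rfl)]
    apply Finset.sum_congr rfl
    intro S' _
    rw [mul_smul_comm, ← map_mul, flip_mul, sign_symmDiff, smul_smul, symmDiff_comm S S']
    congr 1
    have := sign_sq S O
    calc (-1 : ℝ) ^ (S' ∩ O).card = (-1 : ℝ) ^ (S' ∩ O).card * 1 := by ring
      _ = (-1 : ℝ) ^ (S' ∩ O).card * ((-1 : ℝ) ^ (S ∩ O).card * (-1 : ℝ) ^ (S ∩ O).card) := by
          rw [this]
      _ = _ := by ring
  unfold sec
  rw [mul_smul_comm, key, smul_comm]

theorem sec_mul_flip (ρ : Perm (X ⊕ X) →* (V →L[ℝ] V)) (S O : Finset X) :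
    sec ρ O * ρ (flip S) = ((-1 : ℝ) ^ (S ∩ O).card) • sec ρ O := by
  rw [← flip_mul_sec]
  unfold sec
  rw [mul_smul_comm, smul_mul_assoc, Finset.mul_sum, Finset.sum_mul]
  congr 1
  apply Finset.sum_congr rfl
  intro S' _
  rw [mul_smul_comm, smul_mul_assoc, ← map_mul, ← map_mul, flip_mul, flip_mul, symmDiff_comm]

/-- `ρ (flip {u})` acts on the sector `O` by the sign `-1` if `u ∈ O`, `+1` otherwise. -/
theorem flip_singleton_sec (ρ : Perm (X ⊕ X) →* (V →L[ℝ] V)) (u : X) (O : Finset X) (y : V) :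
    ρ (flip {u}) (sec ρ O y) = (if u ∈ O then (-1 : ℝ) else 1) • sec ρ O y := by
  have h := congrArg (fun T : V →L[ℝ] V => T y) (flip_mul_sec ρ {u} O)
  simp only [mul_apply_eq_comp, _root_.smul_apply] at h
  rw [h, sign_singleton]

theorem sec_orth (hρ : IsIso ρ) {O O' : Finset X} (h : O ≠ O') (x y : V) :
    inner ℝ (sec ρ O x) (sec ρ O' y) = 0 := by
  have hne : symmDiff O O' ≠ ∅ := by
    intro hh
    apply h
    have : symmDiff O O' = ⊥ := hh
    exact symmDiff_eq_bot.1 this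
  obtain ⟨u, hu⟩ := Finset.nonempty_iff_ne_empty.2 hne
  have h1 := hρ.inner_map (flip {u}) (sec ρ O x) (sec ρ O' y)
  rw [flip_singleton_sec, flip_singleton_sec, inner_smul_left, inner_smul_right] at h1
  rw [Finset.mem_symmDiff] at hu
  rcases hu with ⟨h2, h3⟩ | ⟨h2, h3⟩
  · simp only [h2, h3, if_true, if_false] at h1
    simp at h1
    linarith
  · simp only [h2, h3, if_true, if_false] at h1
    simp at h1
    linarith

theorem sec_symm (hρ : IsIso ρ) (O : Finset X) (x y : V) :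
    inner ℝ (sec ρ O x) y = inner ℝ x (sec ρ O y) := by
  unfold sec
  simp only [_root_.smul_apply, _root_.sum_apply, inner_smul_left,
    inner_smul_right, sum_inner, inner_sum]
  congr 1
  apply Finset.sum_congr rfl
  intro S _
  rw [hρ.inner_left, flip_inv]
  simp

theorem sec_idem (ρ : Perm (X ⊕ X) →* (V →L[ℝ] V)) (O : Finset X) :
    sec ρ O * sec ρ O = sec ρ O := by
  have h : sec ρ O * sec ρ O = ((2 : ℝ) ^ Fintype.card X)⁻¹ •
      ∑ S : Finset X, ((-1 : ℝ) ^ (S ∩ O).card) • (ρ (flip S) * sec ρ O) := by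
    have h0 : sec ρ O = ((2 : ℝ) ^ Fintype.card X)⁻¹ •
      ∑ S : Finset X, ((-1 : ℝ) ^ (S ∩ O).card) • ρ (flip S) := rfl
    generalize sec ρ O = T at h0 ⊢
    conv_lhs => rw [h0]
    rw [smul_mul_assoc, Finset.sum_mul]
    simp_rw [smul_mul_assoc]
    rw [← h0]
  rw [h]
  simp_rw [flip_mul_sec, smul_smul, sign_sq, one_smul]
  rw [Finset.sum_const, Finset.card_univ, Fintype.card_finset, ← Nat.cast_smul_eq_nsmul ℝ, smul_smul]
  push_cast
  rw [inv_mul_cancel₀ two_pow_card_ne, one_smul]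

theorem sec_parseval (hρ : IsIso ρ) (y : V) : ∑ O : Finset X, ‖sec ρ O y‖ ^ 2 = ‖y‖ ^ 2 := by
  have hy : y = ∑ O : Finset X, sec ρ O y := by
    have := congrArg (fun T : V →L[ℝ] V => T y) (sec_sum ρ)
    simp only [_root_.sum_apply, one_apply_eq_self] at this
    exact this.symm
  have h1 : ‖y‖ ^ 2 = inner ℝ (∑ O : Finset X, sec ρ O y) (∑ O : Finset X, sec ρ O y) := by
    rw [← hy, real_inner_self_eq_norm_sq]
  rw [h1, sum_inner]
  apply Finset.sum_congr rfl
  intro O _
  rw [inner_sum, Finset.sum_eq_single O]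
  · rw [real_inner_self_eq_norm_sq]
  · intro O' _ hne
    exact sec_orth hρ (Ne.symm hne) y y
  · intro hh
    exact absurd (Finset.mem_univ O) hh

theorem sec_commute {B : V →L[ℝ] V} (hB : ∀ S : Finset X, Commute B (ρ (flip S)))
    (O : Finset X) : Commute B (sec ρ O) := by
  unfold sec
  apply Commute.smul_right
  apply Commute.sum_right
  intro S _
  exact (hB S).smul_right _

/-- an operator which anticommutes with the flips of the points of `D` and commutes with the other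
flips shifts the sectors by `D`. -/
theorem sec_twist {B : V →L[ℝ] V} (D : Finset X)
    (hB : ∀ S : Finset X, ρ (flip S) * B = ((-1 : ℝ) ^ (S ∩ D).card) • (B * ρ (flip S)))
    (O : Finset X) : sec ρ O * B = B * sec ρ (symmDiff O D) := by
  unfold sec
  rw [smul_mul_assoc, mul_smul_comm, Finset.sum_mul, Finset.mul_sum]
  congr 1
  apply Finset.sum_congr rfl
  intro S _
  rw [smul_mul_assoc, hB S, mul_smul_comm, smul_smul, sign_symmDiff_right]

theorem sec_of_invariant {g : V} (hg : ∀ S : Finset X, ρ (flip S) g = g) {O : Finset X}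
    (hO : O ≠ ∅) : sec ρ O g = 0 := by
  unfold sec
  simp only [_root_.smul_apply, _root_.sum_apply, hg]
  rw [← Finset.sum_smul, char_sum_left O hO, zero_smul, smul_zero]

end Vale.Agent.Lib.P162
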