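import Mathlib
import Vale.Agent.Lib.P162.Defs
import Vale.Agent.Lib.P162.Rep
import Vale.Agent.Lib.P162.Sectors

/-!
# P162 module C4a `Xi`: the operators `xi ρ u u'`   (statements FROZEN)

`xi ρ u u' = τ00 + τ11 - τ01 - τ10`, `τ00 = ρ (swap (inl u) (inl u'))`, `τ11 = ρ (swap (inr u) (inr u'))`,
`τ01 = ρ (swap (inl u) (inr u'))`, `τ10 = ρ (swap (inr u) (inl u'))`.

* `lap_sub_halves`: split `∑_{a b : X ⊕ X}` with `Fintype.sum_sum_type`;
  `inlHom X (swap u u') = swap (inl u) (inl u')` is `Equiv.Perm.sumCongr_swap_refl`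
  (`sumCongr_refl_swap` for `inr`).
* `flip_mul_xi`: `rho_mul_swap` gives `ρ (flip S) * ρ (swap a b) = ρ (swap (flip S a) (flip S b)) * ρ (flip S)`;
  four cases `u ∈ S`, `u' ∈ S`; the four terms are permuted, with the sign `(-1)^([u ∈ S] + [u' ∈ S])`.
* `xi_create`: `τ11 = e e' τ00 e e'`, `τ01 = e' τ00 e'`, `τ10 = e τ00 e` with `e = ρ (flip {u})`,
  `e' = ρ (flip {u'})` (again `rho_mul_swap`); move `e, e'` to the other side of the inner product
  (`IsIso.inner_left`, `flip_inv`) so `⟪b, xi a⟫ = 4 ⟪b, τ00 a⟫`; and `⟪b, a⟫ = 0` because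
  `⟪b,a⟫ = ⟪e b, e a⟫ = -⟪b,a⟫`.
-/

namespace Vale.Agent.Lib.P162

open Equiv NormedSpace

variable {X : Type} [DecidableEq X]
variable {V : Type} [NormedAddCommGroup V] [InnerProductSpace ℝ V]

/-- `τ00 + τ11 - τ01 - τ10`. -/
noncomputable def xi (ρ : Perm (X ⊕ X) →* (V →L[ℝ] V)) (u u' : X) : V →L[ℝ] V :=
  ρ (swap (Sum.inl u) (Sum.inl u')) + ρ (swap (Sum.inr u) (Sum.inr u'))
    - ρ (swap (Sum.inl u) (Sum.inr u')) - ρ (swap (Sum.inr u) (Sum.inl u'))

variable {ρ : Perm (X ⊕ X) →* (V →L[ℝ] V)}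

theorem xi_diag (ρ : Perm (X ⊕ X) →* (V →L[ℝ] V)) (u : X) :
    xi ρ u u = (2 : ℝ) • (1 - ρ (flip {u})) := by
  unfold xi
  rw [flip_singleton, swap_self, swap_self, swap_comm (Sum.inr u) (Sum.inl u)]
  have h1 : ρ (Equiv.refl (X ⊕ X)) = 1 := map_one ρ
  rw [h1, two_smul]
  abel

theorem xi_symm (hρ : IsIso ρ) (u u' : X) (x y : V) :
    inner ℝ (xi ρ u u' x) y = inner ℝ x (xi ρ u u' y) := by
  unfold xi
  simp only [_root_.sub_apply, _root_.add_apply, inner_sub_left,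
    inner_sub_right, inner_add_left, inner_add_right, swap_symm hρ]

theorem xi_norm_le (hρ : IsIso ρ) (u u' : X) (x : V) : ‖xi ρ u u' x‖ ≤ 4 * ‖x‖ := by
  unfold xi
  simp only [_root_.sub_apply, _root_.add_apply]
  have h1 := hρ (swap (Sum.inl u) (Sum.inl u')) x
  have h2 := hρ (swap (Sum.inr u) (Sum.inr u')) x
  have h3 := hρ (swap (Sum.inl u) (Sum.inr u')) x
  have h4 := hρ (swap (Sum.inr u) (Sum.inl u')) x
  calc _ ≤ ‖ρ (swap (Sum.inl u) (Sum.inl u')) x + ρ (swap (Sum.inr u) (Sum.inr u')) x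
          - ρ (swap (Sum.inl u) (Sum.inr u')) x‖ + ‖ρ (swap (Sum.inr u) (Sum.inl u')) x‖ :=
        norm_sub_le _ _
    _ ≤ (‖ρ (swap (Sum.inl u) (Sum.inl u')) x + ρ (swap (Sum.inr u) (Sum.inr u')) x‖
          + ‖ρ (swap (Sum.inl u) (Sum.inr u')) x‖) + ‖ρ (swap (Sum.inr u) (Sum.inl u')) x‖ := by
        gcongr
        exact norm_sub_le _ _
    _ ≤ ((‖ρ (swap (Sum.inl u) (Sum.inl u')) x‖ + ‖ρ (swap (Sum.inr u) (Sum.inr u')) x‖)
          + ‖ρ (swap (Sum.inl u) (Sum.inr u')) x‖) + ‖ρ (swap (Sum.inr u) (Sum.inl u')) x‖ := by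
        gcongr
        exact norm_add_le _ _
    _ = 4 * ‖x‖ := by rw [h1, h2, h3, h4]; ring

theorem flip_inl_mem {S : Finset X} {u : X} (h : u ∈ S) : flip S (Sum.inl u) = Sum.inr u := by
  simp [flip, flipFun, h]

theorem flip_inr_mem {S : Finset X} {u : X} (h : u ∈ S) : flip S (Sum.inr u) = Sum.inl u := by
  simp [flip, flipFun, h]

theorem flip_inl_notMem {S : Finset X} {u : X} (h : u ∉ S) : flip S (Sum.inl u) = Sum.inl u := by
  simp [flip, flipFun, h]

theorem flip_inr_notMem {S : Finset X} {u : X} (h : u ∉ S) : flip S (Sum.inr u) = Sum.inr u := by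
  simp [flip, flipFun, h]

theorem flip_mul_xi (ρ : Perm (X ⊕ X) →* (V →L[ℝ] V)) {u u' : X} (h : u ≠ u') (S : Finset X) :
    ρ (flip S) * xi ρ u u' = ((-1 : ℝ) ^ (S ∩ {u, u'}).card) • (xi ρ u u' * ρ (flip S)) := by
  rw [sgn_eq_prod, Finset.prod_pair h]
  unfold xi
  rw [mul_sub, mul_sub, mul_add, rho_mul_swap, rho_mul_swap, rho_mul_swap, rho_mul_swap,
    sub_mul, sub_mul, add_mul]
  by_cases h1 : u ∈ S <;> by_cases h2 : u' ∈ S
  · rw [flip_inl_mem h1, flip_inl_mem h2, flip_inr_mem h1, flip_inr_mem h2, if_pos h1, if_pos h2]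
    norm_num
    abel
  · rw [flip_inl_mem h1, flip_inl_notMem h2, flip_inr_mem h1, flip_inr_notMem h2, if_pos h1,
      if_neg h2]
    norm_num
    abel
  · rw [flip_inl_notMem h1, flip_inl_mem h2, flip_inr_notMem h1, flip_inr_mem h2, if_neg h1,
      if_pos h2]
    norm_num
    abel
  · rw [flip_inl_notMem h1, flip_inl_notMem h2, flip_inr_notMem h1, flip_inr_notMem h2, if_neg h1,
      if_neg h2]
    norm_num

theorem flip_symm (hρ : IsIso ρ) (S : Finset X) (x y : V) :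
    inner ℝ (ρ (flip S) x) y = inner ℝ x (ρ (flip S) y) := by
  rw [hρ.inner_left, flip_inv]

theorem xi_create (hρ : IsIso ρ) {u u' : X} (h : u ≠ u') {a b : V}
    (ha : ρ (flip {u}) a = a) (ha' : ρ (flip {u'}) a = a)
    (hb : ρ (flip {u}) b = -b) (hb' : ρ (flip {u'}) b = -b) :
    inner ℝ b (xi ρ u u' a) = -4 * inner ℝ b ((1 - ρ (swap (Sum.inl u) (Sum.inl u'))) a) := by
  have hu : u ∈ ({u} : Finset X) := Finset.mem_singleton_self u
  have hu' : u' ∈ ({u'} : Finset X) := Finset.mem_singleton_self u'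
  have hn : u' ∉ ({u} : Finset X) := fun hh => h (Finset.mem_singleton.1 hh).symm
  have hn' : u ∉ ({u'} : Finset X) := fun hh => h (Finset.mem_singleton.1 hh)
  -- generic transport
  have tr : ∀ (S : Finset X) (p q : X ⊕ X), ρ (flip S) a = a → ρ (flip S) b = -b →
      inner ℝ b (ρ (swap (flip S p) (flip S q)) a) = -inner ℝ b (ρ (swap p q) a) := by
    intro S p q hSa hSb
    have e1 : ρ (swap (flip S p) (flip S q)) a = ρ (flip S) (ρ (swap p q) a) := by
      have := congrArg (fun T : V →L[ℝ] V => T a) (rho_mul_swap ρ (flip S) p q)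
      simp only [mul_apply_eq_comp] at this
      rw [this, hSa]
    rw [e1, ← flip_symm hρ, hSb, inner_neg_left]
  have t10 := tr {u} (Sum.inl u) (Sum.inl u') ha hb
  rw [flip_inl_mem hu, flip_inl_notMem hn] at t10
  have t01 := tr {u'} (Sum.inl u) (Sum.inl u') ha' hb'
  rw [flip_inl_notMem hn', flip_inl_mem hu'] at t01
  have t11 := tr {u} (Sum.inl u) (Sum.inr u') ha hb
  rw [flip_inl_mem hu, flip_inr_notMem hn] at t11
  have hab : inner ℝ b a = 0 := by
    have := hρ.inner_map (flip {u}) b a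
    rw [ha, hb, inner_neg_left] at this
    linarith
  unfold xi
  simp only [_root_.sub_apply, _root_.add_apply, inner_sub_right,
    inner_add_right, one_apply_eq_self]
  rw [t10, t11, t01, hab]
  ring

variable [Fintype X]

theorem lap_inl (ρ : Perm (X ⊕ X) →* (V →L[ℝ] V)) :
    lap (ρ.comp (inlHom X)) = ∑ u : X, ∑ u' : X, (1 - ρ (swap (Sum.inl u) (Sum.inl u'))) := by
  unfold lap
  apply Finset.sum_congr rfl
  intro u _
  apply Finset.sum_congr rfl
  intro u' _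
  have e : inlHom X (swap u u') = swap (Sum.inl u) (Sum.inl u') :=
    Equiv.Perm.sumCongr_swap_one (α := X) (β := X) u u'
  rw [MonoidHom.comp_apply, e]

theorem lap_inr (ρ : Perm (X ⊕ X) →* (V →L[ℝ] V)) :
    lap (ρ.comp (inrHom X)) = ∑ u : X, ∑ u' : X, (1 - ρ (swap (Sum.inr u) (Sum.inr u'))) := by
  unfold lap
  apply Finset.sum_congr rfl
  intro u _
  apply Finset.sum_congr rfl
  intro u' _
  have e : inrHom X (swap u u') = swap (Sum.inr u) (Sum.inr u') :=
    Equiv.Perm.sumCongr_one_swap (α := X) (β := X) u u'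
  rw [MonoidHom.comp_apply, e]

theorem lap_sub_halves (ρ : Perm (X ⊕ X) →* (V →L[ℝ] V)) :
    lap ρ - (2 : ℝ) • lapHalves ρ = ∑ u : X, ∑ u' : X, xi ρ u u' := by
  unfold lapHalves
  rw [lap_inl, lap_inr]
  unfold lap
  rw [Fintype.sum_sum_type]
  simp_rw [Fintype.sum_sum_type]
  rw [← Finset.sum_add_distrib, ← Finset.sum_add_distrib, Finset.smul_sum, ← Finset.sum_sub_distrib]
  apply Finset.sum_congr rfl
  intro u _
  rw [← Finset.sum_add_distrib, ← Finset.sum_add_distrib, ← Finset.sum_add_distrib,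
    ← Finset.sum_add_distrib, Finset.smul_sum, ← Finset.sum_sub_distrib]
  apply Finset.sum_congr rfl
  intro u' _
  unfold xi
  rw [two_smul]
  abel

/-- the sector shift of `xi`. -/
theorem sec_mul_xi (ρ : Perm (X ⊕ X) →* (V →L[ℝ] V)) {u u' : X} (h : u ≠ u') (O : Finset X) :
    sec ρ O * xi ρ u u' = xi ρ u u' * sec ρ (symmDiff O {u, u'}) :=
  sec_twist {u, u'} (flip_mul_xi ρ h) O

end Vale.Agent.Lib.P162
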