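import Mathlib
import Vale.Agent.Lib.P162.Defs
import Vale.Agent.Lib.P162.Rep
import Vale.Agent.Lib.P162.Sectors
import Vale.Agent.Lib.P162.Xi

/-!
# P162 module C4b `PairBound`   (statements FROZEN)

Fix `u ≠ u'`, `D = {u,u'}`, `y_O = sec ρ O y`, `W_O = μ^|O|`, `N = |X|`.
Claim: `∑_O W_O ⟪y_O, xi (y_{O ∆ D})⟫ ≤ ∑_O cost O`.

Proof.  `O ↦ O ∆ D` is an involution of `Finset X`, and `xi` is symmetric, so
`LHS = (1/2) ∑_O (W_O + W_{O∆D}) ⟪y_O, xi y_{O∆D}⟫`; it suffices to show, for every `O`,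
`(W_O + W_{O∆D}) ⟪y_O, xi y_{O∆D}⟫ ≤ cost O + cost (O∆D)`   (`pair_pointwise`)
and to reindex.  Cases:
* exactly one of `u,u'` in `O`: `|O∆D| = |O|`, `⟪y_O, xi y_{O∆D}⟫ ≤ 4 ‖y_O‖ ‖y_{O∆D}‖ ≤ 2‖y_O‖^2 + 2‖y_{O∆D}‖^2`
  (`xi_norm_le`), both costs are `4 W ‖·‖^2`.
* `u,u' ∈ O` (target `b = y_O`, source `a = y_{O∆D}`, `O∆D = O \ D`, `|O| = k+2`, `|O∆D| = k`):
  by `xi_create` (hypotheses from `flip_singleton_sec`) `⟪b, xi a⟫ = -4 ⟪b, (1-τ) a⟫ ≤ 4 ‖b‖ ‖(1-τ) a‖`,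
  `‖(1-τ)a‖^2 = 2 ⟪a,(1-τ)a⟫` (`norm_one_sub_swap_sq`).  With `w = μ^k`:
  `w (1+μ^2) 4 ‖b‖ ‖(1-τ)a‖ ≤ θ w μ^2 ‖b‖^2 + (4 w (1+μ^2)^2/(θ μ^2)) ‖(1-τ)a‖^2`  (AM-GM), and
  `(1+μ^2)^2 ≤ 6 μ^2` because `1 ≤ μ^2 ≤ 3`; `θ = 48 N/(k+1)`, so the last term is
  `≤ (24 w/θ) 2 ⟪a,(1-τ)a⟫ = ((k+1)/N) w ⟪a,(1-τ)a⟫`.
* `u,u' ∉ O`: the same with the roles exchanged (use `xi_symm`).
-/

namespace Vale.Agent.Lib.P162

open Equiv NormedSpace

variable {X : Type} [DecidableEq X] [Fintype X]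
variable {V : Type} [NormedAddCommGroup V] [InnerProductSpace ℝ V]

/-- the cost charged to the sector `O` for the ordered pair `(u,u')`. -/
noncomputable def cost (ρ : Perm (X ⊕ X) →* (V →L[ℝ] V)) (μ : ℝ) (y : V) (u u' : X)
    (O : Finset X) : ℝ :=
  if u ∈ O then
    (if u' ∈ O then (48 * (Fintype.card X : ℝ) / ((O.card : ℝ) - 1)) * μ ^ O.card * ‖sec ρ O y‖ ^ 2
      else 4 * μ ^ O.card * ‖sec ρ O y‖ ^ 2)
  else
    (if u' ∈ O then 4 * μ ^ O.card * ‖sec ρ O y‖ ^ 2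
      else (((O.card : ℝ) + 1) / (Fintype.card X : ℝ)) * μ ^ O.card *
        inner ℝ (sec ρ O y) ((1 - ρ (swap (Sum.inl u) (Sum.inl u'))) (sec ρ O y)))

variable {ρ : Perm (X ⊕ X) →* (V →L[ℝ] V)}

/-- the AM-GM step, in pure real form. -/
theorem amgm_aux (c m P s E r : ℝ) (hr : 0 < r) (hc : c ^ 2 ≤ 6 * m) (hs : s ^ 2 = 2 * E) :
    4 * c * P * s ≤ (48 / r) * m * P ^ 2 + r * E := by
  have h1 : 4 * c * P * s * r ≤ 48 * m * P ^ 2 + r ^ 2 * E := by
    have h2 : 0 ≤ (6 * m - c ^ 2) * P ^ 2 := mul_nonneg (by linarith) (sq_nonneg P)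
    nlinarith [sq_nonneg (4 * c * P - r * s)]
  have h3 : (48 / r) * m * P ^ 2 + r * E = (48 * m * P ^ 2 + r ^ 2 * E) / r := by
    field_simp
  rw [h3, le_div_iff₀ hr]
  exact h1

omit [Fintype X] in
/-- the creation/annihilation case: `b` in a sector containing `u,u'`, `a` in the sector without. -/
theorem pair_core (hρ : IsIso ρ) {μ : ℝ} (h1 : 1 ≤ μ) (h3 : μ ^ 2 ≤ 3) {u u' : X} (h : u ≠ u')
    {a b : V} (ha : ρ (flip {u}) a = a) (ha' : ρ (flip {u'}) a = a)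
    (hb : ρ (flip {u}) b = -b) (hb' : ρ (flip {u'}) b = -b) (k : ℕ) {N : ℝ} (hN : 0 < N) :
    (μ ^ (k + 2) + μ ^ k) * inner ℝ b (xi ρ u u' a)
      ≤ (48 * N / ((k : ℝ) + 1)) * μ ^ (k + 2) * ‖b‖ ^ 2
        + (((k : ℝ) + 1) / N) * μ ^ k *
          inner ℝ a ((1 - ρ (swap (Sum.inl u) (Sum.inl u'))) a) := by
  have hμ0 : 0 ≤ μ := by linarith
  have hw : 0 ≤ μ ^ k := pow_nonneg hμ0 k
  have hA : (0 : ℝ) < (k : ℝ) + 1 := by positivity
  set z := (1 - ρ (swap (Sum.inl u) (Sum.inl u'))) a with hz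
  have hs : ‖z‖ ^ 2 = 2 * inner ℝ a z := norm_one_sub_swap_sq hρ _ _ a
  have hcs : -inner ℝ b z ≤ ‖b‖ * ‖z‖ := by
    have := abs_real_inner_le_norm b z
    have h2 := neg_abs_le (inner ℝ b z)
    linarith
  have hm1 : 1 ≤ μ ^ 2 := by nlinarith
  have hc : (1 + μ ^ 2) ^ 2 ≤ 6 * μ ^ 2 := by nlinarith
  have hr : 0 < ((k : ℝ) + 1) / N := div_pos hA hN
  have key := amgm_aux (1 + μ ^ 2) (μ ^ 2) ‖b‖ ‖z‖ (inner ℝ a z) (((k : ℝ) + 1) / N) hr hc hs
  have h48 : 48 / (((k : ℝ) + 1) / N) = 48 * N / ((k : ℝ) + 1) := by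
    field_simp
  rw [h48] at key
  rw [xi_create hρ h ha ha' hb hb', ← hz]
  have e1 : (μ ^ (k + 2) + μ ^ k) * (-4 * inner ℝ b z)
      = μ ^ k * (4 * (1 + μ ^ 2) * (-inner ℝ b z)) := by ring
  have e2 : (48 * N / ((k : ℝ) + 1)) * μ ^ (k + 2) * ‖b‖ ^ 2
        + (((k : ℝ) + 1) / N) * μ ^ k * inner ℝ a z
      = μ ^ k * ((48 * N / ((k : ℝ) + 1)) * μ ^ 2 * ‖b‖ ^ 2 + (((k : ℝ) + 1) / N) * inner ℝ a z) := by
    ring
  rw [e1, e2]
  refine mul_le_mul_of_nonneg_left ?_ hw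
  have hpos : 0 ≤ 4 * (1 + μ ^ 2) := by positivity
  calc 4 * (1 + μ ^ 2) * (-inner ℝ b z) ≤ 4 * (1 + μ ^ 2) * (‖b‖ * ‖z‖) :=
        mul_le_mul_of_nonneg_left hcs hpos
    _ = 4 * (1 + μ ^ 2) * ‖b‖ * ‖z‖ := by ring
    _ ≤ _ := key

omit [Fintype X] in
theorem mem_symmDiff_pair_left {u u' : X} (O : Finset X) :
    u ∈ symmDiff O {u, u'} ↔ u ∉ O := by
  simp [Finset.mem_symmDiff]

omit [Fintype X] in
theorem mem_symmDiff_pair_right {u u' : X} (O : Finset X) :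
    u' ∈ symmDiff O {u, u'} ↔ u' ∉ O := by
  simp [Finset.mem_symmDiff]

omit [Fintype X] in
theorem card_symmDiff_pair_both {u u' : X} (h : u ≠ u') {O : Finset X} (hu : u ∈ O) (hu' : u' ∈ O) :
    (symmDiff O {u, u'}).card + 2 = O.card := by
  have e : symmDiff O {u, u'} = (O.erase u).erase u' := by
    ext a
    simp only [Finset.mem_symmDiff, Finset.mem_insert, Finset.mem_singleton, Finset.mem_erase]
    by_cases h1 : a = u
    · subst h1; simp [hu]
    · by_cases h2 : a = u'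
      · subst h2; simp [hu']
      · simp [h1, h2]
  have hu'' : u' ∈ O.erase u := Finset.mem_erase.mpr ⟨h.symm, hu'⟩
  rw [e, Finset.card_erase_of_mem hu'', Finset.card_erase_of_mem hu]
  have : 2 ≤ O.card := by
    have : ({u, u'} : Finset X) ⊆ O := by
      intro a ha
      simp only [Finset.mem_insert, Finset.mem_singleton] at ha
      rcases ha with rfl | rfl <;> assumption
    have h2 := Finset.card_le_card this
    rwa [Finset.card_pair h] at h2
  omega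

omit [Fintype X] in
theorem card_symmDiff_pair_none {u u' : X} (h : u ≠ u') {O : Finset X} (hu : u ∉ O) (hu' : u' ∉ O) :
    (symmDiff O {u, u'}).card = O.card + 2 := by
  have e : symmDiff O {u, u'} = insert u (insert u' O) := by
    ext a
    simp only [Finset.mem_symmDiff, Finset.mem_insert, Finset.mem_singleton]
    by_cases h1 : a = u
    · subst h1; simp [hu]
    · by_cases h2 : a = u'
      · subst h2; simp [hu']
      · simp [h1, h2]
  rw [e, Finset.card_insert_of_notMem (by simp [h, hu]), Finset.card_insert_of_notMem hu']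

omit [Fintype X] in
theorem card_symmDiff_pair_one {u u' : X} (h : u ≠ u') {O : Finset X} (hu : u ∈ O) (hu' : u' ∉ O) :
    (symmDiff O {u, u'}).card = O.card := by
  have e : symmDiff O {u, u'} = insert u' (O.erase u) := by
    ext a
    simp only [Finset.mem_symmDiff, Finset.mem_insert, Finset.mem_singleton, Finset.mem_erase]
    by_cases h1 : a = u
    · subst h1; simp [hu, h]
    · by_cases h2 : a = u'
      · subst h2; simp [hu']
      · simp [h1, h2]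
  rw [e, Finset.card_insert_of_notMem (by simp [hu']), Finset.card_erase_of_mem hu]
  have : 1 ≤ O.card := Finset.card_pos.mpr ⟨u, hu⟩
  omega

omit [Fintype X] in
/-- the mixed case. -/
theorem pair_mixed (hρ : IsIso ρ) {μ : ℝ} (h1 : 1 ≤ μ) (u u' : X) (p q : V) (k : ℕ) :
    (μ ^ k + μ ^ k) * inner ℝ p (xi ρ u u' q) ≤ 4 * μ ^ k * ‖p‖ ^ 2 + 4 * μ ^ k * ‖q‖ ^ 2 := by
  have hw : 0 ≤ μ ^ k := pow_nonneg (by linarith) k
  have h2 : inner ℝ p (xi ρ u u' q) ≤ ‖p‖ * (4 * ‖q‖) :=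
    (real_inner_le_norm _ _).trans (mul_le_mul_of_nonneg_left (xi_norm_le hρ u u' q) (norm_nonneg p))
  have h3 : ‖p‖ * (4 * ‖q‖) ≤ 2 * ‖p‖ ^ 2 + 2 * ‖q‖ ^ 2 := by nlinarith [sq_nonneg (‖p‖ - ‖q‖)]
  nlinarith [mul_le_mul_of_nonneg_left (h2.trans h3) hw]

theorem pair_pointwise (hρ : IsIso ρ) {μ : ℝ} (h1 : 1 ≤ μ) (h3 : μ ^ 2 ≤ 3) (y : V)
    {u u' : X} (h : u ≠ u') (O : Finset X) :
    (μ ^ O.card + μ ^ (symmDiff O {u, u'}).card) *
        inner ℝ (sec ρ O y) (xi ρ u u' (sec ρ (symmDiff O {u, u'}) y))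
      ≤ cost ρ μ y u u' O + cost ρ μ y u u' (symmDiff O {u, u'}) := by
  have hN : (0 : ℝ) < (Fintype.card X : ℝ) := by
    have : 0 < Fintype.card X := Fintype.card_pos_iff.mpr ⟨u⟩
    exact_mod_cast this
  set O' := symmDiff O {u, u'} with hO'
  have m1 : u ∈ O' ↔ u ∉ O := mem_symmDiff_pair_left O
  have m2 : u' ∈ O' ↔ u' ∉ O := mem_symmDiff_pair_right O
  have f1 := flip_singleton_sec ρ u O y
  have f2 := flip_singleton_sec ρ u' O y
  have g1 := flip_singleton_sec ρ u O' y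
  have g2 := flip_singleton_sec ρ u' O' y
  by_cases hu : u ∈ O
  · have hu1 : u ∉ O' := fun hh => (m1.mp hh) hu
    by_cases hu' : u' ∈ O
    · -- both in `O`
      have hu2 : u' ∉ O' := fun hh => (m2.mp hh) hu'
      have hc : O'.card + 2 = O.card := card_symmDiff_pair_both h hu hu'
      simp only [hu, hu', hu1, hu2, if_true, if_false, neg_smul, one_smul] at f1 f2 g1 g2
      have := pair_core hρ h1 h3 h g1 g2 f1 f2 O'.card hN
      unfold cost
      simp only [hu, hu', hu1, hu2, if_true, if_false]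
      rw [← hc]
      have e : (((O'.card + 2 : ℕ) : ℝ) - 1) = (O'.card : ℝ) + 1 := by push_cast; ring
      rw [e]
      exact this
    · -- `u ∈ O`, `u' ∉ O`
      have hu2 : u' ∈ O' := m2.mpr hu'
      have hc : O'.card = O.card := card_symmDiff_pair_one h hu hu'
      unfold cost
      simp only [hu, hu', hu1, hu2, if_true, if_false]
      rw [hc]
      exact pair_mixed hρ h1 u u' _ _ _
  · have hu1 : u ∈ O' := m1.mpr hu
    by_cases hu' : u' ∈ O
    · -- `u ∉ O`, `u' ∈ O`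
      have hu2 : u' ∉ O' := fun hh => (m2.mp hh) hu'
      have hc : O'.card = O.card := by
        have := card_symmDiff_pair_one h.symm hu' hu
        rwa [Finset.pair_comm] at this
      unfold cost
      simp only [hu, hu', hu1, hu2, if_true, if_false]
      rw [hc]
      exact pair_mixed hρ h1 u u' _ _ _
    · -- none in `O`
      have hu2 : u' ∈ O' := m2.mpr hu'
      have hc : O'.card = O.card + 2 := card_symmDiff_pair_none h hu hu'
      simp only [hu, hu', hu1, hu2, if_true, if_false, neg_smul, one_smul] at f1 f2 g1 g2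
      have := pair_core hρ h1 h3 h f1 f2 g1 g2 O.card hN
      unfold cost
      simp only [hu, hu', hu1, hu2, if_true, if_false]
      rw [hc]
      have e : (((O.card + 2 : ℕ) : ℝ) - 1) = (O.card : ℝ) + 1 := by push_cast; ring
      rw [e, ← xi_symm hρ, real_inner_comm]
      linarith

theorem pair_bound (hρ : IsIso ρ) {μ : ℝ} (h1 : 1 ≤ μ) (h3 : μ ^ 2 ≤ 3) (y : V)
    {u u' : X} (h : u ≠ u') :
    ∑ O : Finset X, μ ^ O.card * inner ℝ (sec ρ O y) (xi ρ u u' (sec ρ (symmDiff O {u, u'}) y))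
      ≤ ∑ O : Finset X, cost ρ μ y u u' O := by
  have hσσ : ∀ O : Finset X, symmDiff (symmDiff O {u, u'}) {u, u'} = O :=
    fun O => symmDiff_symmDiff_cancel_right _ _
  have reidx : ∀ F : Finset X → ℝ, ∑ O : Finset X, F (symmDiff O {u, u'}) = ∑ O : Finset X, F O := by
    intro F
    refine Finset.sum_nbij' (fun O => symmDiff O {u, u'}) (fun O => symmDiff O {u, u'})
      (fun _ _ => Finset.mem_univ _) (fun _ _ => Finset.mem_univ _) (fun O _ => hσσ O)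
      (fun O _ => hσσ O) (fun _ _ => rfl)
  have r1 : ∑ O : Finset X, μ ^ O.card *
        inner ℝ (sec ρ O y) (xi ρ u u' (sec ρ (symmDiff O {u, u'}) y))
      = ∑ O : Finset X, μ ^ (symmDiff O {u, u'}).card *
        inner ℝ (sec ρ O y) (xi ρ u u' (sec ρ (symmDiff O {u, u'}) y)) := by
    rw [← reidx (fun O => μ ^ O.card *
        inner ℝ (sec ρ O y) (xi ρ u u' (sec ρ (symmDiff O {u, u'}) y)))]
    refine Finset.sum_congr rfl (fun O _ => ?_)
    rw [hσσ, ← xi_symm hρ, real_inner_comm]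
  have r2 := reidx (fun O => cost ρ μ y u u' O)
  have hsum := Finset.sum_le_sum (fun O (_ : O ∈ (Finset.univ : Finset (Finset X))) =>
    pair_pointwise hρ h1 h3 y h O)
  simp only [add_mul, Finset.sum_add_distrib] at hsum
  rw [← r1, r2] at hsum
  linarith

end Vale.Agent.Lib.P162
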