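import Mathlib
import Vale.Agent.Lib.P162.Defs
import Vale.Agent.Lib.P162.Rep
import Vale.Agent.Lib.P162.Sectors
import Vale.Agent.Lib.P162.Xi
import Vale.Agent.Lib.P162.PairBound

/-!
# P162 module C4c `CostSum`   (statement FROZEN)

Fix `O`, `k = |O|`, `N = |X|`, `a = sec ρ O y`, `W = μ^k ≥ 0`.  Sum `cost ρ μ y u u' O` over the ordered pairs
`u ≠ u'`:
* pairs with exactly one point in `O`: there are `2 k (N-k)` of them, each costs `4 W ‖a‖^2`:
  total `≤ 8 N k W ‖a‖^2`;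
* pairs inside `O`: `k (k-1)` of them, each costs `48 N/(k-1) W ‖a‖^2`: total `= 48 N k W ‖a‖^2` (`0` if `k ≤ 1`);
* pairs outside `O`: `((k+1)/N) W ∑ ⟪a,(1-τ00(u,u')) a⟫ ≤ ((k+1)/N) W ⟪a, lap ρ a⟫` because `lap ρ` is a sum of
  the nonnegative forms `⟪a,(1-ρ(swap p p'))a⟫` (`one_sub_swap_nonneg`) over all `p p' : X ⊕ X`, which contains the
  terms `(inl u, inl u')`; then `(k/N) ⟪a, lap ρ a⟫ ≤ (k/N) 2 (2N)^2 ‖a‖^2 = 8 N k ‖a‖^2` (`lap_le`,
  `card (X ⊕ X) = 2 N`).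
Total: `64 N k W ‖a‖^2 + (1/N) W ⟪a, lap ρ a⟫`.
(It is convenient to prove the bound for each fixed `O` (`cost_sum_fixed`), then swap the sums.)
-/

namespace Vale.Agent.Lib.P162

open Equiv NormedSpace

variable {X : Type} [DecidableEq X] [Fintype X]
variable {V : Type} [NormedAddCommGroup V] [InnerProductSpace ℝ V]
variable {ρ : Perm (X ⊕ X) →* (V →L[ℝ] V)}

/-- the `inl`-`inl` part of the Laplacian form is at most the whole form. -/
theorem sum_inl_form_le_lap (hρ : IsIso ρ) (a : V) :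
    ∑ u : X, ∑ u' : X, inner ℝ a ((1 - ρ (swap (Sum.inl u) (Sum.inl u'))) a)
      ≤ inner ℝ a (lap ρ a) := by
  have hnn : ∀ p p' : X ⊕ X, 0 ≤ inner ℝ a ((1 - ρ (swap p p')) a) :=
    fun p p' => one_sub_swap_nonneg hρ p p' a
  have e : inner ℝ a (lap ρ a)
      = ∑ p : X ⊕ X, ∑ p' : X ⊕ X, inner ℝ a ((1 - ρ (swap p p')) a) := by
    unfold lap
    simp only [sum_apply, inner_sum]
  rw [e, Fintype.sum_sum_type]
  have h1 : ∑ u : X, ∑ u' : X, inner ℝ a ((1 - ρ (swap (Sum.inl u) (Sum.inl u'))) a)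
      ≤ ∑ u : X, ∑ p' : X ⊕ X, inner ℝ a ((1 - ρ (swap (Sum.inl u) p')) a) := by
    refine Finset.sum_le_sum (fun u _ => ?_)
    rw [Fintype.sum_sum_type]
    have : 0 ≤ ∑ u' : X, inner ℝ a ((1 - ρ (swap (Sum.inl u) (Sum.inr u'))) a) :=
      Finset.sum_nonneg (fun u' _ => hnn _ _)
    linarith
  have h2 : 0 ≤ ∑ u : X, ∑ p' : X ⊕ X, inner ℝ a ((1 - ρ (swap (Sum.inr u) p')) a) :=
    Finset.sum_nonneg (fun u _ => Finset.sum_nonneg (fun p' _ => hnn _ _))
  linarith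

/-- the bound for a fixed first point `u`. -/
theorem cost_sum_row (hρ : IsIso ρ) {μ : ℝ} (h1 : 1 ≤ μ) (y : V)
    (O : Finset X) (u : X) :
    ∑ u' ∈ Finset.univ.erase u, cost ρ μ y u u' O
      ≤ (if u ∈ O then 52 * (Fintype.card X : ℝ) * (μ ^ O.card * ‖sec ρ O y‖ ^ 2) else 0)
        + 4 * (O.card : ℝ) * (μ ^ O.card * ‖sec ρ O y‖ ^ 2)
        + (((O.card : ℝ) + 1) / (Fintype.card X : ℝ)) * μ ^ O.card *
          ∑ u' : X, inner ℝ (sec ρ O y) ((1 - ρ (swap (Sum.inl u) (Sum.inl u'))) (sec ρ O y)) := by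
  set a := sec ρ O y with ha
  set W := μ ^ O.card with hW
  set N : ℝ := (Fintype.card X : ℝ) with hN
  have hW0 : 0 ≤ W := pow_nonneg (by linarith) _
  have hA0 : 0 ≤ W * ‖a‖ ^ 2 := mul_nonneg hW0 (sq_nonneg _)
  have hN0 : 0 ≤ N := Nat.cast_nonneg _
  have hk0 : (0 : ℝ) ≤ (O.card : ℝ) := Nat.cast_nonneg _
  have hE : ∀ u' : X, 0 ≤ inner ℝ a ((1 - ρ (swap (Sum.inl u) (Sum.inl u'))) a) :=
    fun u' => one_sub_swap_nonneg hρ _ _ a
  have hc3 : 0 ≤ (((O.card : ℝ) + 1) / N) * W := mul_nonneg (div_nonneg (by linarith) hN0) hW0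
  have hEs : 0 ≤ (((O.card : ℝ) + 1) / N) * W *
      ∑ u' : X, inner ℝ a ((1 - ρ (swap (Sum.inl u) (Sum.inl u'))) a) :=
    mul_nonneg hc3 (Finset.sum_nonneg (fun u' _ => hE u'))
  by_cases hu : u ∈ O
  · simp only [hu, if_true]
    have hcost : ∀ u' ∈ Finset.univ.erase u, cost ρ μ y u u' O
        = if u' ∈ O then (48 * N / ((O.card : ℝ) - 1)) * W * ‖a‖ ^ 2 else 4 * W * ‖a‖ ^ 2 := by
      intro u' _
      unfold cost
      simp only [hu, if_true]
      rfl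
    rw [Finset.sum_congr rfl hcost, Finset.sum_ite, Finset.sum_const, Finset.sum_const]
    have hf1 : (Finset.univ.erase u).filter (fun u' => u' ∈ O) = O.erase u := by
      ext x
      simp only [Finset.mem_filter, Finset.mem_erase, Finset.mem_univ, and_true]
    have hcard1 : ((Finset.univ.erase u).filter (fun u' => u' ∈ O)).card + 1 = O.card := by
      rw [hf1, Finset.card_erase_of_mem hu]
      have : 1 ≤ O.card := Finset.card_pos.mpr ⟨u, hu⟩
      omega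
    have hcard2 : (((Finset.univ.erase u).filter (fun u' => ¬ u' ∈ O)).card : ℝ) ≤ N := by
      rw [hN]
      exact_mod_cast Finset.card_le_univ _
    set m := ((Finset.univ.erase u).filter (fun u' => u' ∈ O)).card with hm
    have hkm : (O.card : ℝ) - 1 = (m : ℝ) := by
      rw [← hcard1]; push_cast; ring
    rw [hkm]
    have t1 : m • ((48 * N / (m : ℝ)) * W * ‖a‖ ^ 2) ≤ 48 * N * (W * ‖a‖ ^ 2) := by
      rw [nsmul_eq_mul]
      by_cases hm0 : m = 0
      · rw [hm0]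
        simp only [Nat.cast_zero, zero_mul]
        positivity
      · have : (m : ℝ) ≠ 0 := by exact_mod_cast hm0
        apply le_of_eq
        field_simp
    have t2 : ((Finset.univ.erase u).filter (fun u' => ¬ u' ∈ O)).card • (4 * W * ‖a‖ ^ 2)
        ≤ 4 * N * (W * ‖a‖ ^ 2) := by
      rw [nsmul_eq_mul]
      nlinarith [mul_le_mul_of_nonneg_right hcard2 hA0]
    have t3 : 0 ≤ 4 * (O.card : ℝ) * (W * ‖a‖ ^ 2) := by positivity
    linarith
  · simp only [hu, if_false, zero_add]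
    have hcost : ∀ u' ∈ Finset.univ.erase u, cost ρ μ y u u' O
        ≤ (if u' ∈ O then 4 * (W * ‖a‖ ^ 2) else 0) + (((O.card : ℝ) + 1) / N) * W *
          inner ℝ a ((1 - ρ (swap (Sum.inl u) (Sum.inl u'))) a) := by
      intro u' _
      unfold cost
      simp only [hu, if_false]
      have := mul_nonneg hc3 (hE u')
      by_cases hu' : u' ∈ O
      · simp only [hu', if_true]
        linarith
      · simp only [hu', if_false, zero_add]
        exact le_refl _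
    have hnn : ∀ u' : X, 0 ≤ (if u' ∈ O then 4 * (W * ‖a‖ ^ 2) else 0) + (((O.card : ℝ) + 1) / N) * W *
          inner ℝ a ((1 - ρ (swap (Sum.inl u) (Sum.inl u'))) a) := by
      intro u'
      have := mul_nonneg hc3 (hE u')
      by_cases hu' : u' ∈ O
      · simp only [hu', if_true]; linarith
      · simp only [hu', if_false, zero_add]; exact this
    refine (Finset.sum_le_sum hcost).trans ?_
    refine (Finset.sum_le_sum_of_subset_of_nonneg (Finset.erase_subset u Finset.univ)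
      (fun u' _ _ => hnn u')).trans ?_
    rw [Finset.sum_add_distrib, ← Finset.mul_sum, Finset.sum_ite_mem, Finset.univ_inter,
      Finset.sum_const, nsmul_eq_mul]
    apply le_of_eq
    ring

theorem cost_sum_fixed (hρ : IsIso ρ) (hX : 1 ≤ Fintype.card X) {μ : ℝ} (h1 : 1 ≤ μ) (y : V)
    (O : Finset X) :
    ∑ u : X, ∑ u' ∈ Finset.univ.erase u, cost ρ μ y u u' O
      ≤ 64 * (Fintype.card X : ℝ) * (μ ^ O.card * (O.card : ℝ) * ‖sec ρ O y‖ ^ 2)
        + (1 / (Fintype.card X : ℝ)) * (μ ^ O.card * inner ℝ (sec ρ O y) (lap ρ (sec ρ O y))) := by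
  refine (Finset.sum_le_sum (fun u _ => cost_sum_row hρ h1 y O u)).trans ?_
  set a := sec ρ O y with ha
  set W := μ ^ O.card with hW
  set N : ℝ := (Fintype.card X : ℝ) with hN
  have hW0 : 0 ≤ W := pow_nonneg (by linarith) _
  have hN1 : 1 ≤ N := by rw [hN]; exact_mod_cast hX
  have hN0 : 0 < N := by linarith
  have hk0 : (0 : ℝ) ≤ (O.card : ℝ) := Nat.cast_nonneg _
  have hc3 : 0 ≤ (((O.card : ℝ) + 1) / N) * W := mul_nonneg (div_nonneg (by linarith) hN0.le) hW0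
  rw [Finset.sum_add_distrib, Finset.sum_add_distrib]
  have q1 : ∑ u : X, (if u ∈ O then 52 * N * (W * ‖a‖ ^ 2) else 0)
      = (O.card : ℝ) * (52 * N * (W * ‖a‖ ^ 2)) := by
    rw [Finset.sum_ite_mem, Finset.univ_inter, Finset.sum_const, nsmul_eq_mul]
  have q2 : ∑ _u : X, 4 * (O.card : ℝ) * (W * ‖a‖ ^ 2) = N * (4 * (O.card : ℝ) * (W * ‖a‖ ^ 2)) := by
    rw [Finset.sum_const, nsmul_eq_mul, Finset.card_univ]
  have q3 : ∑ u : X, (((O.card : ℝ) + 1) / N) * W *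
        ∑ u' : X, inner ℝ a ((1 - ρ (swap (Sum.inl u) (Sum.inl u'))) a)
      = (((O.card : ℝ) + 1) / N) * W *
        ∑ u : X, ∑ u' : X, inner ℝ a ((1 - ρ (swap (Sum.inl u) (Sum.inl u'))) a) := by
    rw [Finset.mul_sum]
  rw [q1, q2, q3]
  have hL := sum_inl_form_le_lap hρ a
  have hL2 : inner ℝ a (lap ρ a) ≤ 8 * N ^ 2 * ‖a‖ ^ 2 := by
    have := lap_le hρ a
    rw [Fintype.card_sum] at this
    push_cast at this
    rw [← hN] at this
    nlinarith
  have hLn : 0 ≤ inner ℝ a (lap ρ a) := lap_nonneg hρ a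
  have s1 : (((O.card : ℝ) + 1) / N) * W *
      ∑ u : X, ∑ u' : X, inner ℝ a ((1 - ρ (swap (Sum.inl u) (Sum.inl u'))) a)
      ≤ (((O.card : ℝ) + 1) / N) * W * inner ℝ a (lap ρ a) := mul_le_mul_of_nonneg_left hL hc3
  have s2 : (((O.card : ℝ) + 1) / N) * W * inner ℝ a (lap ρ a)
      = ((O.card : ℝ) / N) * W * inner ℝ a (lap ρ a) + (1 / N) * (W * inner ℝ a (lap ρ a)) := by
    ring
  have s3 : ((O.card : ℝ) / N) * W * inner ℝ a (lap ρ a)
      ≤ ((O.card : ℝ) / N) * W * (8 * N ^ 2 * ‖a‖ ^ 2) :=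
    mul_le_mul_of_nonneg_left hL2 (mul_nonneg (div_nonneg hk0 hN0.le) hW0)
  have s4 : ((O.card : ℝ) / N) * W * (8 * N ^ 2 * ‖a‖ ^ 2)
      = 8 * N * (W * (O.card : ℝ) * ‖a‖ ^ 2) := by
    field_simp
  have s5 : (O.card : ℝ) * (52 * N * (W * ‖a‖ ^ 2)) + N * (4 * (O.card : ℝ) * (W * ‖a‖ ^ 2))
      = 56 * N * (W * (O.card : ℝ) * ‖a‖ ^ 2) := by ring
  linarith

theorem cost_sum (hρ : IsIso ρ) (hX : 1 ≤ Fintype.card X) {μ : ℝ} (h1 : 1 ≤ μ) (y : V) :
    ∑ u : X, ∑ u' ∈ Finset.univ.erase u, ∑ O : Finset X, cost ρ μ y u u' O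
      ≤ 64 * (Fintype.card X : ℝ) * ∑ O : Finset X, μ ^ O.card * (O.card : ℝ) * ‖sec ρ O y‖ ^ 2
        + (1 / (Fintype.card X : ℝ)) *
          ∑ O : Finset X, μ ^ O.card * inner ℝ (sec ρ O y) (lap ρ (sec ρ O y)) := by
  have e : ∑ u : X, ∑ u' ∈ Finset.univ.erase u, ∑ O : Finset X, cost ρ μ y u u' O
      = ∑ O : Finset X, ∑ u : X, ∑ u' ∈ Finset.univ.erase u, cost ρ μ y u u' O := by
    rw [Finset.sum_comm]
    refine Finset.sum_congr rfl (fun u _ => ?_)
    rw [Finset.sum_comm]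
  rw [e, Finset.mul_sum, Finset.mul_sum, ← Finset.sum_add_distrib]
  exact Finset.sum_le_sum (fun O _ => cost_sum_fixed hρ hX h1 y O)

end Vale.Agent.Lib.P162
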