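import Mathlib
import Vale.Agent.Lib.P162.Defs
import Vale.Agent.Lib.P162.ExpOp
import Vale.Agent.Lib.P162.Rep

/-!
# P162 module R1 `RegBasics`: the regular representation   (statements FROZEN)

Everything follows from `reg_apply`, `rtr_apply` (unfold, `LinearIsometryEquiv.piLpCongrLeft_apply`) by `ext`.
`norm_apply_dlt`: `dlt g = rtr G g⁻¹ (dlt 1)`, so `B (dlt g) = rtr G g⁻¹ (B (dlt 1))`, and `rtr` is isometric.
-/

namespace Vale.Agent.Lib.P162

open Equiv NormedSpace

theorem commute_exp_smul {V : Type} [NormedAddCommGroup V] [InnerProductSpace ℝ V]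
    [CompleteSpace V] {A B : V →L[ℝ] V} (h : Commute A B) (s : ℝ) : Commute A (exp (s • B)) :=
  commute_exp (h.smul_right s)

variable {G : Type} [Group G] [Fintype G]

theorem reg_apply (g : G) (f : EG G) (h : G) : (reg G g f) h = f (g⁻¹ * h) := by
  change ((LinearIsometryEquiv.piLpCongrLeft 2 ℝ ℝ (Equiv.mulLeft g)) f).ofLp h = _
  rw [LinearIsometryEquiv.piLpCongrLeft_apply, Equiv.piCongrLeft'_apply]
  rfl

theorem rtr_apply (g : G) (f : EG G) (h : G) : (rtr G g f) h = f (h * g) := by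
  change ((LinearIsometryEquiv.piLpCongrLeft 2 ℝ ℝ (Equiv.mulRight g⁻¹)) f).ofLp h = _
  rw [LinearIsometryEquiv.piLpCongrLeft_apply, Equiv.piCongrLeft'_apply]
  simp

theorem reg_isIso : IsIso (reg G) := by
  intro g v
  exact (LinearIsometryEquiv.piLpCongrLeft 2 ℝ ℝ (Equiv.mulLeft g)).norm_map v

theorem rtr_norm (g : G) (f : EG G) : ‖rtr G g f‖ = ‖f‖ :=
  (LinearIsometryEquiv.piLpCongrLeft 2 ℝ ℝ (Equiv.mulRight g⁻¹)).norm_map f

theorem rtr_commute_reg (g h : G) : Commute (rtr G g) (reg G h) := by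
  unfold Commute SemiconjBy
  ext f k
  change (rtr G g (reg G h f)) k = (reg G h (rtr G g f)) k
  rw [rtr_apply, reg_apply, reg_apply, rtr_apply, mul_assoc]

theorem rtr_commute_hat (g : G) (x : MonoidAlgebra ℝ G) : Commute (rtr G g) (hat (reg G) x) :=
  (hat_commute_of_forall (fun h => (rtr_commute_reg g h).symm) x).symm

variable [DecidableEq G]

theorem dlt_apply (g h : G) : (dlt g : EG G) h = if h = g then 1 else 0 := by
  unfold dlt
  exact PiLp.single_apply 2 ℝ g (1 : ℝ) h

theorem norm_dlt (g : G) : ‖(dlt g : EG G)‖ = 1 := by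
  unfold dlt
  rw [EuclideanSpace.single, PiLp.norm_single]
  simp

theorem inner_dlt_left (g : G) (f : EG G) : inner ℝ (dlt g) f = f g := by
  unfold dlt
  rw [EuclideanSpace.inner_single_left]
  simp

theorem reg_dlt (g h : G) : reg G g (dlt h) = dlt (g * h) := by
  ext k
  rw [reg_apply, dlt_apply, dlt_apply]
  congr 1
  rw [eq_iff_iff, inv_mul_eq_iff_eq_mul]

theorem rtr_dlt (g h : G) : rtr G g (dlt h) = dlt (h * g⁻¹) := by
  ext k
  rw [rtr_apply, dlt_apply, dlt_apply]
  congr 1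
  rw [eq_iff_iff, eq_mul_inv_iff_mul_eq]

theorem basisFun_eq_dlt (g : G) : EuclideanSpace.basisFun G ℝ g = dlt g := by
  rw [EuclideanSpace.basisFun_apply]
  rfl

/-- translation invariance. -/
theorem norm_apply_dlt {B : EG G →L[ℝ] EG G} (hB : ∀ g, Commute (rtr G g) B) (g : G) :
    ‖B (dlt g)‖ = ‖B (dlt 1)‖ := by
  have h1 : (dlt g : EG G) = rtr G g⁻¹ (dlt 1) := by
    rw [rtr_dlt, inv_inv, one_mul]
  have h2 : B (rtr G g⁻¹ (dlt 1)) = rtr G g⁻¹ (B (dlt 1)) := by
    change (B * rtr G g⁻¹) (dlt 1) = (rtr G g⁻¹ * B) (dlt 1)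
    rw [(hB g⁻¹).eq]
  rw [h1, h2, rtr_norm]

theorem hat_reg_dlt_apply (x : MonoidAlgebra ℝ G) (g : G) :
    (hat (reg G) x (dlt 1)) g = x.coeff g := by
  induction x using MonoidAlgebra.induction_on with
  | of h =>
    rw [MonoidAlgebra.of_apply, hat_single, one_smul, reg_dlt, mul_one, dlt_apply,
      MonoidAlgebra.coeff_single, Finsupp.single_apply]
    simp only [eq_comm]
  | add a b ha hb =>
    rw [map_add, MonoidAlgebra.coeff_add, Finsupp.add_apply, ← ha, ← hb]
    rfl
  | smul r a ha =>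
    rw [map_smul, MonoidAlgebra.coeff_smul, Finsupp.smul_apply, ← ha]
    rfl

theorem toMA_coeff (μ : G → ℝ) (g : G) : (toMA μ).coeff g = μ g := by
  unfold toMA
  rw [MonoidAlgebra.coeff_sum, Finsupp.finsetSum_apply]
  simp only [MonoidAlgebra.coeff_single, Finsupp.single_apply]
  simp

section PermCase

variable {P : Type} [Fintype P] [DecidableEq P]

theorem rtr_commute_lapOn (g : Perm P) (R : Finset P) :
    Commute (rtr (Perm P) g) (lapOn (reg (Perm P)) R) := by
  unfold lapOn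
  refine Commute.sum_right _ _ _ fun a _ => Commute.sum_right _ _ _ fun b _ => ?_
  exact (Commute.one_right _).sub_right (rtr_commute_reg g _)

theorem rtr_commute_lap (g : Perm P) : Commute (rtr (Perm P) g) (lap (reg (Perm P))) := by
  rw [← lapOn_univ]
  exact rtr_commute_lapOn g _

theorem rtr_commute_exp_lapOn (g : Perm P) (R : Finset P) (s : ℝ) :
    Commute (rtr (Perm P) g) (exp (s • lapOn (reg (Perm P)) R)) :=
  commute_exp_smul (rtr_commute_lapOn g R) s

theorem rtr_commute_exp_lap (g : Perm P) (s : ℝ) :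
    Commute (rtr (Perm P) g) (exp (s • lap (reg (Perm P)))) :=
  commute_exp_smul (rtr_commute_lap g) s

/-- `Zfun` as a sum over the group (a trace). -/
theorem Zfun_eq_sum (s : ℝ) :
    Zfun P s = ∑ g : Perm P, ‖exp (-s • lap (reg (Perm P))) (dlt g)‖ ^ 2 := by
  unfold Zfun
  have h : ∀ g : Perm P, ‖exp (-s • lap (reg (Perm P))) (dlt g)‖ ^ 2
      = ‖exp (-s • lap (reg (Perm P))) (dlt 1)‖ ^ 2 := fun g => by
    rw [norm_apply_dlt (fun k => rtr_commute_exp_lap k (-s)) g]
  rw [Finset.sum_congr rfl fun g _ => h g, Finset.sum_const, Finset.card_univ,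
    Fintype.card_perm, nsmul_eq_mul]

end PermCase

end Vale.Agent.Lib.P162
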