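import Mathlib
import Vale.Agent.Lib.P162.Defs
import Vale.Agent.Lib.P162.ExpOp
import Vale.Agent.Lib.P162.Rep
import Vale.Agent.Lib.P162.RegBasics

/-!
# P162 module H5 `Embed`: the trace of `exp (-2 s lapOn R)` on the invariants   (statements FROZEN)

`G = Perm P`, `n = |P|`, `R : Finset P`, `r = |R|`, `m = n - r`.  `κ = Perm.ofSubtype : Perm {x // x ∉ R} →* G`,
`ι = Perm.ofSubtype : Perm {x // x ∈ R} →* G`, both injective (`Equiv.Perm.ofSubtype_injective`), and
`ι a = κ k → a = 1 ∧ k = 1` (such a permutation fixes every point).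
`Qop R = (1/m!) ∑_k reg (κ k)` (`card (Perm {x // x ∉ R}) = m!`: `Fintype.card_perm`, `Fintype.card_subtype_compl`/`Fintype.card_coe`).

* `Qop_fix`: `reg (κ k) v = v` for `v ∈ Inv (reg G) R`, by `Equiv.Perm.swap_induction_on k` and
  `Equiv.Perm.ofSubtype_swap_eq`.
* `Qop_symm`: `IsIso.inner_left`, reindex `k ↦ k⁻¹`.   `Qop_idem`: reindex `k ↦ k' * k`.
* `Qop` commutes with `lapOn (reg G) R` (the supports are disjoint: `swap a b`, `a b ∈ R`, commutes with `κ k`;
  e.g. via `rho_mul_swap` and `κ k a = a` for `a ∈ R`: `Equiv.Perm.ofSubtype_apply_of_not_mem`), hence with `A = exp (-s • lapOn (reg G) R)`.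
* Embedding `J : EG (Perm {x // x ∈ R}) →L[ℝ] EG G`, `J f = ∑_h f h • dlt (ι h)`; `‖J f‖ = ‖f‖`; `reg G (ι h) (J f) = J (reg _ h f)`;
  so `lapOn (reg G) R (J f) = J (lap (reg _) f)` (sum over `a b ∈ R` = sum over the subtype, `Finset.sum_coe_sort`/`Finset.sum_attach`), and
  by `exp_intertwine`: `A (dlt 1) = A (J (dlt 1)) = J (exp (-s • lap (reg _)) (dlt 1))`.
* For `k ≠ 1`: `⟪J f, reg G (κ k) (J f')⟫ = 0` (disjoint supports).  Therefore, with `a = A (dlt 1) = J f`,
  `‖Qop R a‖^2 = ⟪a, Qop R a⟫ = (1/m!) ‖a‖^2 = (1/m!) ‖f‖^2 = (1/m!) (1/r!) Zfun {x // x ∈ R} s`.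
* `‖Qop R (A (dlt g))‖ = ‖Qop R (A (dlt 1))‖` by `norm_apply_dlt` (`Qop R * A` commutes with all `rtr`:
  `rtr_commute_reg`, `rtr_commute_exp_lapOn`).  Sum over `g`: factor `n!`, and `n!/(m! r!) = choose n r` (`Nat.choose_eq_factorial_div_factorial`,
  `Nat.choose_mul_factorial_mul_factorial`).
-/

namespace Vale.Agent.Lib.P162

open Equiv NormedSpace

variable {P : Type} [Fintype P] [DecidableEq P]

/-- averaging over the permutations of the complement of `R`. -/
noncomputable def Qop (R : Finset P) : EG (Perm P) →L[ℝ] EG (Perm P) :=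
  (((Fintype.card P - R.card).factorial : ℝ))⁻¹ •
    ∑ k : Perm {x // x ∉ R}, reg (Perm P) (Perm.ofSubtype k)

theorem card_perm_compl (R : Finset P) :
    Fintype.card (Perm {x // x ∉ R}) = (Fintype.card P - R.card).factorial := by
  rw [Fintype.card_perm, Fintype.card_subtype_compl, Fintype.card_coe]

theorem Qop_apply (R : Finset P) (v : EG (Perm P)) :
    Qop R v = (((Fintype.card P - R.card).factorial : ℝ))⁻¹ •
      ∑ k : Perm {x // x ∉ R}, reg (Perm P) (Perm.ofSubtype k) v := by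
  unfold Qop
  simp

theorem reg_ofSubtype_fix (R : Finset P) {v : EG (Perm P)} (hv : v ∈ Inv (reg (Perm P)) R)
    (k : Perm {x // x ∉ R}) : reg (Perm P) (Perm.ofSubtype k) v = v := by
  induction k using Equiv.Perm.swap_induction_on with
  | one => simp
  | swap_mul f x y hxy ih =>
    rw [map_mul, map_mul, ContinuousLinearMap.mul_apply, ih, Equiv.Perm.ofSubtype_swap_eq]
    exact hv x y x.2 y.2

omit [DecidableEq P] in
theorem fact_ne (R : Finset P) : (((Fintype.card P - R.card).factorial : ℝ)) ≠ 0 := by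
  exact_mod_cast Nat.factorial_ne_zero _

theorem Qop_fix (R : Finset P) {v : EG (Perm P)} (hv : v ∈ Inv (reg (Perm P)) R) :
    Qop R v = v := by
  rw [Qop_apply]
  simp only [reg_ofSubtype_fix R hv, Finset.sum_const, Finset.card_univ, card_perm_compl]
  rw [← Nat.cast_smul_eq_nsmul ℝ, smul_smul, inv_mul_cancel₀ (fact_ne R), one_smul]

theorem Qop_symm (R : Finset P) (x y : EG (Perm P)) :
    inner ℝ (Qop R x) y = inner ℝ x (Qop R y) := by
  rw [Qop_apply, Qop_apply, inner_smul_left, inner_smul_right, sum_inner, inner_sum]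
  simp only [conj_trivial]
  congr 1
  have e : ∑ k : Perm {x // x ∉ R}, inner ℝ x (reg (Perm P) (Perm.ofSubtype k) y)
      = ∑ k : Perm {x // x ∉ R}, inner ℝ x (reg (Perm P) (Perm.ofSubtype k⁻¹) y) :=
    (Equiv.sum_comp (Equiv.inv (Perm {x // x ∉ R}))
      (fun k => inner ℝ x (reg (Perm P) (Perm.ofSubtype k) y))).symm
  rw [e]
  refine Finset.sum_congr rfl fun k _ => ?_
  rw [reg_isIso.inner_left, map_inv Perm.ofSubtype k]

/-- the embedding of the group algebra of `Perm R`. -/
noncomputable def Jemb (R : Finset P) : EG (Perm {x // x ∈ R}) →L[ℝ] EG (Perm P) :=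
  ∑ h : Perm {x // x ∈ R},
    (EuclideanSpace.proj h : EG (Perm {x // x ∈ R}) →L[ℝ] ℝ).smulRight
      (dlt (Perm.ofSubtype h : Perm P))

theorem Jemb_apply (R : Finset P) (f : EG (Perm {x // x ∈ R})) :
    Jemb R f = ∑ h : Perm {x // x ∈ R}, f h • dlt (Perm.ofSubtype h : Perm P) := by
  unfold Jemb
  simp

theorem inner_comb {G H : Type} [Group G] [Fintype G] [DecidableEq G] [Fintype H]
    (φ ψ : H → G) (f f' : H → ℝ) :
    inner ℝ (∑ h, f h • (dlt (φ h) : EG G)) (∑ h, f' h • (dlt (ψ h) : EG G))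
      = ∑ h, ∑ h', f h * f' h' * (if φ h = ψ h' then 1 else 0) := by
  rw [sum_inner]
  refine Finset.sum_congr rfl fun h _ => ?_
  rw [inner_sum]
  refine Finset.sum_congr rfl fun h' _ => ?_
  rw [inner_smul_left, inner_smul_right, inner_dlt_left, dlt_apply]
  simp only [conj_trivial]
  ring

omit [Fintype P] in
theorem ofSubtype_mul_inj (R : Finset P) {k k' : Perm {x // x ∉ R}} {h h' : Perm {x // x ∈ R}}
    (e : (Perm.ofSubtype k : Perm P) * Perm.ofSubtype h = Perm.ofSubtype k' * Perm.ofSubtype h') :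
    k = k' ∧ h = h' := by
  constructor
  · ext x
    have e1 := congrArg (fun σ : Perm P => σ x.1) e
    simp only [Perm.mul_apply] at e1
    rw [Perm.ofSubtype_apply_of_not_mem h (fun hx => x.2 hx),
      Perm.ofSubtype_apply_of_not_mem h' (fun hx => x.2 hx),
      Perm.ofSubtype_apply_of_mem k x.2, Perm.ofSubtype_apply_of_mem k' x.2] at e1
    exact e1
  · ext x
    have e1 := congrArg (fun σ : Perm P => σ x.1) e
    simp only [Perm.mul_apply] at e1
    rw [Perm.ofSubtype_apply_of_mem h x.2, Perm.ofSubtype_apply_of_mem h' x.2,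
      Perm.ofSubtype_apply_of_not_mem k (fun hx => hx (h ⟨x.1, x.2⟩).2),
      Perm.ofSubtype_apply_of_not_mem k' (fun hx => hx (h' ⟨x.1, x.2⟩).2)] at e1
    exact e1

theorem reg_Jemb (R : Finset P) (g : Perm P) (f : EG (Perm {x // x ∈ R})) :
    reg (Perm P) g (Jemb R f)
      = ∑ h : Perm {x // x ∈ R}, f h • dlt (g * (Perm.ofSubtype h : Perm P)) := by
  rw [Jemb_apply, map_sum]
  refine Finset.sum_congr rfl fun h _ => ?_
  rw [map_smul, reg_dlt]

theorem inner_reg_Jemb (R : Finset P) (k k' : Perm {x // x ∉ R}) (f : EG (Perm {x // x ∈ R})) :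
    inner ℝ (reg (Perm P) (Perm.ofSubtype k) (Jemb R f)) (reg (Perm P) (Perm.ofSubtype k') (Jemb R f))
      = if k = k' then ‖f‖ ^ 2 else 0 := by
  rw [reg_Jemb, reg_Jemb, inner_comb]
  by_cases hk : k = k'
  · subst hk
    rw [if_pos rfl, EuclideanSpace.real_norm_sq_eq]
    refine Finset.sum_congr rfl fun h _ => ?_
    have : ∀ h' : Perm {x // x ∈ R}, f h * f h' *
        (if (Perm.ofSubtype k : Perm P) * Perm.ofSubtype h = Perm.ofSubtype k * Perm.ofSubtype h'
          then (1 : ℝ) else 0) = if h = h' then f h * f h' else 0 := by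
      intro h'
      by_cases hh : h = h'
      · subst hh; simp
      · rw [if_neg hh, if_neg (fun e => hh (ofSubtype_mul_inj R e).2), mul_zero]
    simp only [this]
    rw [Finset.sum_ite_eq]
    simp only [Finset.mem_univ, if_true]
    ring
  · rw [if_neg hk]
    refine Finset.sum_eq_zero fun h _ => Finset.sum_eq_zero fun h' _ => ?_
    rw [if_neg (fun e => hk (ofSubtype_mul_inj R e).1), mul_zero]

theorem Jemb_dlt_one (R : Finset P) : Jemb R (dlt 1) = dlt 1 := by
  rw [Jemb_apply]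
  simp only [dlt_apply]
  rw [Finset.sum_eq_single (1 : Perm {x // x ∈ R})]
  · simp
  · intro h _ hh
    rw [if_neg hh, zero_smul]
  · intro h
    exact absurd (Finset.mem_univ _) h

theorem reg_ofSubtype_Jemb (R : Finset P) (h : Perm {x // x ∈ R}) (f : EG (Perm {x // x ∈ R})) :
    reg (Perm P) (Perm.ofSubtype h) (Jemb R f) = Jemb R (reg (Perm {x // x ∈ R}) h f) := by
  rw [reg_Jemb, Jemb_apply, ← Equiv.sum_comp (Equiv.mulLeft h)
    (fun h'' => (reg (Perm {x // x ∈ R}) h f) h'' • (dlt (Perm.ofSubtype h'' : Perm P) : EG (Perm P)))]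
  refine Finset.sum_congr rfl fun h' _ => ?_
  simp only [Equiv.coe_mulLeft]
  rw [reg_apply, inv_mul_cancel_left, map_mul]

theorem lapOn_Jemb (R : Finset P) (f : EG (Perm {x // x ∈ R})) :
    lapOn (reg (Perm P)) R (Jemb R f) = Jemb R (lap (reg (Perm {x // x ∈ R})) f) := by
  unfold lapOn lap
  simp only [ContinuousLinearMap.sum_apply, map_sum, ContinuousLinearMap.sub_apply,
    ContinuousLinearMap.one_apply, map_sub, ← reg_ofSubtype_Jemb, Perm.ofSubtype_swap_eq]
  rw [← Finset.sum_coe_sort R]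
  refine Finset.sum_congr rfl fun a _ => ?_
  rw [← Finset.sum_coe_sort R]

theorem exp_lapOn_dlt_one (R : Finset P) (s : ℝ) :
    exp (-s • lapOn (reg (Perm P)) R) (dlt 1)
      = Jemb R (exp (-s • lap (reg (Perm {x // x ∈ R}))) (dlt 1)) := by
  rw [← Jemb_dlt_one R]
  apply exp_intertwine
  intro w
  simp only [ContinuousLinearMap.smul_apply, map_smul, lapOn_Jemb]

theorem norm_Qop_Jemb (R : Finset P) (f : EG (Perm {x // x ∈ R})) :
    ‖Qop R (Jemb R f)‖ ^ 2 = (((Fintype.card P - R.card).factorial : ℝ))⁻¹ * ‖f‖ ^ 2 := by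
  rw [← real_inner_self_eq_norm_sq, Qop_apply, inner_smul_left, inner_smul_right, sum_inner]
  simp only [inner_sum, inner_reg_Jemb, Finset.sum_ite_eq, Finset.mem_univ, if_true,
    Finset.sum_const, Finset.card_univ, card_perm_compl, conj_trivial, nsmul_eq_mul]
  have := fact_ne R
  field_simp

theorem rtr_commute_Qop (R : Finset P) (g : Perm P) : Commute (rtr (Perm P) g) (Qop R) := by
  show rtr (Perm P) g * Qop R = Qop R * rtr (Perm P) g
  ext1 v
  rw [ContinuousLinearMap.mul_apply, ContinuousLinearMap.mul_apply, Qop_apply, Qop_apply, map_smul,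
    map_sum]
  have hk : ∀ k : Perm {x // x ∉ R},
      rtr (Perm P) g (reg (Perm P) (Perm.ofSubtype k) v)
        = reg (Perm P) (Perm.ofSubtype k) (rtr (Perm P) g v) := by
    intro k
    have := congrArg (fun T : EG (Perm P) →L[ℝ] EG (Perm P) => T v)
      (rtr_commute_reg g (Perm.ofSubtype k : Perm P)).eq
    simpa using this
  simp only [hk]

theorem sum_Qop (R : Finset P) (s : ℝ) :
    ∑ g : Perm P, ‖Qop R (exp (-s • lapOn (reg (Perm P)) R) (dlt g))‖ ^ 2
      = ((Fintype.card P).choose R.card : ℝ) * Zfun {x // x ∈ R} s := by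
  have h1 : ∀ g : Perm P, ‖Qop R (exp (-s • lapOn (reg (Perm P)) R) (dlt g))‖
      = ‖Qop R (exp (-s • lapOn (reg (Perm P)) R) (dlt 1))‖ := by
    intro g
    have := norm_apply_dlt (B := Qop R * exp (-s • lapOn (reg (Perm P)) R))
      (fun g' => (rtr_commute_Qop R g').mul_right (rtr_commute_exp_lapOn g' R (-s))) g
    simpa using this
  simp only [h1, Finset.sum_const, Finset.card_univ, nsmul_eq_mul]
  rw [exp_lapOn_dlt_one, norm_Qop_Jemb, Fintype.card_perm]
  unfold Zfun
  rw [Fintype.card_coe]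
  have hle : R.card ≤ Fintype.card P := Finset.card_le_univ R
  have hch := Nat.choose_mul_factorial_mul_factorial hle
  have hch' : ((Fintype.card P).choose R.card : ℝ) * (R.card.factorial : ℝ)
      * ((Fintype.card P - R.card).factorial : ℝ) = ((Fintype.card P).factorial : ℝ) := by
    exact_mod_cast hch
  have := fact_ne R
  rw [← hch']
  field_simp

end Vale.Agent.Lib.P162
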