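import Mathlib
import Vale.Agent.Lib.P162.Defs

/-!
# P162 module H7 `Frec`: the analytic recursion   (statements FROZEN; pure real inequalities)

`Fbd 0 r = 1`, `Fbd n r = ∑_{J < n} G n J`, `G n J = 3^J ((n)_J)^2 r^(J n)`, `(n)_J = n.descFactorial J`.

`Fbd_rec`: for `n ≥ 1`, `0 ≤ r ≤ 1`:  `∑_{p < n} C(n,p)^2 r^(2 p (n-p)) Fbd p r ≤ Fbd n r`.
Proof.  The term `p = 0` is `1 = G n 0`.  For `1 ≤ p < n` and `i < p` put `j = n - p ≥ 1`, `t = p - i ≥ 1` (`n = i + j + t`).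
`C(n,p) (p)_i = n!/(j! t!)`, so the term `T(p,i) = C(n,p)^2 r^(2 p j) 3^i ((p)_i)^2 r^(i p) = 3^i (n!/(j! t!))^2 r^(2 p j + i p)`.
* if `t ≥ j`: take `J = i + j` (`1 ≤ J ≤ n-1`, `n - J = t`, `(n)_J = n!/t!`):
  `T ≤ 3^(-j) G n J`, since `2 p j + i p - J n = j (t - j) ≥ 0` and `1/(j!)^2 ≤ 1`.
* if `t < j`: take `J = p` (`n - J = j`, `(n)_J = n!/j!`):
  `T ≤ 3^(-t) G n p`, since `2 p j + i p - p n = p (j - t) ≥ 0`.
Hence `∑_{p,i} T ≤ ∑_{j ≥ 1} 3^(-j) ∑_{J=1}^{n-1} G n J + ∑_{t ≥ 1} 3^(-t) ∑_{J=1}^{n-1} G n J ≤ (1/2 + 1/2) ∑_{J=1}^{n-1} G n J`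
(for fixed `j` the map `(p,i) ↦ J = i + j` is injective as `p = n - j`; for fixed `t` the map `(p,i) ↦ p` is injective as `i = p - t`).
(A convenient way: bound `T(p,i) ≤ 3^(-(n-p)) G n (i+n-p) [i + n - p < n] + 3^(-(p-i)) G n p` termwise, then sum each part.)

`Fbd_le`: `(n)_J ≤ n^J`, so `G n J ≤ (3 n^2 r^n)^J ≤ (1/6)^J`, geometric series `≤ 6/5`.
-/

namespace Vale.Agent.Lib.P162

/-- the terms of `Fbd`. -/
noncomputable def Gt (n J : ℕ) (r : ℝ) : ℝ := (3 : ℝ) ^ J * ((n.descFactorial J : ℝ)) ^ 2 * r ^ (J * n)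

theorem Gt_nonneg (n J : ℕ) {r : ℝ} (h0 : 0 ≤ r) : 0 ≤ Gt n J r := by
  unfold Gt; positivity

theorem Fbd_pos_eq {n : ℕ} (hn : n ≠ 0) (r : ℝ) : Fbd n r = ∑ J ∈ Finset.range n, Gt n J r := by
  unfold Fbd Gt; rw [if_neg hn]

theorem Fbd_nonneg (n : ℕ) {r : ℝ} (h0 : 0 ≤ r) : 0 ≤ Fbd n r := by
  by_cases hn : n = 0
  · subst hn; simp [Fbd]
  · rw [Fbd_pos_eq hn]
    exact Finset.sum_nonneg fun J _ => Gt_nonneg n J h0

theorem choose_descFactorial_A (i j t : ℕ) :
    (i + j + t).choose (i + t) * (i + t).descFactorial i * j.factorial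
      = (i + j + t).descFactorial (i + j) := by
  have h1 := Nat.choose_mul_factorial_mul_factorial (show i + t ≤ i + j + t by omega)
  have h2 := Nat.factorial_mul_descFactorial (show i ≤ i + t by omega)
  have h3 := Nat.factorial_mul_descFactorial (show i + j ≤ i + j + t by omega)
  have e1 : i + j + t - (i + t) = j := by omega
  have e2 : i + t - i = t := by omega
  have e3 : i + j + t - (i + j) = t := by omega
  rw [e1] at h1; rw [e2] at h2; rw [e3] at h3
  have ht : 0 < t.factorial := Nat.factorial_pos t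
  apply Nat.eq_of_mul_eq_mul_left ht
  rw [h3, ← h1, ← h2]
  ring

theorem choose_descFactorial_B (i j t : ℕ) :
    (i + j + t).choose (i + t) * (i + t).descFactorial i * t.factorial
      = (i + j + t).descFactorial (i + t) := by
  have h1 := Nat.choose_mul_factorial_mul_factorial (show i + t ≤ i + j + t by omega)
  have h2 := Nat.factorial_mul_descFactorial (show i ≤ i + t by omega)
  have h3 := Nat.factorial_mul_descFactorial (show i + t ≤ i + j + t by omega)
  have e1 : i + j + t - (i + t) = j := by omega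
  have e2 : i + t - i = t := by omega
  rw [e1] at h1 h3; rw [e2] at h2
  have hj : 0 < j.factorial := Nat.factorial_pos j
  apply Nat.eq_of_mul_eq_mul_left hj
  rw [h3, ← h1, ← h2]
  ring

theorem term_bound (i j t : ℕ) {r : ℝ} (h0 : 0 ≤ r) (h1 : r ≤ 1) :
    (((i + j + t).choose (i + t) : ℝ)) ^ 2 * r ^ (2 * (i + t) * j) * Gt (i + t) i r
      ≤ (1 / 3 : ℝ) ^ j * Gt (i + j + t) (i + j) r + (1 / 3 : ℝ) ^ t * Gt (i + j + t) (i + t) r := by
  have hG1 := Gt_nonneg (i + j + t) (i + j) h0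
  have hG2 := Gt_nonneg (i + j + t) (i + t) h0
  have e0 : (((i + j + t).choose (i + t) : ℝ)) ^ 2 * r ^ (2 * (i + t) * j) * Gt (i + t) i r
      = (3 : ℝ) ^ i * ((((i + j + t).choose (i + t) * (i + t).descFactorial i : ℕ) : ℝ)) ^ 2
        * r ^ (2 * (i + t) * j + i * (i + t)) := by
    unfold Gt
    push_cast
    rw [pow_add]
    ring
  rw [e0]
  rcases le_total j t with hjt | htj
  · -- case t ≥ j
    have hA : (i + j + t).choose (i + t) * (i + t).descFactorial i
        ≤ (i + j + t).descFactorial (i + j) := by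
      rw [← choose_descFactorial_A]
      exact Nat.le_mul_of_pos_right _ (Nat.factorial_pos j)
    have hA' : ((((i + j + t).choose (i + t) * (i + t).descFactorial i : ℕ) : ℝ)) ^ 2
        ≤ (((i + j + t).descFactorial (i + j) : ℕ) : ℝ) ^ 2 := by
      apply pow_le_pow_left₀ (Nat.cast_nonneg _)
      exact_mod_cast hA
    have hE : r ^ (2 * (i + t) * j + i * (i + t)) ≤ r ^ ((i + j) * (i + j + t)) := by
      apply pow_le_pow_of_le_one h0 h1
      obtain ⟨k, rfl⟩ := Nat.exists_eq_add_of_le hjt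
      nlinarith
    have h3 : (3 : ℝ) ^ i = (1 / 3 : ℝ) ^ j * (3 : ℝ) ^ (i + j) := by
      rw [pow_add, one_div, inv_pow]
      field_simp
    calc (3 : ℝ) ^ i * ((((i + j + t).choose (i + t) * (i + t).descFactorial i : ℕ) : ℝ)) ^ 2
          * r ^ (2 * (i + t) * j + i * (i + t))
        ≤ (3 : ℝ) ^ i * (((i + j + t).descFactorial (i + j) : ℕ) : ℝ) ^ 2
          * r ^ ((i + j) * (i + j + t)) := by
          apply mul_le_mul _ hE (by positivity) (by positivity)
          exact mul_le_mul_of_nonneg_left hA' (by positivity)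
      _ = (1 / 3 : ℝ) ^ j * Gt (i + j + t) (i + j) r := by
          unfold Gt; rw [h3]; ring
      _ ≤ _ := by
          have : 0 ≤ (1 / 3 : ℝ) ^ t * Gt (i + j + t) (i + t) r := by positivity
          linarith
  · have hB : (i + j + t).choose (i + t) * (i + t).descFactorial i
        ≤ (i + j + t).descFactorial (i + t) := by
      rw [← choose_descFactorial_B]
      exact Nat.le_mul_of_pos_right _ (Nat.factorial_pos t)
    have hB' : ((((i + j + t).choose (i + t) * (i + t).descFactorial i : ℕ) : ℝ)) ^ 2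
        ≤ (((i + j + t).descFactorial (i + t) : ℕ) : ℝ) ^ 2 := by
      apply pow_le_pow_left₀ (Nat.cast_nonneg _)
      exact_mod_cast hB
    have hE : r ^ (2 * (i + t) * j + i * (i + t)) ≤ r ^ ((i + t) * (i + j + t)) := by
      apply pow_le_pow_of_le_one h0 h1
      obtain ⟨k, rfl⟩ := Nat.exists_eq_add_of_le htj
      nlinarith
    have h3 : (3 : ℝ) ^ i = (1 / 3 : ℝ) ^ t * (3 : ℝ) ^ (i + t) := by
      rw [pow_add, one_div, inv_pow]
      field_simp
    calc (3 : ℝ) ^ i * ((((i + j + t).choose (i + t) * (i + t).descFactorial i : ℕ) : ℝ)) ^ 2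
          * r ^ (2 * (i + t) * j + i * (i + t))
        ≤ (3 : ℝ) ^ i * (((i + j + t).descFactorial (i + t) : ℕ) : ℝ) ^ 2
          * r ^ ((i + t) * (i + j + t)) := by
          apply mul_le_mul _ hE (by positivity) (by positivity)
          exact mul_le_mul_of_nonneg_left hB' (by positivity)
      _ = (1 / 3 : ℝ) ^ t * Gt (i + j + t) (i + t) r := by
          unfold Gt; rw [h3]; ring
      _ ≤ _ := by
          have : 0 ≤ (1 / 3 : ℝ) ^ j * Gt (i + j + t) (i + j) r := by positivity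
          linarith

theorem geo_third (k : ℕ) : ∑ i ∈ Finset.range k, (1 / 3 : ℝ) ^ (k - i) ≤ 1 / 2 := by
  induction k with
  | zero => simp
  | succ k ih =>
    rw [Finset.sum_range_succ]
    have h : ∑ i ∈ Finset.range k, (1 / 3 : ℝ) ^ (k + 1 - i)
        = (1 / 3) * ∑ i ∈ Finset.range k, (1 / 3 : ℝ) ^ (k - i) := by
      rw [Finset.mul_sum]
      apply Finset.sum_congr rfl
      intro i hi
      have : k + 1 - i = (k - i) + 1 := by have := Finset.mem_range.1 hi; omega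
      rw [this, pow_succ]; ring
    rw [h]
    simp only [Nat.add_sub_cancel_left, pow_one]
    linarith


theorem shift_sum_le (g : ℕ → ℝ) (hg : ∀ J, 0 ≤ g J) (m p : ℕ) (hp : p < m) :
    ∑ i ∈ Finset.range (p + 1), g (i + (m - p - 1)) ≤ ∑ J ∈ Finset.range m, g J := by
  have h1 : ∑ i ∈ Finset.range (p + 1), g (i + (m - p - 1))
      = ∑ J ∈ Finset.Ico (m - p - 1) m, g J := by
    rw [Finset.sum_Ico_eq_sum_range]
    have : m - (m - p - 1) = p + 1 := by omega
    rw [this]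
    apply Finset.sum_congr rfl
    intro i _
    rw [add_comm]
  rw [h1]
  apply Finset.sum_le_sum_of_subset_of_nonneg
  · intro J hJ
    exact Finset.mem_range.2 (Finset.mem_Ico.1 hJ).2
  · intro J _ _
    exact hg J

theorem Fbd_rec {n : ℕ} (hn : 1 ≤ n) {r : ℝ} (h0 : 0 ≤ r) (h1 : r ≤ 1) :
    ∑ p ∈ Finset.range n, ((n.choose p : ℝ)) ^ 2 * r ^ (2 * p * (n - p)) * Fbd p r ≤ Fbd n r := by
  obtain ⟨m, rfl⟩ : ∃ m, n = m + 1 := ⟨n - 1, by omega⟩
  rw [Fbd_pos_eq (Nat.succ_ne_zero m), Finset.sum_range_succ', Finset.sum_range_succ' _ m]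
  have hz1 : (((m + 1).choose 0 : ℝ)) ^ 2 * r ^ (2 * 0 * (m + 1 - 0)) * Fbd 0 r = 1 := by
    simp [Fbd]
  have hz2 : Gt (m + 1) 0 r = 1 := by simp [Gt]
  rw [hz1, hz2]
  set S := ∑ J ∈ Finset.range m, Gt (m + 1) (J + 1) r with hS
  have hS0 : 0 ≤ S := Finset.sum_nonneg fun J _ => Gt_nonneg _ _ h0
  have key : ∀ p ∈ Finset.range m,
      (((m + 1).choose (p + 1) : ℝ)) ^ 2 * r ^ (2 * (p + 1) * (m + 1 - (p + 1))) * Fbd (p + 1) r
        ≤ (1 / 3 : ℝ) ^ (m - p) * S + Gt (m + 1) (p + 1) r * (1 / 2) := by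
    intro p hp
    have hpm : p < m := Finset.mem_range.1 hp
    rw [Fbd_pos_eq (Nat.succ_ne_zero p), Finset.mul_sum]
    have hterm : ∀ i ∈ Finset.range (p + 1),
        (((m + 1).choose (p + 1) : ℝ)) ^ 2 * r ^ (2 * (p + 1) * (m + 1 - (p + 1))) * Gt (p + 1) i r
          ≤ (1 / 3 : ℝ) ^ (m - p) * Gt (m + 1) (i + (m - p - 1) + 1) r
            + (1 / 3 : ℝ) ^ (p + 1 - i) * Gt (m + 1) (p + 1) r := by
      intro i hi
      have hip : i < p + 1 := Finset.mem_range.1 hi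
      have := term_bound i (m - p) (p + 1 - i) h0 h1
      have e1 : i + (m - p) + (p + 1 - i) = m + 1 := by omega
      have e2 : i + (p + 1 - i) = p + 1 := by omega
      have e3 : m + 1 - (p + 1) = m - p := by omega
      have e4 : i + (m - p - 1) + 1 = i + (m - p) := by omega
      rw [e1, e2] at this
      rw [e3, e4]
      exact this
    refine (Finset.sum_le_sum hterm).trans ?_
    rw [Finset.sum_add_distrib, ← Finset.mul_sum, ← Finset.sum_mul]
    apply add_le_add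
    · apply mul_le_mul_of_nonneg_left _ (by positivity)
      exact shift_sum_le (fun J => Gt (m + 1) (J + 1) r) (fun J => Gt_nonneg _ _ h0) m p hpm
    · rw [mul_comm]
      exact mul_le_mul_of_nonneg_left (geo_third (p + 1)) (Gt_nonneg _ _ h0)
  have hsum := Finset.sum_le_sum key
  rw [Finset.sum_add_distrib, ← Finset.sum_mul, ← Finset.sum_mul, ← hS] at hsum
  have hgeo := geo_third m
  have : (∑ i ∈ Finset.range m, (1 / 3 : ℝ) ^ (m - i)) * S ≤ 1 / 2 * S :=
    mul_le_mul_of_nonneg_right hgeo hS0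
  linarith

theorem Fbd_le {n : ℕ} {r : ℝ} (h0 : 0 ≤ r) (h : 3 * (n : ℝ) ^ 2 * r ^ n ≤ 1 / 6) :
    Fbd n r ≤ 6 / 5 := by
  by_cases hn : n = 0
  · subst hn; norm_num [Fbd]
  rw [Fbd_pos_eq hn]
  have hx0 : 0 ≤ 3 * (n : ℝ) ^ 2 * r ^ n := by positivity
  have hterm : ∀ J ∈ Finset.range n, Gt n J r ≤ (1 / 6 : ℝ) ^ J := by
    intro J _
    have hd : ((n.descFactorial J : ℕ) : ℝ) ≤ (n : ℝ) ^ J := by
      exact_mod_cast Nat.descFactorial_le_pow n J
    calc Gt n J r = (3 : ℝ) ^ J * ((n.descFactorial J : ℝ)) ^ 2 * (r ^ n) ^ J := by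
          unfold Gt; rw [← pow_mul, mul_comm n J]
      _ ≤ (3 : ℝ) ^ J * ((n : ℝ) ^ J) ^ 2 * (r ^ n) ^ J := by
          apply mul_le_mul_of_nonneg_right _ (by positivity)
          apply mul_le_mul_of_nonneg_left _ (by positivity)
          exact pow_le_pow_left₀ (Nat.cast_nonneg _) hd 2
      _ = (3 * (n : ℝ) ^ 2 * r ^ n) ^ J := by
          rw [mul_pow, mul_pow, ← pow_mul (n : ℝ) J 2, ← pow_mul (n : ℝ) 2 J, mul_comm J 2]
      _ ≤ (1 / 6 : ℝ) ^ J := pow_le_pow_left₀ hx0 h J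
  refine (Finset.sum_le_sum hterm).trans ?_
  rw [geom_sum_eq (by norm_num)]
  have : (0 : ℝ) ≤ (1 / 6 : ℝ) ^ n := by positivity
  rw [div_le_iff_of_neg (by norm_num)]
  linarith

end Vale.Agent.Lib.P162
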