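import Mathlib
import Vale.Agent.Lib.P162.Defs
import Vale.Agent.Lib.P162.Rep
import Vale.Agent.Lib.P162.Sectors
import Vale.Agent.Lib.P162.Xi
import Vale.Agent.Lib.P162.PairBound
import Vale.Agent.Lib.P162.CostSum

/-!
# P162 module C4d `FormBound`   (statement FROZEN)

`lap ρ - 2 • lapHalves ρ = ∑_{u,u'} xi ρ u u'` (`lap_sub_halves`).  For `y_O = sec ρ O y`:
* diagonal terms: `sec ρ O (xi ρ u u y) = 2 (1 - ρ(flip{u})) y_O = 4 [u ∈ O] y_O`
  (`xi_diag`, `sec_commute`/`sec_mul_flip`, `flip_singleton_sec`), so they contribute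
  `4 ∑_O μ^|O| |O| ‖y_O‖^2`;
* off-diagonal terms: `sec ρ O (xi ρ u u' y) = xi ρ u u' (y_{O ∆ {u,u'}})` (`sec_mul_xi`); apply `pair_bound`
  and `cost_sum`.
-/

namespace Vale.Agent.Lib.P162

open Equiv NormedSpace

variable {X : Type} [DecidableEq X] [Fintype X]
variable {V : Type} [NormedAddCommGroup V] [InnerProductSpace ℝ V]
variable {ρ : Perm (X ⊕ X) →* (V →L[ℝ] V)}

theorem sec_flip_apply (ρ : Perm (X ⊕ X) →* (V →L[ℝ] V)) (u : X) (O : Finset X) (y : V) :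
    sec ρ O (ρ (flip {u}) y) = (if u ∈ O then (-1 : ℝ) else 1) • sec ρ O y := by
  have h1 : sec ρ O (ρ (flip {u}) y) = (sec ρ O * ρ (flip {u})) y := rfl
  have h2 : ρ (flip {u}) (sec ρ O y) = (ρ (flip {u}) * sec ρ O) y := rfl
  rw [← flip_singleton_sec, h1, h2, sec_mul_flip, flip_mul_sec]

theorem form_diag (ρ : Perm (X ⊕ X) →* (V →L[ℝ] V)) (u : X) (O : Finset X) (y : V) :
    inner ℝ (sec ρ O y) (sec ρ O (xi ρ u u y)) = if u ∈ O then 4 * ‖sec ρ O y‖ ^ 2 else 0 := by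
  rw [xi_diag]
  simp only [smul_apply, sub_apply,
    one_apply_eq_self, map_smul, map_sub, sec_flip_apply]
  by_cases h : u ∈ O
  · simp only [h, if_true, neg_smul, one_smul, sub_neg_eq_add, inner_smul_right, inner_add_right,
      real_inner_self_eq_norm_sq]
    ring
  · simp [h]

theorem form_off (ρ : Perm (X ⊕ X) →* (V →L[ℝ] V)) {u u' : X} (h : u ≠ u') (O : Finset X)
    (y : V) : sec ρ O (xi ρ u u' y) = xi ρ u u' (sec ρ (symmDiff O {u, u'}) y) := by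
  have h1 : sec ρ O (xi ρ u u' y) = (sec ρ O * xi ρ u u') y := rfl
  rw [h1, sec_mul_xi ρ h]
  rfl

theorem form_split (ρ : Perm (X ⊕ X) →* (V →L[ℝ] V)) (O : Finset X) (y : V) :
    inner ℝ (sec ρ O y) (sec ρ O ((lap ρ - (2 : ℝ) • lapHalves ρ) y))
      = 4 * ((O.card : ℝ) * ‖sec ρ O y‖ ^ 2)
        + ∑ u : X, ∑ u' ∈ Finset.univ.erase u,
            inner ℝ (sec ρ O y) (xi ρ u u' (sec ρ (symmDiff O {u, u'}) y)) := by
  rw [lap_sub_halves]
  simp only [sum_apply, map_sum, inner_sum]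
  have h1 : ∀ u : X, ∑ u' : X, inner ℝ (sec ρ O y) (sec ρ O (xi ρ u u' y))
      = (if u ∈ O then 4 * ‖sec ρ O y‖ ^ 2 else 0)
        + ∑ u' ∈ Finset.univ.erase u,
            inner ℝ (sec ρ O y) (xi ρ u u' (sec ρ (symmDiff O {u, u'}) y)) := by
    intro u
    rw [← Finset.add_sum_erase Finset.univ _ (Finset.mem_univ u), form_diag]
    congr 1
    apply Finset.sum_congr rfl
    intro u' hu'
    rw [form_off ρ (Finset.ne_of_mem_erase hu').symm]
  simp only [h1, Finset.sum_add_distrib]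
  congr 1
  rw [Finset.sum_ite_mem, Finset.univ_inter, Finset.sum_const, nsmul_eq_mul]
  ring

theorem form_bound (hρ : IsIso ρ) (hX : 1 ≤ Fintype.card X) {μ : ℝ} (h1 : 1 ≤ μ) (h3 : μ ^ 2 ≤ 3)
    (y : V) :
    ∑ O : Finset X, μ ^ O.card *
        inner ℝ (sec ρ O y) (sec ρ O ((lap ρ - (2 : ℝ) • lapHalves ρ) y))
      ≤ (4 + 64 * (Fintype.card X : ℝ)) * ∑ O : Finset X, μ ^ O.card * (O.card : ℝ) * ‖sec ρ O y‖ ^ 2
        + (1 / (Fintype.card X : ℝ)) *
          ∑ O : Finset X, μ ^ O.card * inner ℝ (sec ρ O y) (lap ρ (sec ρ O y)) := by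
  simp only [form_split, mul_add, Finset.sum_add_distrib]
  have hA : ∑ O : Finset X, μ ^ O.card * (4 * ((O.card : ℝ) * ‖sec ρ O y‖ ^ 2))
      = 4 * ∑ O : Finset X, μ ^ O.card * (O.card : ℝ) * ‖sec ρ O y‖ ^ 2 := by
    rw [Finset.mul_sum]
    apply Finset.sum_congr rfl
    intro O _
    ring
  have hB : ∑ O : Finset X, μ ^ O.card * ∑ u : X, ∑ u' ∈ Finset.univ.erase u,
        inner ℝ (sec ρ O y) (xi ρ u u' (sec ρ (symmDiff O {u, u'}) y))
      = ∑ u : X, ∑ u' ∈ Finset.univ.erase u, ∑ O : Finset X,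
        μ ^ O.card * inner ℝ (sec ρ O y) (xi ρ u u' (sec ρ (symmDiff O {u, u'}) y)) := by
    simp only [Finset.mul_sum]
    rw [Finset.sum_comm]
    apply Finset.sum_congr rfl
    intro u _
    rw [Finset.sum_comm]
  have hC : ∑ u : X, ∑ u' ∈ Finset.univ.erase u, ∑ O : Finset X,
        μ ^ O.card * inner ℝ (sec ρ O y) (xi ρ u u' (sec ρ (symmDiff O {u, u'}) y))
      ≤ ∑ u : X, ∑ u' ∈ Finset.univ.erase u, ∑ O : Finset X, cost ρ μ y u u' O := by
    apply Finset.sum_le_sum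
    intro u _
    apply Finset.sum_le_sum
    intro u' hu'
    exact pair_bound hρ h1 h3 y (Finset.ne_of_mem_erase hu').symm
  have hD := cost_sum hρ hX h1 y
  rw [hA, hB]
  linarith

end Vale.Agent.Lib.P162
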