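import Mathlib
import Vale.Agent.Lib.P162.Defs
import Vale.Agent.Lib.P162.ExpOp

/-!
# P162 module C2 `Lyapunov`   (statement FROZEN)

Proof.  Put `y t = exp (t • ((1/2) • K)) w` (so `y' = (1/2) K y`, `hasDerivAt_exp_apply`) and
`φ t = ∑ i, Real.exp ((1 - t) * θ * k i) * ‖P i (y t)‖ ^ 2`.
Then `φ' t = ∑ i, μ^(k i) * (⟪P i y, P i (K y)⟫ - θ * k i * ‖P i y‖^2)` with `μ = Real.exp ((1-t) θ)`,
`μ ^ k = Real.exp ((1-t) θ k)`, and `1 ≤ μ ≤ exp θ` for `t ∈ [0,1]`; so `φ' ≤ 0` by `hform`.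
`φ 0 = ∑ i, exp (θ k i) ‖P i w‖^2 = ∑ i, ‖P i w‖^2 = ‖w‖^2` (terms with `k i ≠ 0` vanish by `hw`),
`φ 1 = ∑ i ‖P i (y 1)‖^2 = ‖y 1‖^2`.  Use `antitoneOn_of_deriv_nonpos` on `Set.Icc 0 1`.
-/

namespace Vale.Agent.Lib.P162

open NormedSpace

variable {V : Type} [NormedAddCommGroup V] [InnerProductSpace ℝ V] [CompleteSpace V]

theorem lyapunov {ι : Type} [Fintype ι] (K : V →L[ℝ] V) (P : ι → V →L[ℝ] V) (k : ι → ℕ)
    (θ : ℝ) (hθ : 0 ≤ θ)
    (hpars : ∀ y : V, ∑ i, ‖P i y‖ ^ 2 = ‖y‖ ^ 2)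
    (hform : ∀ μ : ℝ, 1 ≤ μ → μ ≤ Real.exp θ → ∀ y : V,
      ∑ i, μ ^ (k i) * inner ℝ (P i y) (P i (K y)) ≤ θ * ∑ i, μ ^ (k i) * (k i : ℝ) * ‖P i y‖ ^ 2)
    (w : V) (hw : ∀ i, k i ≠ 0 → P i w = 0) :
    ‖exp ((1 / 2 : ℝ) • K) w‖ ≤ ‖w‖ := by
  set A : V →L[ℝ] V := (1 / 2 : ℝ) • K with hA
  set y : ℝ → V := fun t => exp (t • A) w with hy
  have hyd : ∀ t, HasDerivAt y (A (y t)) t := fun t => hasDerivAt_exp_apply A w t
  set φ : ℝ → ℝ := fun t => ∑ i, Real.exp ((1 - t) * θ * k i) * ‖P i (y t)‖ ^ 2 with hφ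
  have hterm : ∀ (i : ι) (t : ℝ), HasDerivAt
      (fun t => Real.exp ((1 - t) * θ * k i) * ‖P i (y t)‖ ^ 2)
      (Real.exp ((1 - t) * θ * k i) *
        (inner ℝ (P i (y t)) (P i (K (y t))) - θ * k i * ‖P i (y t)‖ ^ 2)) t := by
    intro i t
    have h1 : HasDerivAt (fun t => P i (y t)) (P i (A (y t))) t :=
      (P i).hasFDerivAt.comp_hasDerivAt t (hyd t)
    have h2 := h1.norm_sq
    have h3 : HasDerivAt (fun t : ℝ => (1 - t) * θ * k i) (-(θ * k i)) t := by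
      have h4 : HasDerivAt (fun t : ℝ => 1 - t) (-1) t := by
        simpa using (hasDerivAt_id t).const_sub 1
      have h5 := (h4.mul_const θ).mul_const (k i : ℝ)
      exact h5.congr_deriv (by ring)
    have h6 := h3.exp.mul h2
    have h7 : P i (A (y t)) = (1 / 2 : ℝ) • P i (K (y t)) := by
      rw [hA, _root_.smul_apply, map_smul]
    refine h6.congr_deriv ?_
    rw [h7, inner_smul_right]
    ring
  have hφd : ∀ t, HasDerivAt φ (∑ i, Real.exp ((1 - t) * θ * k i) *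
        (inner ℝ (P i (y t)) (P i (K (y t))) - θ * k i * ‖P i (y t)‖ ^ 2)) t := by
    intro t
    have := HasDerivAt.fun_sum (u := Finset.univ) (fun i _ => hterm i t)
    exact this
  have hanti : AntitoneOn φ (Set.Icc 0 1) := by
    apply antitoneOn_of_deriv_nonpos (convex_Icc 0 1)
    · exact fun t _ => (hφd t).continuousAt.continuousWithinAt
    · exact fun t _ => (hφd t).differentiableAt.differentiableWithinAt
    · intro t ht
      rw [interior_Icc] at ht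
      rw [(hφd t).deriv]
      set μ := Real.exp ((1 - t) * θ) with hμ
      have hμ1 : 1 ≤ μ := Real.one_le_exp (mul_nonneg (by linarith [ht.2]) hθ)
      have hμ2 : μ ≤ Real.exp θ := by
        apply Real.exp_le_exp.mpr
        have : (1 - t) * θ ≤ 1 * θ := mul_le_mul_of_nonneg_right (by linarith [ht.1]) hθ
        linarith
      have hpow : ∀ i, Real.exp ((1 - t) * θ * k i) = μ ^ (k i) := by
        intro i
        rw [hμ, ← Real.exp_nat_mul]
        congr 1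
        ring
      have h := hform μ hμ1 hμ2 (y t)
      simp only [hpow, mul_sub, Finset.sum_sub_distrib]
      rw [Finset.mul_sum] at h
      have e : ∑ i, μ ^ k i * (θ * (k i : ℝ) * ‖P i (y t)‖ ^ 2) =
          ∑ i, θ * (μ ^ k i * (k i : ℝ) * ‖P i (y t)‖ ^ 2) :=
        Finset.sum_congr rfl fun i _ => by ring
      rw [e]
      linarith
  have h01 := hanti (Set.left_mem_Icc.mpr zero_le_one) (Set.right_mem_Icc.mpr zero_le_one)
    zero_le_one
  have hy0 : y 0 = w := by simp [hy]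
  have hy1 : y 1 = exp A w := by simp [hy]
  have hφ1 : φ 1 = ‖exp A w‖ ^ 2 := by
    simp only [hφ, hy1, sub_self, zero_mul, Real.exp_zero, one_mul]
    exact hpars _
  have hφ0 : φ 0 = ‖w‖ ^ 2 := by
    simp only [hφ, hy0]
    rw [← hpars w]
    refine Finset.sum_congr rfl fun i _ => ?_
    by_cases hk : k i = 0
    · simp [hk]
    · rw [hw i hk]; simp
  rw [hφ1, hφ0] at h01
  exact (sq_le_sq₀ (norm_nonneg _) (norm_nonneg _)).mp h01

end Vale.Agent.Lib.P162
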