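import Mathlib
import Vale.Agent.Lib.P162.Defs
import Vale.Agent.Lib.P162.ExpOp
import Vale.Agent.Lib.P162.Rep
import Vale.Agent.Lib.P162.Sectors
import Vale.Agent.Lib.P162.Lyapunov
import Vale.Agent.Lib.P162.FormBound

/-!
# P162 module C5 `Key`: the key inequality   (statement FROZEN)

Let `N = |X|`, `L = lap ρ`, `H = lapHalves ρ`, `c = (c'/2)(1 - 1/N)`,
`K = c' • (L - 2 • H) - (c'/N) • L`.  Then `(1/2) • K + (-c • L) = -c' • H`, and `L` commutes with `H` and `K`
(`L` commutes with every `ρ g` by `lap_central`, and `H` is a sum of `1 - ρ (..)`), so by `exp_add_comm`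
`exp (-c' • H) g = exp ((1/2) • K) w`, `w = exp (-c • L) g`.
`w` is invariant under all `ρ (flip S)` (`commute_exp`, `lap_central`), hence `sec ρ O w = 0` for `O ≠ ∅`
(`sec_of_invariant`).  Apply `lyapunov` with `ι = Finset X`, `P = sec ρ`, `k = Finset.card`, `θ = 1/2`:
* `hpars` is `sec_parseval`;
* `hform`: for `1 ≤ μ ≤ exp (1/2)` we have `μ^2 ≤ exp 1 ≤ 3`; by `form_bound` and
  `sec ρ O (L y) = L (sec ρ O y)` (`sec_commute`, `lap_central`)
  `∑ μ^|O| ⟪y_O, sec O (K y)⟫ ≤ c' (4 + 64 N) ∑ μ^|O| |O| ‖y_O‖^2 + (c'/N - c'/N) ∑ ...`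
  and `c' (4 + 64 N) ≤ c' 68 N ≤ 1/2`.
-/

namespace Vale.Agent.Lib.P162

open Equiv NormedSpace

variable {X : Type} [DecidableEq X] [Fintype X]
variable {V : Type} [NormedAddCommGroup V] [InnerProductSpace ℝ V] [CompleteSpace V]
variable {ρ : Perm (X ⊕ X) →* (V →L[ℝ] V)}

omit [CompleteSpace V] in
theorem lap_comp_commute_lap {Y : Type} [Fintype Y] [DecidableEq Y]
    (ρ : Perm (X ⊕ X) →* (V →L[ℝ] V)) (f : Perm Y →* Perm (X ⊕ X)) :
    Commute (lap (ρ.comp f)) (lap ρ) := by
  unfold lap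
  refine Commute.sum_left _ _ _ fun a _ => Commute.sum_left _ _ _ fun b _ => ?_
  exact Commute.sub_left (Commute.one_left _) (lap_central ρ _)

omit [CompleteSpace V] in
theorem lapHalves_commute_lap (ρ : Perm (X ⊕ X) →* (V →L[ℝ] V)) :
    Commute (lapHalves ρ) (lap ρ) :=
  Commute.add_left (lap_comp_commute_lap ρ _) (lap_comp_commute_lap ρ _)

theorem key (hρ : IsIso ρ) (hX : 1 ≤ Fintype.card X) {c' : ℝ} (h0 : 0 ≤ c')
    (hc : c' * (136 * (Fintype.card X : ℝ)) ≤ 1) {g : V} (hg : ∀ S : Finset X, ρ (flip S) g = g) :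
    ‖exp (-c' • lapHalves ρ) g‖
      ≤ ‖exp (-(c' / 2 * (1 - 1 / (Fintype.card X : ℝ))) • lap ρ) g‖ := by
  set N : ℝ := (Fintype.card X : ℝ) with hN
  have hN1 : (1 : ℝ) ≤ N := by rw [hN]; exact_mod_cast hX
  have hN0 : N ≠ 0 := by positivity
  set L := lap ρ with hL
  set H := lapHalves ρ with hH
  set c : ℝ := c' / 2 * (1 - 1 / N) with hcdef
  set K : V →L[ℝ] V := c' • (L - (2 : ℝ) • H) - (c' / N) • L with hK
  have hHL : Commute H L := lapHalves_commute_lap ρ
  have hsum : (1 / 2 : ℝ) • K + (-c • L) = -c' • H := by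
    rw [hK, hcdef]
    simp only [smul_sub, smul_smul, neg_smul]
    have e1 : (1 / 2 * c') • L - (1 / 2 * (c' * 2)) • H - (1 / 2 * (c' / N)) • L
        + -((c' / 2 * (1 - 1 / N)) • L)
        = ((1 / 2 * c') - (1 / 2 * (c' / N)) - (c' / 2 * (1 - 1 / N))) • L
          - (1 / 2 * (c' * 2)) • H := by
      simp only [sub_smul]
      abel
    rw [e1]
    have e2 : (1 / 2 * c') - (1 / 2 * (c' / N)) - (c' / 2 * (1 - 1 / N)) = 0 := by
      field_simp
      ring
    have e3 : 1 / 2 * (c' * 2) = c' := by ring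
    rw [e2, e3, zero_smul, zero_sub]
  have hKL : Commute ((1 / 2 : ℝ) • K) (-c • L) := by
    refine Commute.smul_left (Commute.smul_right ?_ _) _
    rw [hK]
    refine Commute.sub_left (Commute.smul_left (Commute.sub_left (Commute.refl L)
      (Commute.smul_left hHL _)) _) (Commute.smul_left (Commute.refl L) _)
  set w : V := exp (-c • L) g with hw
  have hexp : exp (-c' • H) g = exp ((1 / 2 : ℝ) • K) w := by
    rw [← hsum, exp_add_comm hKL]
    rfl
  have hwinv : ∀ S : Finset X, ρ (flip S) w = w := by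
    intro S
    have hcomm : Commute (ρ (flip S)) (exp (-c • L)) :=
      commute_exp ((lap_central ρ (flip S)).smul_right _)
    have h1 : ρ (flip S) (exp (-c • L) g) = exp (-c • L) (ρ (flip S) g) :=
      congrArg (fun T : V →L[ℝ] V => T g) hcomm.eq
    rw [hw, h1, hg S]
  rw [hexp]
  refine lyapunov K (sec ρ) Finset.card (1 / 2) (by norm_num) (sec_parseval hρ) ?_ w ?_
  · intro μ hμ1 hμ2 y
    have hμ3 : μ ^ 2 ≤ 3 := by
      have h1 : μ ^ 2 ≤ Real.exp (1 / 2) ^ 2 := by gcongr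
      have h2 : Real.exp (1 / 2) ^ 2 = Real.exp 1 := by
        rw [← Real.exp_nat_mul]; norm_num
      have h3 := Real.exp_one_lt_d9
      linarith
    have hfb := form_bound hρ hX hμ1 hμ3 y
    set A : ℝ := ∑ O : Finset X, μ ^ O.card * (O.card : ℝ) * ‖sec ρ O y‖ ^ 2 with hA
    set B : ℝ := ∑ O : Finset X, μ ^ O.card * inner ℝ (sec ρ O y) (lap ρ (sec ρ O y)) with hB
    set F : ℝ := ∑ O : Finset X, μ ^ O.card *
        inner ℝ (sec ρ O y) (sec ρ O ((lap ρ - (2 : ℝ) • lapHalves ρ) y)) with hF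
    have hA0 : 0 ≤ A := Finset.sum_nonneg fun O _ => by positivity
    have hsecL : ∀ O : Finset X, sec ρ O (L y) = L (sec ρ O y) := by
      intro O
      have hcomm : Commute L (sec ρ O) :=
        sec_commute (fun S => (lap_central ρ (flip S)).symm) O
      exact (congrArg (fun T : V →L[ℝ] V => T y) hcomm.eq).symm
    have hexpand : ∑ O : Finset X, μ ^ O.card * inner ℝ (sec ρ O y) (sec ρ O (K y))
        = c' * F - (c' / N) * B := by
      rw [hF, hB, Finset.mul_sum, Finset.mul_sum, ← Finset.sum_sub_distrib]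
      refine Finset.sum_congr rfl fun O _ => ?_
      have hKy : K y = c' • ((L - (2 : ℝ) • H) y) - (c' / N) • L y := by
        rw [hK]; rfl
      rw [hKy, map_sub, map_smul, map_smul, hsecL, inner_sub_right, inner_smul_right,
        inner_smul_right]
      ring
    rw [hexpand]
    have h4 : c' * F ≤ c' * ((4 + 64 * N) * A + 1 / N * B) := mul_le_mul_of_nonneg_left hfb h0
    have h5 : c' * (4 + 64 * N) ≤ 1 / 2 := by nlinarith
    have h6 : c' * (4 + 64 * N) * A ≤ 1 / 2 * A := mul_le_mul_of_nonneg_right h5 hA0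
    have h7 : c' * ((4 + 64 * N) * A + 1 / N * B) - c' / N * B = c' * (4 + 64 * N) * A := by
      field_simp
      ring
    linarith
  · intro O hO
    exact sec_of_invariant hwinv (fun h => hO (by rw [h]; rfl))

end Vale.Agent.Lib.P162
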