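import Mathlib
import Vale.Agent.Lib.P162.Defs
import Vale.Agent.Lib.P162.ExpOp
import Vale.Agent.Lib.P162.Rep
import Vale.Agent.Lib.P162.Sectors
import Vale.Agent.Lib.P162.Key

/-!
# P162 module C6 `Step`: the induction step and the base case   (statements FROZEN)

Let `A = hat ρ (avgFlip X) = 2^{-N} ∑_S ρ (flip S)`, `T0 = hat (ρ.comp (inlHom X)) x`, `T1 = hat (ρ.comp (inrHom X)) x`,
`L0 = lap (ρ.comp (inlHom X))`, `L1 = lap (ρ.comp (inrHom X))`; `hat ρ (stepPass x) = T0 * T1 * A` (`hat_push`).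
* `avg_invariant`: `ρ (flip S) (A v) = A v` (reindex `S' ↦ S ∆ S'`, `flip_mul`).
* `avg_contract`: `‖A v‖ ≤ ‖v‖` (triangle inequality, `IsIso`).
* `A` commutes with `lap ρ` (`hat_commute_lap`).
* `ρ (inlHom X a)` commutes with `ρ (inrHom X b)` (`Equiv.Perm.sumCongr_mul`), hence `T1` commutes with `L0`
  (`hat_commute_of_forall`) and with `exp (-c' • L0)`; also `L0`, `L1` commute.
* `step`: with `g = A v`:
  `‖T0 (T1 g)‖ ≤ ‖exp(-c' L0) (T1 g)‖ = ‖T1 (exp(-c' L0) g)‖ ≤ ‖exp(-c' L1) (exp(-c' L0) g)‖ = ‖exp(-c' (L0+L1)) g‖`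
  `≤ ‖exp(-c • lap ρ) (A v)‖` (`key`) `= ‖A (exp(-c • lap ρ) v)‖ ≤ ‖exp(-c • lap ρ) v‖`.
* `base`: if `|X| = 1` and `x = 1`: `hat ρ (stepPass 1) = A`.  `lap ρ (A v) = 0`, because every `swap a b` of the two
  point set `X ⊕ X` is `1` or `flip univ`-like (`= flip {u}`), which fixes `A v`.  So `exp (-c • lap ρ) (A v) = A v` (`exp_fix`) and
  `‖A v‖ = ‖exp(..) (A v)‖ = ‖A (exp(..) v)‖ ≤ ‖exp(..) v‖`.
-/

namespace Vale.Agent.Lib.P162

open Equiv NormedSpace

variable {X : Type} [DecidableEq X] [Fintype X]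
variable {V : Type} [NormedAddCommGroup V] [InnerProductSpace ℝ V]

theorem hat_avgFlip (ρ : Perm (X ⊕ X) →* (V →L[ℝ] V)) : hat ρ (avgFlip X) = sec ρ ∅ := by
  unfold avgFlip sec
  rw [map_smul, map_sum]
  congr 1
  refine Finset.sum_congr rfl fun S _ => ?_
  rw [hat_single]
  simp

theorem avg_invariant (ρ : Perm (X ⊕ X) →* (V →L[ℝ] V)) (S : Finset X) (v : V) :
    ρ (flip S) (hat ρ (avgFlip X) v) = hat ρ (avgFlip X) v := by
  rw [hat_avgFlip]
  have h := congrArg (fun T : V →L[ℝ] V => T v) (flip_mul_sec ρ S ∅)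
  simpa using h

theorem avg_contract {ρ : Perm (X ⊕ X) →* (V →L[ℝ] V)} (hρ : IsIso ρ) (v : V) :
    ‖hat ρ (avgFlip X) v‖ ≤ ‖v‖ := by
  rw [hat_avgFlip]
  have h := sec_parseval hρ v
  have h1 : ‖sec ρ ∅ v‖ ^ 2 ≤ ∑ O : Finset X, ‖sec ρ O v‖ ^ 2 :=
    Finset.single_le_sum (f := fun O : Finset X => ‖sec ρ O v‖ ^ 2)
      (fun O _ => by positivity) (Finset.mem_univ ∅)
  rw [h] at h1
  exact (pow_le_pow_iff_left₀ (norm_nonneg _) (norm_nonneg _) (by norm_num)).mp h1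

omit [DecidableEq X] [Fintype X] in
theorem commute_inl_inr (ρ : Perm (X ⊕ X) →* (V →L[ℝ] V)) (a b : Perm X) :
    Commute (ρ (inlHom X a)) (ρ (inrHom X b)) := by
  have h : Commute (inlHom X a) (inrHom X b) :=
    (MonoidHom.commute_inl_inr a b).map (Perm.sumCongrHom X X)
  exact h.map ρ

theorem commute_inr_lapInl (ρ : Perm (X ⊕ X) →* (V →L[ℝ] V)) (b : Perm X) :
    Commute (ρ (inrHom X b)) (lap (ρ.comp (inlHom X))) := by
  unfold lap
  refine Commute.sum_right _ _ _ fun a _ => Commute.sum_right _ _ _ fun a' _ => ?_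
  exact Commute.sub_right (Commute.one_right _) (commute_inl_inr ρ _ b).symm

theorem commute_lapInr_lapInl (ρ : Perm (X ⊕ X) →* (V →L[ℝ] V)) :
    Commute (lap (ρ.comp (inrHom X))) (lap (ρ.comp (inlHom X))) := by
  conv_lhs => unfold lap
  refine Commute.sum_left _ _ _ fun a _ => Commute.sum_left _ _ _ fun a' _ => ?_
  exact Commute.sub_left (Commute.one_left _) (commute_inr_lapInl ρ _)

variable [CompleteSpace V]

theorem avg_exp_comm (ρ : Perm (X ⊕ X) →* (V →L[ℝ] V)) (c : ℝ) (v : V) :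
    exp (-c • lap ρ) (hat ρ (avgFlip X) v) = hat ρ (avgFlip X) (exp (-c • lap ρ) v) := by
  have hcomm : Commute (hat ρ (avgFlip X)) (exp (-c • lap ρ)) :=
    commute_exp ((hat_commute_lap ρ (avgFlip X)).smul_right _)
  exact (congrArg (fun T : V →L[ℝ] V => T v) hcomm.eq).symm

theorem step (hX : 1 ≤ Fintype.card X) {x : MonoidAlgebra ℝ (Perm X)} {c' : ℝ} (h0 : 0 ≤ c')
    (hc : c' * (136 * (Fintype.card X : ℝ)) ≤ 1) (hx : Dominated V x c') :
    Dominated V (stepPass x) (c' / 2 * (1 - 1 / (Fintype.card X : ℝ))) := by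
  intro ρ hρ v
  set A := hat ρ (avgFlip X) with hA
  set T0 := hat (ρ.comp (inlHom X)) x with hT0
  set T1 := hat (ρ.comp (inrHom X)) x with hT1
  set L0 := lap (ρ.comp (inlHom X)) with hL0
  set L1 := lap (ρ.comp (inrHom X)) with hL1
  have hstep : hat ρ (stepPass x) v = T0 (T1 (A v)) := by
    unfold stepPass
    rw [map_mul, map_mul, hat_push, hat_push]
    rfl
  set g := A v with hg
  have h1 : ‖T0 (T1 g)‖ ≤ ‖exp (-c' • L0) (T1 g)‖ := hx _ (hρ.comp _) _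
  have hT1L0 : Commute T1 (exp (-c' • L0)) := by
    refine commute_exp (Commute.smul_right ?_ _)
    exact hat_commute_of_forall (ρ := ρ.comp (inrHom X)) (fun b => commute_inr_lapInl ρ b) x
  have h2 : exp (-c' • L0) (T1 g) = T1 (exp (-c' • L0) g) :=
    (congrArg (fun T : V →L[ℝ] V => T g) hT1L0.eq).symm
  have h3 : ‖T1 (exp (-c' • L0) g)‖ ≤ ‖exp (-c' • L1) (exp (-c' • L0) g)‖ := hx _ (hρ.comp _) _
  have h4 : exp (-c' • L1) (exp (-c' • L0) g) = exp (-c' • lapHalves ρ) g := by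
    have hcomm : Commute (-c' • L1) (-c' • L0) :=
      ((commute_lapInr_lapInl ρ).smul_left _).smul_right _
    have e : -c' • lapHalves ρ = -c' • L1 + -c' • L0 := by
      unfold lapHalves
      rw [smul_add, add_comm]
    rw [e, exp_add_comm hcomm]
    rfl
  have h5 := key hρ hX h0 hc (g := g) (fun S => avg_invariant ρ S v)
  have h6 : exp (-(c' / 2 * (1 - 1 / (Fintype.card X : ℝ))) • lap ρ) g
      = A (exp (-(c' / 2 * (1 - 1 / (Fintype.card X : ℝ))) • lap ρ) v) := avg_exp_comm ρ _ v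
  have h7 := avg_contract hρ (exp (-(c' / 2 * (1 - 1 / (Fintype.card X : ℝ))) • lap ρ) v)
  rw [hstep]
  calc ‖T0 (T1 g)‖ ≤ ‖exp (-c' • L0) (T1 g)‖ := h1
    _ = ‖T1 (exp (-c' • L0) g)‖ := by rw [h2]
    _ ≤ ‖exp (-c' • L1) (exp (-c' • L0) g)‖ := h3
    _ = ‖exp (-c' • lapHalves ρ) g‖ := by rw [h4]
    _ ≤ ‖exp (-(c' / 2 * (1 - 1 / (Fintype.card X : ℝ))) • lap ρ) g‖ := h5
    _ = ‖A (exp (-(c' / 2 * (1 - 1 / (Fintype.card X : ℝ))) • lap ρ) v)‖ := by rw [h6]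
    _ ≤ _ := h7

theorem base (hX : Fintype.card X = 1) (c : ℝ) :
    Dominated V (stepPass (1 : MonoidAlgebra ℝ (Perm X))) c := by
  intro ρ hρ v
  have hstep : hat ρ (stepPass (1 : MonoidAlgebra ℝ (Perm X))) = hat ρ (avgFlip X) := by
    unfold stepPass
    rw [map_one, map_one, one_mul, one_mul]
  rw [hstep]
  obtain ⟨u, hu⟩ := Fintype.card_eq_one_iff.mp hX
  have hswap : ∀ a b : X ⊕ X, ρ (swap a b) (hat ρ (avgFlip X) v) = hat ρ (avgFlip X) v := by
    intro a b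
    rcases a with a | a <;> rcases b with b | b
    · rw [hu a, hu b, swap_self]
      have : (Equiv.refl (X ⊕ X)) = (1 : Perm (X ⊕ X)) := rfl
      rw [this, map_one]; rfl
    · rw [hu a, hu b, ← flip_singleton]
      exact avg_invariant ρ _ v
    · rw [hu a, hu b, swap_comm, ← flip_singleton]
      exact avg_invariant ρ _ v
    · rw [hu a, hu b, swap_self]
      have : (Equiv.refl (X ⊕ X)) = (1 : Perm (X ⊕ X)) := rfl
      rw [this, map_one]; rfl
  have hlap : lap ρ (hat ρ (avgFlip X) v) = 0 := by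
    unfold lap
    rw [sum_apply]
    refine Finset.sum_eq_zero fun a _ => ?_
    rw [sum_apply]
    refine Finset.sum_eq_zero fun b _ => ?_
    rw [sub_apply, hswap a b]
    simp
  have hfix : exp (-c • lap ρ) (hat ρ (avgFlip X) v) = hat ρ (avgFlip X) v :=
    exp_fix (by rw [smul_apply, hlap, smul_zero])
  calc ‖hat ρ (avgFlip X) v‖ = ‖exp (-c • lap ρ) (hat ρ (avgFlip X) v)‖ := by rw [hfix]
    _ = ‖hat ρ (avgFlip X) (exp (-c • lap ρ) v)‖ := by rw [avg_exp_comm]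
    _ ≤ _ := avg_contract hρ _

end Vale.Agent.Lib.P162
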