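import Mathlib
import Vale.Agent.Lib.P162.Defs
import Vale.Agent.Lib.P162.Rep
import Vale.Agent.Lib.P162.Step

/-!
# P162 module C7 `Induct`: one pass is dominated; numerics of `cseq`   (statements FROZEN)

* `cseq_nonneg`, `cseq_upper : cseq (d+1) * 2^(d+1) ≤ 1/136` (equality at `d = 0`; the product `cseq d * 2^d` is
  nonincreasing), `cseq_lower : 1/544 ≤ cseq (d+1) * 2^(d+1)`: prove by induction, for `d ≥ 1`,
  `cseq (d+1) * 2^(d+1) ≥ (1/136) (1/4 + 1/2^(d+1))`   [d = 1: `cseq 2 * 4 = (1/136) (1/2)`; step: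
  `(1/4 + x)(1 - x) ≥ 1/4 + x/2` for `0 ≤ x ≤ 1/4`].
* `pass_dominated`: induction on `d`.  `pass 1 = push _ (stepPass (pass 0))`, `pass 0 = 1`, `card (BV 0) = 1`: `base` and
  `Dominated.push_equiv`.  `pass (d+2) = push _ (stepPass (pass (d+1)))`: `step` with `X = BV (d+1)`,
  `card = 2^(d+1)`, `c' = cseq (d+1)`, hypothesis `hc` from `cseq_upper`.
-/

namespace Vale.Agent.Lib.P162

open Equiv NormedSpace

theorem cseq_succ_succ (d : ℕ) : cseq (d + 2) = cseq (d + 1) / 2 * (1 - 1 / 2 ^ (d + 1)) := rfl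

theorem one_div_two_pow_le_one (k : ℕ) : (1 : ℝ) / 2 ^ k ≤ 1 := by
  rw [div_le_one (by positivity)]
  exact one_le_pow₀ (by norm_num)

theorem cseq_succ_nonneg (d : ℕ) : 0 ≤ cseq (d + 1) := by
  induction d with
  | zero => norm_num [cseq]
  | succ d ih =>
    rw [cseq_succ_succ]
    have := one_div_two_pow_le_one (d + 1)
    apply mul_nonneg (by linarith) (by linarith)

theorem cseq_nonneg (d : ℕ) : 0 ≤ cseq d := by
  cases d with
  | zero => norm_num [cseq]
  | succ d => exact cseq_succ_nonneg d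

theorem cseq_rec (d : ℕ) :
    cseq (d + 2) * 2 ^ (d + 2) = cseq (d + 1) * 2 ^ (d + 1) * (1 - 1 / 2 ^ (d + 1)) := by
  rw [cseq_succ_succ, pow_succ (2 : ℝ) (d + 1)]
  ring

theorem cseq_upper (d : ℕ) : cseq (d + 1) * 2 ^ (d + 1) ≤ 1 / 136 := by
  induction d with
  | zero => norm_num [cseq]
  | succ d ih =>
    rw [cseq_rec]
    have h0 : 0 ≤ cseq (d + 1) * 2 ^ (d + 1) := mul_nonneg (cseq_succ_nonneg d) (by positivity)
    have h1 : (0 : ℝ) ≤ 1 / 2 ^ (d + 1) := by positivity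
    nlinarith

theorem cseq_lower_aux (d : ℕ) :
    1 / 136 * (1 / 4 + 1 / 2 ^ (d + 2)) ≤ cseq (d + 2) * 2 ^ (d + 2) := by
  induction d with
  | zero => norm_num [cseq]
  | succ d ih =>
    rw [cseq_rec (d + 1)]
    set x : ℝ := 1 / 2 ^ (d + 2) with hx
    have hx0 : 0 ≤ x := by positivity
    have hx1 : x ≤ 1 / 4 := by
      rw [hx, pow_add]
      have : (1 : ℝ) ≤ 2 ^ d := one_le_pow₀ (by norm_num)
      rw [div_le_div_iff₀ (by positivity) (by norm_num)]
      nlinarith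
    have hx2 : (1 : ℝ) / 2 ^ (d + 1 + 2) = x / 2 := by
      rw [hx, pow_succ (2 : ℝ) (d + 2)]
      field_simp
    rw [hx2]
    have h3 : 1 / 136 * (1 / 4 + x) * (1 - x) ≤ cseq (d + 2) * 2 ^ (d + 2) * (1 - x) :=
      mul_le_mul_of_nonneg_right ih (by linarith)
    have h4 : cseq (d + 1 + 1) * 2 ^ (d + 1 + 1) * (1 - x) = cseq (d + 2) * 2 ^ (d + 2) * (1 - x) :=
      rfl
    rw [h4]
    nlinarith

theorem cseq_lower (d : ℕ) : 1 / 544 ≤ cseq (d + 1) * 2 ^ (d + 1) := by
  cases d with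
  | zero => norm_num [cseq]
  | succ d =>
    have h := cseq_lower_aux d
    have h1 : (0 : ℝ) ≤ 1 / 2 ^ (d + 2) := by positivity
    have h2 : cseq (d + 1 + 1) * 2 ^ (d + 1 + 1) = cseq (d + 2) * 2 ^ (d + 2) := rfl
    rw [h2]
    linarith

variable (V : Type) [NormedAddCommGroup V] [InnerProductSpace ℝ V] [CompleteSpace V]

theorem pass_dominated (d : ℕ) : Dominated V (pass (d + 1)) (cseq (d + 1)) := by
  induction d with
  | zero =>
    have hb : Dominated V (stepPass (1 : MonoidAlgebra ℝ (Perm (BV 0)))) (cseq 1) :=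
      base (by simp) _
    exact Dominated.push_equiv (psi 0) hb
  | succ d ih =>
    have hcard : (Fintype.card (BV (d + 1)) : ℝ) = 2 ^ (d + 1) := by simp
    have hs := step (V := V) (X := BV (d + 1)) (x := pass (d + 1)) (c' := cseq (d + 1))
      (by simp [Nat.one_le_two_pow]) (cseq_succ_nonneg d)
      (by rw [hcard]; have := cseq_upper d; linarith) ih
    rw [hcard] at hs
    exact Dominated.push_equiv (psi (d + 1)) hs

end Vale.Agent.Lib.P162
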