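import Mathlib
import Vale.Agent.Lib.P162.Defs

/-!
# P162 module B4 `PassProd`: the recursive pass is the product of the direction averages   (statements FROZEN)

Write `Ψ = push (psi d).permCongrHom.toMonoidHom`, `I0 = push (inlHom (BV d))`, `I1 = push (inrHom (BV d))`.
`psi d (inl p) = Fin.cons false p`, `psi d (inr p) = Fin.cons true p`.
* `dirAvg_zero`: `Ψ (avgFlip (BV d)) = dirAvg (0 : Fin (d+1))`.
  `(psi d).permCongr (flip S) = flipAt 0 c` whenever `S = {q | c (cons false q) = true}`; the map `c ↦ S` from `BV (d+1) → Bool` onto `Finset (BV d)` has all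
  fibres of size `2^(2^d)` (split `c` by the top bit), and `2^(2^(d+1)) = 2^(2^d) * 2^(2^d)`.
* `dirAvg_succ`: `Ψ (I0 (dirAvg j) * I1 (dirAvg j)) = dirAvg j.succ`.
  `(psi d).permCongr (inlHom _ (flipAt j c0) * inrHom _ (flipAt j c1)) = flipAt j.succ c` where `c (cons false q) = c0 q`, `c (cons true q) = c1 q`;
  `(c0,c1) ↔ c` is a bijection `(BV d → Bool) × (BV d → Bool) ≃ (BV (d+1) → Bool)`.
* `I0 x` commutes with `I1 y` (on singles: `Equiv.Perm.sumCongr_mul`; extend by `MonoidAlgebra.induction_on` or linearity), so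
  `I0 (∏ a_j) * I1 (∏ a_j) = ∏ (I0 a_j * I1 a_j)` (same order).
* `dirProd (d+1) = (a_d ... a_1) * a_0`: `List.ofFn_succ'`/`List.ofFn_succ_last` (`Fin.rev (Fin.last d) = 0`, `Fin.rev (castSucc j) = (Fin.rev j).succ`).
* `pass_eq_dirProd`: induction on `d`.
-/

namespace Vale.Agent.Lib.P162

open Equiv

theorem push_single_pp {G H : Type} [Group G] [Group H] (f : G →* H) (g : G) (r : ℝ) :
    push f (MonoidAlgebra.single g r) = MonoidAlgebra.single (f g) r := by
  simp [push]

theorem flipAt_apply_pp {d : ℕ} (j : Fin d) (c : BV d → Bool) (p : BV d) :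
    flipAt j c p = flipAtFun j c p := rfl

theorem flip_apply_pp {X : Type} [DecidableEq X] (S : Finset X) (p : X ⊕ X) :
    flip S p = flipFun S p := rfl

theorem psi_inl_pp (d : ℕ) (q : BV d) : psi d (Sum.inl q) = Fin.cons false q := rfl

theorem psi_inr_pp (d : ℕ) (q : BV d) : psi d (Sum.inr q) = Fin.cons true q := rfl

/-- glue two coin assignments. -/
def joinC {d : ℕ} (c0 c1 : BV d → Bool) : BV (d + 1) → Bool :=
  fun p => Sum.elim c0 c1 ((psi d).symm p)

theorem joinC_false {d : ℕ} (c0 c1 : BV d → Bool) (q : BV d) :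
    joinC c0 c1 (Fin.cons false q) = c0 q := by
  rw [← psi_inl_pp, joinC, Equiv.symm_apply_apply]; rfl

theorem joinC_true {d : ℕ} (c0 c1 : BV d → Bool) (q : BV d) :
    joinC c0 c1 (Fin.cons true q) = c1 q := by
  rw [← psi_inr_pp, joinC, Equiv.symm_apply_apply]; rfl

theorem sum_joinC {d : ℕ} {M : Type} [AddCommMonoid M] (f : (BV (d + 1) → Bool) → M) :
    ∑ c, f c = ∑ c0 : BV d → Bool, ∑ c1 : BV d → Bool, f (joinC c0 c1) := by
  rw [← Fintype.sum_prod_type']
  symm
  exact Equiv.sum_comp ((Equiv.sumArrowEquivProdArrow (BV d) (BV d) Bool).symm.trans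
    ((psi d).arrowCongr (Equiv.refl Bool))) f

theorem flipAt_zero_joinC {d : ℕ} (c0 c1 : BV d → Bool) :
    flipAt (0 : Fin (d + 1)) (joinC c0 c1)
      = (psi d).permCongr (flip (Finset.univ.filter fun q => c0 q = true)) := by
  ext1 p
  obtain ⟨s, rfl⟩ := (psi d).surjective p
  rw [Equiv.permCongr_apply, Equiv.symm_apply_apply]
  rcases s with q | q
  · rw [psi_inl_pp]
    rw [flipAt_apply_pp, flip_apply_pp]
    unfold flipAtFun flipFun
    simp only [Fin.update_cons_zero, Fin.cons_zero, joinC_false, Finset.mem_filter,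
      Finset.mem_univ, true_and]
    cases h : c0 q <;> simp [psi_inl_pp, psi_inr_pp]
  · rw [psi_inr_pp]
    rw [flipAt_apply_pp, flip_apply_pp]
    unfold flipAtFun flipFun
    simp only [Fin.update_cons_zero, Fin.cons_zero, joinC_false, Finset.mem_filter,
      Finset.mem_univ, true_and]
    cases h : c0 q <;> simp [psi_inl_pp, psi_inr_pp]

theorem flipAt_succ_joinC {d : ℕ} (j : Fin d) (c0 c1 : BV d → Bool) :
    flipAt j.succ (joinC c0 c1)
      = (psi d).permCongr (inlHom (BV d) (flipAt j c0) * inrHom (BV d) (flipAt j c1)) := by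
  ext1 p
  obtain ⟨s, rfl⟩ := (psi d).surjective p
  rw [Equiv.permCongr_apply, Equiv.symm_apply_apply]
  rcases s with q | q
  · rw [psi_inl_pp]
    have : (inlHom (BV d) (flipAt j c0) * inrHom (BV d) (flipAt j c1)) (Sum.inl q)
        = Sum.inl (flipAtFun j c0 q) := rfl
    rw [this, psi_inl_pp]
    rw [flipAt_apply_pp]
    unfold flipAtFun
    simp only [← Fin.cons_update, Fin.cons_succ, joinC_false]
  · rw [psi_inr_pp]
    have : (inlHom (BV d) (flipAt j c0) * inrHom (BV d) (flipAt j c1)) (Sum.inr q)
        = Sum.inr (flipAtFun j c1 q) := rfl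
    rw [this, psi_inr_pp]
    rw [flipAt_apply_pp]
    unfold flipAtFun
    simp only [← Fin.cons_update, Fin.cons_succ, joinC_true]

/-- coins on `X` = subsets of `X`. -/
def coinEquiv (X : Type) [Fintype X] [DecidableEq X] : (X → Bool) ≃ Finset X where
  toFun c := Finset.univ.filter fun q => c q = true
  invFun S := fun q => decide (q ∈ S)
  left_inv c := by funext q; simp
  right_inv S := by ext q; simp


theorem dirAvg_zero (d : ℕ) :
    push (psi d).permCongrHom.toMonoidHom (avgFlip (BV d)) = dirAvg (0 : Fin (d + 1)) := by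
  unfold avgFlip dirAvg
  rw [map_smul, map_sum, sum_joinC]
  simp only [push_single_pp, flipAt_zero_joinC, Finset.sum_const, Finset.card_univ]
  rw [← Finset.smul_sum, ← Equiv.sum_comp (coinEquiv (BV d))]
  have hc : Fintype.card (BV d) = 2 ^ d := by simp
  have hc2 : Fintype.card (BV d → Bool) = 2 ^ 2 ^ d := by simp
  rw [hc, hc2, ← Nat.cast_smul_eq_nsmul ℝ, smul_smul]
  congr 1
  push_cast
  rw [pow_succ 2 d, pow_mul]
  have : ((2 : ℝ) ^ 2 ^ d) ≠ 0 := by positivity
  field_simp

theorem dirAvg_succ {d : ℕ} (j : Fin d) :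
    push (psi d).permCongrHom.toMonoidHom
      (push (inlHom (BV d)) (dirAvg j) * push (inrHom (BV d)) (dirAvg j)) = dirAvg j.succ := by
  unfold dirAvg
  rw [sum_joinC]
  simp only [map_smul, map_sum, push_single_pp, smul_mul_assoc, mul_smul_comm, Finset.sum_mul,
    Finset.mul_sum, MonoidAlgebra.single_mul_single, mul_one, flipAt_succ_joinC,
    ← Finset.smul_sum, smul_smul]
  congr 1
  · rw [pow_succ 2 d, pow_mul, ← mul_inv, sq]
  · rw [Finset.sum_comm]
    rfl

theorem push_inl_commute_push_inr {X : Type} (x y : MonoidAlgebra ℝ (Perm X)) :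
    Commute (push (inlHom X) x) (push (inrHom X) y) := by
  induction x using MonoidAlgebra.induction_on with
  | of g =>
    induction y using MonoidAlgebra.induction_on with
    | of h =>
      simp only [MonoidAlgebra.of_apply, push_single_pp]
      unfold Commute SemiconjBy
      rw [MonoidAlgebra.single_mul_single, MonoidAlgebra.single_mul_single]
      congr 1
      ext s
      rcases s with u | u <;> rfl
    | add a b ha hb => rw [map_add]; exact ha.add_right hb
    | smul r a ha => rw [map_smul]; exact ha.smul_right r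
  | add a b ha hb => rw [map_add]; exact ha.add_left hb
  | smul r a ha => rw [map_smul]; exact ha.smul_left r

theorem prod_pair {X : Type} (L : List (MonoidAlgebra ℝ (Perm X))) :
    push (inlHom X) L.prod * push (inrHom X) L.prod
      = (L.map fun a => push (inlHom X) a * push (inrHom X) a).prod := by
  induction L with
  | nil => simp
  | cons a l ih =>
    rw [List.prod_cons, List.map_cons, List.prod_cons, ← ih, map_mul, map_mul]
    have := (push_inl_commute_push_inr l.prod a).eq
    calc push (inlHom X) a * push (inlHom X) l.prod * (push (inrHom X) a * push (inrHom X) l.prod)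
        = push (inlHom X) a * (push (inlHom X) l.prod * push (inrHom X) a) * push (inrHom X) l.prod := by
          simp only [mul_assoc]
      _ = _ := by rw [this]; simp only [mul_assoc]

theorem pass_eq_dirProd (d : ℕ) : pass d = dirProd d := by
  induction d with
  | zero => simp [pass, dirProd]
  | succ d ih =>
    rw [pass, stepPass, ih, map_mul, dirAvg_zero]
    conv_rhs => rw [dirProd, List.ofFn_succ', List.concat_eq_append, List.prod_append,
      List.prod_singleton, Fin.rev_last]
    congr 1
    rw [dirProd, prod_pair, map_list_prod, List.map_map, List.map_ofFn]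
    congr 2
    funext i
    simp only [Function.comp]
    rw [dirAvg_succ, Fin.rev_castSucc]

end Vale.Agent.Lib.P162
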