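import Mathlib
import Vale.Agent.Lib.P162.Defs

/-!
# P162 module B3 `RotAlg`: `(R a_0)^d = a_{d-1} ... a_1 a_0`   (statements FROZEN)

`R = single (rotP d) 1`, `R' = single (rotP d)⁻¹ 1`, `a_j = dirAvg j`.  `(rotP d p) j = p (finRotate d j)`.
* `rot_conj`: `R * a_j * R' = a_{(finRotate d)⁻¹ j}`, because
  `rotP d * flipAt j c * (rotP d)⁻¹ = flipAt ((finRotate d).symm j) (fun p => c ((rotP d)⁻¹ p))` and `c ↦ c ∘ (rotP d)⁻¹` is a bijection of the coins.
* `(R a_0)^k = a_{σ^{-1} 0} a_{σ^{-2} 0} ... a_{σ^{-k} 0} R^k` by induction on `k` (`σ = finRotate d`).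
* `σ^{-k} 0 = Fin.rev (k-1)` for `1 ≤ k ≤ d` (i.e. the value `d - k`), and `(rotP d)^d = 1` since `σ^d = 1`.
-/

namespace Vale.Agent.Lib.P162

open Equiv

theorem flipAt_apply {d : ℕ} (j : Fin d) (c : BV d → Bool) (p : BV d) :
    flipAt j c p = flipAtFun j c p := rfl

theorem rotP_apply (d : ℕ) (p : BV d) (j : Fin d) : rotP d p j = p (finRotate d j) := by
  rfl

theorem rotP_inv_apply (d : ℕ) (p : BV d) (j : Fin d) :
    (rotP d)⁻¹ p j = p ((finRotate d).symm j) := by
  rfl

theorem rot_conj_perm {d : ℕ} (j : Fin d) (c : BV d → Bool) :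
    rotP d * flipAt j c * (rotP d)⁻¹
      = flipAt ((finRotate d).symm j) (fun p => c ((rotP d)⁻¹ p)) := by
  ext p k
  have h1 : ∀ (b : Bool), Function.update ((rotP d)⁻¹ p) j b
      = (rotP d)⁻¹ (Function.update p ((finRotate d).symm j) b) := by
    intro b
    funext i
    rw [rotP_inv_apply]
    by_cases hi : i = j
    · subst hi; simp
    · have : (finRotate d).symm i ≠ (finRotate d).symm j := fun h => hi ((finRotate d).symm.injective h)
      rw [Function.update_of_ne hi, Function.update_of_ne this, rotP_inv_apply]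
  simp only [Perm.mul_apply]
  rw [rotP_apply, flipAt_apply, flipAt_apply]
  unfold flipAtFun
  rw [h1, h1, rotP_inv_apply, rotP_inv_apply, Equiv.symm_apply_apply]

theorem rot_conj {d : ℕ} (j : Fin d) :
    MonoidAlgebra.single (rotP d) (1 : ℝ) * dirAvg j * MonoidAlgebra.single (rotP d)⁻¹ (1 : ℝ)
      = dirAvg ((finRotate d).symm j) := by
  unfold dirAvg
  rw [mul_smul_comm, smul_mul_assoc, Finset.mul_sum, Finset.sum_mul]
  congr 1
  simp only [MonoidAlgebra.single_mul_single, mul_one, rot_conj_perm]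
  exact Equiv.sum_comp ((rotP d).arrowCongr (Equiv.refl Bool))
    (fun c => MonoidAlgebra.single (flipAt ((finRotate d).symm j) c) (1 : ℝ))

theorem rot_conj_iter {d : ℕ} (j : Fin d) (k : ℕ) :
    MonoidAlgebra.single ((rotP d) ^ k) (1 : ℝ) * dirAvg j
        * MonoidAlgebra.single ((rotP d) ^ k)⁻¹ (1 : ℝ)
      = dirAvg ((finRotate d).symm^[k] j) := by
  induction k with
  | zero => simp [← MonoidAlgebra.one_def]
  | succ k ih =>
    rw [Function.iterate_succ_apply', ← rot_conj, ← ih, pow_succ', mul_inv_rev]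
    have e1 : MonoidAlgebra.single (rotP d * rotP d ^ k) (1 : ℝ)
        = MonoidAlgebra.single (rotP d) (1 : ℝ) * MonoidAlgebra.single (rotP d ^ k) (1 : ℝ) := by
      rw [MonoidAlgebra.single_mul_single, mul_one]
    have e2 : MonoidAlgebra.single ((rotP d ^ k)⁻¹ * (rotP d)⁻¹) (1 : ℝ)
        = MonoidAlgebra.single (rotP d ^ k)⁻¹ (1 : ℝ) * MonoidAlgebra.single (rotP d)⁻¹ (1 : ℝ) := by
      rw [MonoidAlgebra.single_mul_single, mul_one]
    rw [e1, e2]
    simp only [mul_assoc]

theorem rot_pow_aux {d : ℕ} (j : Fin d) (k : ℕ) :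
    (MonoidAlgebra.single (rotP d) (1 : ℝ) * dirAvg j) ^ k
      = (List.ofFn fun i : Fin k => dirAvg ((finRotate d).symm^[(i : ℕ) + 1] j)).prod
        * MonoidAlgebra.single ((rotP d) ^ k) (1 : ℝ) := by
  induction k with
  | zero => simp [MonoidAlgebra.one_def]
  | succ k ih =>
    rw [pow_succ, ih, List.ofFn_succ', List.concat_eq_append, List.prod_append, List.prod_singleton]
    simp only [Fin.val_castSucc, Fin.val_last]
    rw [← rot_conj_iter j (k + 1)]
    have e1 : MonoidAlgebra.single (rotP d ^ (k + 1)) (1 : ℝ)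
        = MonoidAlgebra.single (rotP d ^ k) (1 : ℝ) * MonoidAlgebra.single (rotP d) (1 : ℝ) := by
      rw [MonoidAlgebra.single_mul_single, mul_one, pow_succ]
    have e2 : MonoidAlgebra.single (rotP d ^ (k + 1))⁻¹ (1 : ℝ)
        * MonoidAlgebra.single (rotP d ^ (k + 1)) (1 : ℝ) = 1 := by
      rw [MonoidAlgebra.single_mul_single, mul_one, inv_mul_cancel, MonoidAlgebra.one_def]
    simp only [mul_assoc]
    rw [e2, mul_one, e1]
    simp only [mul_assoc]

theorem finRotate_iter (e : ℕ) (k : ℕ) (j : Fin (e + 1)) :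
    (((finRotate (e + 1))^[k] j : Fin (e + 1)) : ℕ) = ((j : ℕ) + k) % (e + 1) := by
  induction k with
  | zero => simp [Nat.mod_eq_of_lt j.isLt]
  | succ k ih =>
    rw [Function.iterate_succ_apply', finRotate_apply, Fin.val_add, ih, Fin.val_one',
      ← Nat.add_mod, add_assoc]

theorem rotP_pow_apply (d : ℕ) (k : ℕ) (p : BV d) (j : Fin d) :
    ((rotP d) ^ k) p j = p ((finRotate d)^[k] j) := by
  induction k generalizing p j with
  | zero => simp
  | succ k ih =>
    rw [pow_succ', Perm.mul_apply, rotP_apply, ih, ← Function.iterate_succ_apply]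

theorem rotP_pow_self (e : ℕ) : (rotP (e + 1)) ^ (e + 1) = 1 := by
  ext p j
  rw [rotP_pow_apply]
  have : (finRotate (e + 1))^[e + 1] j = j := by
    ext
    rw [finRotate_iter, Nat.add_mod_right, Nat.mod_eq_of_lt j.isLt]
  rw [this]
  rfl

theorem rot_pow (e : ℕ) :
    (MonoidAlgebra.single (rotP (e + 1)) (1 : ℝ) * dirAvg (0 : Fin (e + 1))) ^ (e + 1)
      = dirProd (e + 1) := by
  rw [rot_pow_aux, rotP_pow_self, ← MonoidAlgebra.one_def, mul_one, dirProd]
  congr 2
  funext i
  congr 1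
  have h0 : (0 : Fin (e + 1)) = (finRotate (e + 1))^[(i : ℕ) + 1] (Fin.rev i) := by
    ext
    rw [finRotate_iter, Fin.val_rev]
    have : e + 1 - ((i : ℕ) + 1) + ((i : ℕ) + 1) = e + 1 := by have := i.isLt; omega
    rw [this]
    simp
  rw [h0]
  exact Function.LeftInverse.iterate (g := (finRotate (e + 1)).symm) (f := finRotate (e + 1))
    (finRotate (e + 1)).symm_apply_apply _ _

end Vale.Agent.Lib.P162
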