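import Mathlib
import Vale.Agent.Lib.P162.Defs
import Vale.Agent.Lib.P162.ExpOp
import Vale.Agent.Lib.P162.Rep
import Vale.Agent.Lib.P162.RegBasics

/-!
# P162 module R2 `TV`: from domination to total variation   (statement FROZEN)

`G = Perm P`, `N = card G = |P|!`, `E = EG G`, `L = lap (reg G)`, `U : E` the constant function `1/N`, `δ = dlt 1`.
* `hat (reg G) (toMA μ) δ = μ` (as a vector; `hat_reg_dlt_apply`, `toMA_coeff`);
  `hat (reg G) (toMA μ) U = (∑ μ) U = U` (`reg G g U = U`).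
* So `‖μ - U‖ = ‖hat (reg G) (toMA μ) (δ - U)‖ ≤ ‖exp (-s • L) (δ - U)‖` (`h`, `reg_isIso`).
* `L U = 0`, so `exp (-s • L) U = U` (`exp_fix`); `⟪exp(-s L) δ, U⟫ = ⟪δ, exp(-s L) U⟫ = ⟪δ, U⟫ = 1/N` (`exp_symm`, `lap_symm`);
  `‖U‖^2 = 1/N`.  Hence `‖exp(-s L)(δ - U)‖^2 = ‖exp(-s L) δ‖^2 - 1/N = (Zfun P s - 1)/N`.
* Cauchy-Schwarz: `(∑_g |μ g - 1/N|)^2 ≤ N ∑_g (μ g - 1/N)^2 = N ‖μ - U‖^2` (`sq_sum_le_card_mul_sum_sq`, `EuclideanSpace.norm_sq_eq`).
-/

namespace Vale.Agent.Lib.P162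

open Equiv NormedSpace

/-- abstract computation: subtracting a fixed vector of a symmetric semigroup. -/
theorem norm_exp_sub_fixed {V : Type} [NormedAddCommGroup V] [InnerProductSpace ℝ V]
    [CompleteSpace V] (L : V →L[ℝ] V) (hL : ∀ x y, inner ℝ (L x) y = inner ℝ x (L y))
    (U δ : V) (hU : L U = 0) (s : ℝ) :
    ‖exp (-s • L) (δ - U)‖ ^ 2 = ‖exp (-s • L) δ‖ ^ 2 - 2 * inner ℝ δ U + ‖U‖ ^ 2 := by
  have hfix : exp (-s • L) U = U := by
    apply exp_fix
    rw [smul_apply, hU, smul_zero]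
  have hsymm : ∀ x y, inner ℝ ((-s • L) x) y = inner ℝ x ((-s • L) y) := by
    intro x y
    rw [smul_apply, smul_apply, inner_smul_left, inner_smul_right, hL]
    rfl
  rw [map_sub, hfix, norm_sub_sq_real, exp_symm hsymm, hfix]

section Unif

variable {G : Type} [Group G] [Fintype G] [DecidableEq G]

/-- the uniform vector. -/
noncomputable def unifVec (G : Type) [Fintype G] [DecidableEq G] : EG G :=
  ((Fintype.card G : ℝ))⁻¹ • ∑ g : G, dlt g

theorem unifVec_apply (k : G) : (unifVec G) k = ((Fintype.card G : ℝ))⁻¹ := by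
  unfold unifVec
  rw [PiLp.smul_apply, WithLp.ofLp_sum, Finset.sum_apply]
  simp only [dlt_apply]
  simp

theorem reg_unifVec (h : G) : reg G h (unifVec G) = unifVec G := by
  ext k
  rw [reg_apply, unifVec_apply, unifVec_apply]

theorem hat_toMA (μ : G → ℝ) (v : EG G) :
    hat (reg G) (toMA μ) v = ∑ g : G, μ g • reg G g v := by
  unfold toMA
  rw [map_sum, sum_apply]
  refine Finset.sum_congr rfl fun g _ => ?_
  rw [hat_single]
  rfl

theorem hat_toMA_unifVec (μ : G → ℝ) (hsum : ∑ g, μ g = 1) :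
    hat (reg G) (toMA μ) (unifVec G) = unifVec G := by
  rw [hat_toMA]
  simp only [reg_unifVec]
  rw [← Finset.sum_smul, hsum, one_smul]

theorem norm_unifVec_sq : ‖unifVec G‖ ^ 2 = ((Fintype.card G : ℝ))⁻¹ := by
  have hN : (Fintype.card G : ℝ) ≠ 0 := by
    have : 0 < Fintype.card G := Fintype.card_pos
    positivity
  rw [EuclideanSpace.norm_sq_eq]
  simp only [unifVec_apply, Finset.sum_const, Finset.card_univ, nsmul_eq_mul, Real.norm_eq_abs,
    sq_abs]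
  field_simp

end Unif

variable {P : Type} [Fintype P] [DecidableEq P]

theorem lap_unifVec : lap (reg (Perm P)) (unifVec (Perm P)) = 0 := by
  unfold lap
  rw [sum_apply]
  refine Finset.sum_eq_zero fun a _ => ?_
  rw [sum_apply]
  refine Finset.sum_eq_zero fun b _ => ?_
  rw [sub_apply, one_apply_eq_self, reg_unifVec, sub_self]

theorem tv_sq_le (μ : Perm P → ℝ) (hsum : ∑ g, μ g = 1) (s : ℝ)
    (h : Dominated (EG (Perm P)) (toMA μ) s) :
    (2 * tvUnif μ) ^ 2 ≤ Zfun P s - 1 := by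
  set N : ℝ := (Fintype.card (Perm P) : ℝ) with hN
  have hNpos : 0 < N := by
    have : 0 < Fintype.card (Perm P) := Fintype.card_pos
    rw [hN]
    positivity
  set U := unifVec (Perm P) with hU
  set δ : EG (Perm P) := dlt 1 with hδ
  set M := hat (reg (Perm P)) (toMA μ) δ with hM
  have hMk : ∀ k, M k = μ k := fun k => by
    rw [hM, hδ, hat_reg_dlt_apply, toMA_coeff]
  have h1 : ‖M - U‖ ≤ ‖exp (-s • lap (reg (Perm P))) (δ - U)‖ := by
    have := h (reg (Perm P)) reg_isIso (δ - U)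
    rwa [map_sub, hat_toMA_unifVec μ hsum] at this
  have h2 := norm_exp_sub_fixed (lap (reg (Perm P))) (lap_symm reg_isIso) U δ lap_unifVec s
  rw [hδ, inner_dlt_left, ← hδ, hU, unifVec_apply, norm_unifVec_sq, ← hN, ← hU] at h2
  have h3 : ‖M - U‖ ^ 2 ≤ ‖exp (-s • lap (reg (Perm P))) δ‖ ^ 2 - N⁻¹ := by
    calc ‖M - U‖ ^ 2 ≤ ‖exp (-s • lap (reg (Perm P))) (δ - U)‖ ^ 2 :=
          pow_le_pow_left₀ (norm_nonneg _) h1 2
      _ = _ := by rw [h2]; ring
  have h4 : ‖M - U‖ ^ 2 = ∑ g : Perm P, (μ g - 1 / N) ^ 2 := by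
    rw [EuclideanSpace.norm_sq_eq]
    refine Finset.sum_congr rfl fun g _ => ?_
    rw [PiLp.sub_apply, hMk, hU, unifVec_apply, Real.norm_eq_abs, sq_abs, one_div]
  have h5 : (2 * tvUnif μ) ^ 2 ≤ N * ∑ g : Perm P, (μ g - 1 / N) ^ 2 := by
    have hcs := sq_sum_le_card_mul_sum_sq (s := (Finset.univ : Finset (Perm P)))
      (f := fun g => |μ g - 1 / N|)
    simp only [sq_abs, Finset.card_univ] at hcs
    have : 2 * tvUnif μ = ∑ g : Perm P, |μ g - 1 / N| := by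
      unfold tvUnif
      ring
    rw [this]
    exact hcs
  have h6 : Zfun P s = N * ‖exp (-s • lap (reg (Perm P))) δ‖ ^ 2 := by
    unfold Zfun
    rw [hN, Fintype.card_perm]
  rw [h6]
  calc (2 * tvUnif μ) ^ 2 ≤ N * ∑ g : Perm P, (μ g - 1 / N) ^ 2 := h5
    _ = N * ‖M - U‖ ^ 2 := by rw [h4]
    _ ≤ N * (‖exp (-s • lap (reg (Perm P))) δ‖ ^ 2 - N⁻¹) :=
        mul_le_mul_of_nonneg_left h3 hNpos.le
    _ = _ := by
        rw [mul_sub, mul_inv_cancel₀ hNpos.ne']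

end Vale.Agent.Lib.P162
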