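import Mathlib
import Vale.Agent.Lib.P162.Defs
import Vale.Agent.Lib.P162.Rep

/-!
# P162 module H2 `PureLap`: the Laplacian on the pure subspaces   (statements FROZEN)

`Inv ρ R` = vectors fixed by all `swap a b`, `a b ∉ R`;  `Pure ρ R = Inv ρ R ⊓ (⨆ i ∈ R, Inv ρ (R.erase i))ᗮ`.

* `symmetrize_mem`: for `v ∈ Inv ρ R`, `i ∈ R`: `w = v + ∑_{b ∉ R} ρ (swap i b) v ∈ Inv ρ (R.erase i)`.
  Check `ρ (swap a c) w = w` for `a c ∉ R.erase i`:
  - `a, c ∉ R`: `ρ(swap a c) ρ(swap i b) v = ρ(swap i (swap a c b)) ρ(swap a c) v` (`rho_mul_swap`), reindex `b`;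
  - `a = i`, `c ∉ R` (`c ≠ i`): `swap i c * swap i b = swap i b * swap c b` for `b ≠ c` (b, c, i distinct), and
    `ρ (swap c b) v = v`; the terms `v` and `ρ (swap i c) v` are exchanged;  `a = c` is trivial; symmetric case.
* `pure_sum_swap`: `w ∈ Inv ρ (R.erase i)` and `v ⊥` that space, so `⟪w, v⟫ = 0`; moreover
  `⟪w, ρ(swap i b) v⟫ = ⟪ρ(swap i b) w, v⟫ = ⟪w, v⟫ = 0`; hence `⟪w,w⟫ = 0`, `w = 0`.
* `pure_lap`: split both sums of `lap` into `R` and `Rᶜ`: `(R,R)` gives `lapOn`; `(Rᶜ,Rᶜ)` gives `0`;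
  `(R,Rᶜ)` and `(Rᶜ,R)` give each `∑_{i ∈ R} (m v + v) = |R| (m+1) v`, `m = |P| - |R|` (`swap_comm`).
* `lap_mem_inv`, `lap_mem_pure`: `lap ρ` commutes with all `ρ g` (`lap_central`) and is symmetric (`lap_symm`).
* `inv_le_iSup_pure`: strong induction on `|R|`, using
  `Inv ρ R = K ⊔ (Kᗮ ⊓ Inv ρ R)`, `K = ⨆ i ∈ R, Inv ρ (R.erase i) ≤ Inv ρ R`
  (`Submodule.sup_orthogonal_inf_of_hasOrthogonalProjection` or similar).
* `iSup_pure_eq_top`: for `i0 : P`, `Inv ρ (univ.erase i0) = ⊤` (`swap i0 i0 = 1`).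
-/

namespace Vale.Agent.Lib.P162

open Equiv

variable {V : Type} [NormedAddCommGroup V] [InnerProductSpace ℝ V]
variable {P : Type} [DecidableEq P] [Fintype P] {ρ : Perm P →* (V →L[ℝ] V)}

omit [Fintype P] in
theorem mem_inv {ρ : Perm P →* (V →L[ℝ] V)} {R : Finset P} {v : V} :
    v ∈ Inv ρ R ↔ ∀ a b : P, a ∉ R → b ∉ R → ρ (swap a b) v = v := Iff.rfl

theorem inv_mono (ρ : Perm P →* (V →L[ℝ] V)) {R R' : Finset P} (h : R ⊆ R') :
    Inv ρ R ≤ Inv ρ R' := by
  intro v hv a b ha hb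
  exact hv a b (fun hh => ha (h hh)) (fun hh => hb (h hh))

omit [Fintype P] in
theorem rho_swap_apply (ρ : Perm P →* (V →L[ℝ] V)) (g : Perm P) (a b : P) (x : V) :
    ρ g (ρ (swap a b) x) = ρ (swap (g a) (g b)) (ρ g x) := by
  have := congrArg (fun T : V →L[ℝ] V => T x) (rho_mul_swap ρ g a b)
  simpa only [mul_apply_eq_comp] using this

theorem symmetrize_aux (ρ : Perm P →* (V →L[ℝ] V)) {R : Finset P} {v : V} (hv : v ∈ Inv ρ R)
    {i : P} (hi : i ∈ R) {c : P} (hc : c ∉ R) :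
    ρ (swap i c) (v + ∑ b ∈ Rᶜ, ρ (swap i b) v) = v + ∑ b ∈ Rᶜ, ρ (swap i b) v := by
  have hcR : c ∈ Rᶜ := Finset.mem_compl.2 hc
  have hic : i ≠ c := fun h => hc (h ▸ hi)
  rw [map_add, map_sum, ← Finset.add_sum_erase _ _ hcR, ← Finset.add_sum_erase _ _ hcR,
    swap_swap_apply]
  have h1 : ∑ b ∈ Rᶜ.erase c, ρ (swap i c) (ρ (swap i b) v) = ∑ b ∈ Rᶜ.erase c, ρ (swap i b) v := by
    apply Finset.sum_congr rfl
    intro b hb
    rw [Finset.mem_erase, Finset.mem_compl] at hb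
    have hib : i ≠ b := fun h => hb.2 (h ▸ hi)
    have e := rho_swap_apply ρ (swap i b) c b v
    rw [swap_apply_right, swap_apply_of_ne_of_ne hic.symm hb.1.symm, hv c b hc hb.2,
      swap_comm c i] at e
    exact e.symm
  rw [h1]
  abel

theorem symmetrize_mem (ρ : Perm P →* (V →L[ℝ] V)) {R : Finset P} {v : V} (hv : v ∈ Inv ρ R)
    {i : P} (hi : i ∈ R) : v + ∑ b ∈ Rᶜ, ρ (swap i b) v ∈ Inv ρ (R.erase i) := by
  intro a c ha hc
  have ha' : a = i ∨ a ∉ R := by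
    by_cases h : a = i
    · exact Or.inl h
    · exact Or.inr (fun hh => ha (Finset.mem_erase.2 ⟨h, hh⟩))
  have hc' : c = i ∨ c ∉ R := by
    by_cases h : c = i
    · exact Or.inl h
    · exact Or.inr (fun hh => hc (Finset.mem_erase.2 ⟨h, hh⟩))
  rcases ha' with rfl | ha' <;> rcases hc' with rfl | hc'
  · rw [swap_self]
    have h1 : ρ (Equiv.refl P) = 1 := map_one ρ
    rw [h1, one_apply_eq_self]
  · exact symmetrize_aux ρ hv hi hc'
  · rw [swap_comm]
    exact symmetrize_aux ρ hv hi ha'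
  · have hia : i ≠ a := fun h => ha' (h ▸ hi)
    have hic : i ≠ c := fun h => hc' (h ▸ hi)
    rw [map_add, map_sum, hv a c ha' hc']
    congr 1
    have h1 : ∀ b, ρ (swap a c) (ρ (swap i b) v) = ρ (swap i (swap a c b)) v := by
      intro b
      rw [rho_swap_apply, swap_apply_of_ne_of_ne hia hic, hv a c ha' hc']
    simp_rw [h1]
    apply Finset.sum_equiv (swap a c)
    · intro b
      rw [Finset.mem_compl, Finset.mem_compl]
      by_cases hba : b = a
      · subst hba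
        rw [swap_apply_left]
        exact ⟨fun _ => hc', fun _ => ha'⟩
      · by_cases hbc : b = c
        · subst hbc
          rw [swap_apply_right]
          exact ⟨fun _ => ha', fun _ => hc'⟩
        · rw [swap_apply_of_ne_of_ne hba hbc]
    · intro b _
      rfl

theorem pure_sum_swap (hρ : IsIso ρ) {R : Finset P} {v : V} (hv : v ∈ Pure ρ R) {i : P}
    (hi : i ∈ R) : ∑ b ∈ Rᶜ, ρ (swap i b) v = -v := by
  obtain ⟨hv1, hv2⟩ := Submodule.mem_inf.1 hv
  have hw := symmetrize_mem ρ hv1 hi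
  set w := v + ∑ b ∈ Rᶜ, ρ (swap i b) v with hwdef
  have hwK : w ∈ ⨆ j ∈ R, Inv ρ (R.erase j) :=
    (le_iSup₂ (f := fun j (_ : j ∈ R) => Inv ρ (R.erase j)) i hi) hw
  have h0 : inner ℝ w v = 0 := (Submodule.mem_orthogonal _ _).1 hv2 w hwK
  have h1 : inner ℝ w w = 0 := by
    conv_lhs => rw [hwdef]
    rw [← hwdef, hwdef, ← hwdef]
    have : inner ℝ w (v + ∑ b ∈ Rᶜ, ρ (swap i b) v) = 0 := by
      rw [inner_add_right, inner_sum, h0, zero_add]
      apply Finset.sum_eq_zero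
      intro b hb
      rw [← swap_symm hρ, hw i b (Finset.notMem_erase i R)
        (fun hh => (Finset.mem_compl.1 hb) (Finset.mem_of_mem_erase hh)), h0]
    exact this
  have h2 : w = 0 := inner_self_eq_zero.1 h1
  rw [hwdef] at h2
  exact eq_neg_of_add_eq_zero_right h2

theorem pure_lap (hρ : IsIso ρ) {R : Finset P} {v : V} (hv : v ∈ Pure ρ R) :
    lap ρ v = (2 * (R.card : ℝ) * ((Fintype.card P : ℝ) - (R.card : ℝ) + 1)) • v + lapOn ρ R v := by
  obtain ⟨hv1, hv2⟩ := Submodule.mem_inf.1 hv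
  have hm : ((Rᶜ.card : ℕ) : ℝ) = (Fintype.card P : ℝ) - (R.card : ℝ) := by
    rw [Finset.card_compl, Nat.cast_sub (Finset.card_le_univ R)]
  have hRC : ∀ i ∈ R, ∑ b ∈ Rᶜ, (v - ρ (swap i b) v)
      = ((Fintype.card P : ℝ) - (R.card : ℝ) + 1) • v := by
    intro i hi
    rw [Finset.sum_sub_distrib, pure_sum_swap hρ hv hi, Finset.sum_const,
      ← Nat.cast_smul_eq_nsmul ℝ, hm, add_smul, one_smul]
    abel
  have e1 : lap ρ v = ∑ a : P, ∑ b : P, (v - ρ (swap a b) v) := by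
    unfold lap
    simp only [_root_.sum_apply, _root_.sub_apply, one_apply_eq_self]
  have e2 : lapOn ρ R v = ∑ a ∈ R, ∑ b ∈ R, (v - ρ (swap a b) v) := by
    unfold lapOn
    simp only [_root_.sum_apply, _root_.sub_apply, one_apply_eq_self]
  rw [e1, e2, ← Finset.sum_add_sum_compl R]
  have s1 : ∑ a ∈ R, ∑ b : P, (v - ρ (swap a b) v)
      = ∑ a ∈ R, ∑ b ∈ R, (v - ρ (swap a b) v)
        + ((R.card : ℝ) * ((Fintype.card P : ℝ) - (R.card : ℝ) + 1)) • v := by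
    have : ∀ a ∈ R, ∑ b : P, (v - ρ (swap a b) v) = ∑ b ∈ R, (v - ρ (swap a b) v)
        + ((Fintype.card P : ℝ) - (R.card : ℝ) + 1) • v := by
      intro a ha
      rw [← Finset.sum_add_sum_compl R, hRC a ha]
    rw [Finset.sum_congr rfl this, Finset.sum_add_distrib, Finset.sum_const,
      ← Nat.cast_smul_eq_nsmul ℝ, smul_smul]
  have s2 : ∑ a ∈ Rᶜ, ∑ b : P, (v - ρ (swap a b) v)
      = ((R.card : ℝ) * ((Fintype.card P : ℝ) - (R.card : ℝ) + 1)) • v := by
    have : ∀ a ∈ Rᶜ, ∑ b : P, (v - ρ (swap a b) v) = ∑ b ∈ R, (v - ρ (swap b a) v) := by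
      intro a ha
      rw [← Finset.sum_add_sum_compl R]
      have z : ∑ b ∈ Rᶜ, (v - ρ (swap a b) v) = 0 := by
        apply Finset.sum_eq_zero
        intro b hb
        rw [hv1 a b (Finset.mem_compl.1 ha) (Finset.mem_compl.1 hb), sub_self]
      rw [z, add_zero]
      apply Finset.sum_congr rfl
      intro b _
      rw [swap_comm]
    rw [Finset.sum_congr rfl this, Finset.sum_comm, Finset.sum_congr rfl hRC, Finset.sum_const,
      ← Nat.cast_smul_eq_nsmul ℝ, smul_smul]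
  rw [s1, s2]
  have : (2 * (R.card : ℝ) * ((Fintype.card P : ℝ) - (R.card : ℝ) + 1)) • v
      = ((R.card : ℝ) * ((Fintype.card P : ℝ) - (R.card : ℝ) + 1)) • v
        + ((R.card : ℝ) * ((Fintype.card P : ℝ) - (R.card : ℝ) + 1)) • v := by
    rw [← add_smul]
    congr 1
    ring
  rw [this]
  abel

theorem lap_mem_inv (ρ : Perm P →* (V →L[ℝ] V)) {R : Finset P} {v : V} (hv : v ∈ Inv ρ R) :
    lap ρ v ∈ Inv ρ R := by
  intro a b ha hb
  have h := congrArg (fun T : V →L[ℝ] V => T v) (lap_central ρ (swap a b)).eq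
  simp only [mul_apply_eq_comp] at h
  rw [h, hv a b ha hb]

theorem lap_mem_pure (hρ : IsIso ρ) {R : Finset P} {v : V} (hv : v ∈ Pure ρ R) :
    lap ρ v ∈ Pure ρ R := by
  obtain ⟨hv1, hv2⟩ := Submodule.mem_inf.1 hv
  refine Submodule.mem_inf.2 ⟨lap_mem_inv ρ hv1, ?_⟩
  rw [Submodule.mem_orthogonal]
  intro w hw
  have hK : (⨆ j ∈ R, Inv ρ (R.erase j)) ≤
      (⨆ j ∈ R, Inv ρ (R.erase j)).comap (lap ρ : V →ₗ[ℝ] V) := by
    apply iSup₂_le
    intro j hj x hx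
    exact (le_iSup₂ (f := fun j (_ : j ∈ R) => Inv ρ (R.erase j)) j hj) (lap_mem_inv ρ hx)
  have hw' : lap ρ w ∈ ⨆ j ∈ R, Inv ρ (R.erase j) := hK hw
  rw [← lap_symm hρ]
  exact (Submodule.mem_orthogonal _ _).1 hv2 _ hw'

theorem inv_le_iSup_pure [FiniteDimensional ℝ V] (ρ : Perm P →* (V →L[ℝ] V)) (R : Finset P) :
    Inv ρ R ≤ ⨆ R' ∈ R.powerset, Pure ρ R' := by
  induction R using Finset.strongInduction with
  | H R ih =>
    have hK : (⨆ j ∈ R, Inv ρ (R.erase j)) ≤ Inv ρ R :=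
      iSup₂_le (fun j _ => inv_mono ρ (Finset.erase_subset j R))
    have hdec := Submodule.sup_orthogonal_inf_of_hasOrthogonalProjection hK
    rw [← hdec]
    apply sup_le
    · apply iSup₂_le
      intro j hj
      refine (ih (R.erase j) (Finset.erase_ssubset hj)).trans ?_
      apply iSup₂_le
      intro R' hR'
      exact le_iSup₂ (f := fun R' (_ : R' ∈ R.powerset) => Pure ρ R') R'
        (Finset.mem_powerset.2 ((Finset.mem_powerset.1 hR').trans (Finset.erase_subset j R)))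
    · have : (⨆ j ∈ R, Inv ρ (R.erase j))ᗮ ⊓ Inv ρ R = Pure ρ R := inf_comm _ _
      rw [this]
      exact le_iSup₂ (f := fun R' (_ : R' ∈ R.powerset) => Pure ρ R') R
        (Finset.mem_powerset.2 (Finset.Subset.refl R))

theorem iSup_pure_eq_top [FiniteDimensional ℝ V] [Nonempty P] (ρ : Perm P →* (V →L[ℝ] V)) :
    ⨆ R ∈ (Finset.univ : Finset (Finset P)).erase Finset.univ, Pure ρ R = ⊤ := by
  obtain ⟨i0⟩ := ‹Nonempty P›
  have htop : Inv ρ (Finset.univ.erase i0) = ⊤ := by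
    rw [eq_top_iff]
    intro v _ a b ha hb
    have ha' : a = i0 := by
      by_contra h
      exact ha (Finset.mem_erase.2 ⟨h, Finset.mem_univ a⟩)
    have hb' : b = i0 := by
      by_contra h
      exact hb (Finset.mem_erase.2 ⟨h, Finset.mem_univ b⟩)
    rw [ha', hb', swap_self]
    have h1 : ρ (Equiv.refl P) = 1 := map_one ρ
    rw [h1, one_apply_eq_self]
  rw [eq_top_iff, ← htop]
  refine (inv_le_iSup_pure ρ _).trans ?_
  apply iSup₂_le
  intro R' hR'
  refine le_iSup₂ (f := fun R (_ : R ∈ (Finset.univ : Finset (Finset P)).erase Finset.univ) =>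
    Pure ρ R) R' ?_
  rw [Finset.mem_erase]
  refine ⟨?_, Finset.mem_univ _⟩
  rintro rfl
  exact Finset.notMem_erase i0 _ (Finset.mem_powerset.1 hR' (Finset.mem_univ i0))

end Vale.Agent.Lib.P162
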