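import Mathlib

/-!
# P162 module H1 `SpanTrace`: three abstract linear algebra lemmas   (statements FROZEN)

* `trace_le_of_span`: extract from the spanning family `v` a basis (a subfamily; e.g.
  `exists_linearIndependent` applied to `Set.range v`, `Basis.mk`/`Basis.span`...).  In that basis the matrix of `M` is
  diagonal with entries among the `c j` (`LinearMap.trace_eq_matrix_trace`), distinct basis vectors come from
  distinct indices `j`, and the remaining `c j` are `≥ 0`.  (Zero vectors are never in a basis.)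
* `exists_eigen_family`: restrict `T` to `W` (`LinearMap.restrict`, `LinearMap.IsSymmetric.restrict_invariant`), take
  `LinearMap.IsSymmetric.eigenvectorBasis` of the restriction, and map to `V` by `W.subtype`.
* `sum_norm_sq_le_of_orthonormal`: `‖B (v j)‖^2 = ∑_i ⟪b i, B (v j)⟫^2 = ∑_i ⟪B' (b i), v j⟫^2`
  (`OrthonormalBasis.sum_sq_norm_inner_right`-type Parseval), swap the sums, Bessel
  (`Orthonormal.sum_inner_products_le`).
-/

namespace Vale.Agent.Lib.P162

theorem trace_le_of_span {V : Type} [AddCommGroup V] [Module ℝ V] [FiniteDimensional ℝ V]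
    (M : V →ₗ[ℝ] V) {J : Type} [Fintype J] (v : J → V) (c : J → ℝ) (hc : ∀ j, 0 ≤ c j)
    (hv : ∀ j, M (v j) = c j • v j) (hspan : Submodule.span ℝ (Set.range v) = ⊤) :
    LinearMap.trace ℝ V M ≤ ∑ j, c j := by
  classical
  obtain ⟨b, hb_sub, hb_span, hb_li⟩ := exists_linearIndependent ℝ (Set.range v)
  let B : Module.Basis b ℝ V := Module.Basis.mk hb_li (by
    rw [Subtype.range_coe, hb_span, hspan])
  have : Finite b := Module.Finite.finite_basis B
  have : Fintype b := Fintype.ofFinite b
  have hB : ∀ x : b, B x = (x : V) := fun x => by simp [B]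
  choose j hj using fun x : b => hb_sub x.2
  have hinj : Function.Injective j := by
    intro x y h
    apply Subtype.ext
    rw [← hj x, ← hj y, h]
  have hM : ∀ x : b, M (B x) = c (j x) • B x := by
    intro x
    rw [hB, ← hj x, hv]
  rw [LinearMap.trace_eq_matrix_trace ℝ B M, Matrix.trace]
  have hdiag : ∀ x : b, (LinearMap.toMatrix B B M).diag x = c (j x) := by
    intro x
    simp [Matrix.diag, LinearMap.toMatrix_apply, hM]
  simp only [hdiag]
  calc ∑ x : b, c (j x) = ∑ i ∈ Finset.univ.image j, c i := by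
        rw [Finset.sum_image (fun x _ y _ h => hinj h)]
    _ ≤ ∑ i, c i := Finset.sum_le_sum_of_subset_of_nonneg (Finset.subset_univ _)
        (fun i _ _ => hc i)

theorem exists_eigen_family {V : Type} [NormedAddCommGroup V] [InnerProductSpace ℝ V]
    [FiniteDimensional ℝ V] (T : V →L[ℝ] V) (hT : ∀ x y, inner ℝ (T x) y = inner ℝ x (T y))
    (W : Submodule ℝ V) (hW : ∀ v ∈ W, T v ∈ W) :
    ∃ (m : ℕ) (v : Fin m → V) (l : Fin m → ℝ), Orthonormal ℝ v ∧
      Submodule.span ℝ (Set.range v) = W ∧ ∀ j, T (v j) = l j • v j := by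
  have hsym : (T : V →ₗ[ℝ] V).IsSymmetric := fun x y => hT x y
  have hsym' : ((T : V →ₗ[ℝ] V).restrict hW).IsSymmetric := hsym.restrict_invariant hW
  let e := hsym'.eigenvectorBasis (rfl : Module.finrank ℝ W = Module.finrank ℝ W)
  refine ⟨Module.finrank ℝ W, fun j => (e j : V), hsym'.eigenvalues rfl, ?_, ?_, ?_⟩
  · exact e.orthonormal.comp_linearIsometry W.subtypeₗᵢ
  · have h1 : Set.range (fun j => (e j : V)) = W.subtype '' Set.range e := by
      rw [← Set.range_comp]; rfl
    have h2 : Submodule.span ℝ (Set.range e) = ⊤ := by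
      have := e.toBasis.span_eq
      rwa [e.coe_toBasis] at this
    rw [h1, Submodule.span_image, h2, Submodule.map_top, Submodule.range_subtype]
  · intro j
    have := hsym'.apply_eigenvectorBasis (rfl : Module.finrank ℝ W = Module.finrank ℝ W) j
    have h2 : (((T : V →ₗ[ℝ] V).restrict hW (e j) : W) : V)
        = (((hsym'.eigenvalues rfl j : ℝ) • e j : W) : V) := congrArg Subtype.val this
    rw [LinearMap.coe_restrict_apply] at h2
    exact h2

theorem sum_norm_sq_le_of_orthonormal {V : Type} [NormedAddCommGroup V] [InnerProductSpace ℝ V]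
    {ι : Type} [Fintype ι] (b : OrthonormalBasis ι ℝ V) {m : ℕ} (v : Fin m → V)
    (hv : Orthonormal ℝ v) (B B' : V →L[ℝ] V) (hadj : ∀ x y, inner ℝ (B x) y = inner ℝ x (B' y)) :
    ∑ j, ‖B (v j)‖ ^ 2 ≤ ∑ i, ‖B' (b i)‖ ^ 2 := by
  have h1 : ∀ j, ‖B (v j)‖ ^ 2 = ∑ i, ‖inner ℝ (v j) (B' (b i))‖ ^ 2 := by
    intro j
    rw [← b.sum_sq_norm_inner_right (B (v j))]
    apply Finset.sum_congr rfl
    intro i _
    rw [real_inner_comm, hadj]
  simp only [h1]
  rw [Finset.sum_comm]
  apply Finset.sum_le_sum
  intro i _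
  exact hv.sum_inner_products_le (B' (b i))

end Vale.Agent.Lib.P162
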