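import Mathlib
import Vale.Agent.Lib.P162.Defs
import Vale.Agent.Lib.P162.ExpOp
import Vale.Agent.Lib.P162.Rep
import Vale.Agent.Lib.P162.RegBasics
import Vale.Agent.Lib.P162.SpanTrace
import Vale.Agent.Lib.P162.PureLap
import Vale.Agent.Lib.P162.Embed

/-!
# P162 module H6 `Zrec`: the recursion for `Zfun`   (statements FROZEN)

`E = EG (Perm P)`, `ρ = reg (Perm P)`, `L = lap ρ`, `n = |P|`, `M = exp (-(2 s) • L) = exp (-s • L) * exp (-s • L)`.
1. `trace M = ∑_g ⟪dlt g, M (dlt g)⟫` (`LinearMap.trace_eq_sum_inner` with `EuclideanSpace.basisFun`, `basisFun_eq_dlt`)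
   `= ∑_g ‖exp (-s • L) (dlt g)‖^2` (`exp_symm`, `lap_symm`) `= Zfun P s` (`Zfun_eq_sum`).
2. For each `R ≠ univ` take `(m_R, v^R, l^R)` from `exists_eigen_family L (Pure ρ R)` (`lap_symm`, `lap_mem_pure`)
   (use `Classical.choose`/`choose`).  The family indexed by `Σ R : {R // R ≠ univ}, Fin (m_R)` spans `⊤` (`iSup_pure_eq_top`,
   `Submodule.span_iUnion`/`Submodule.iSup_span`), and `M v = exp (-2 s l) v` (`exp_eigen`).  `trace_le_of_span` gives
   `Zfun P s ≤ ∑_R ∑_j exp (-2 s l^R_j)`.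
3. (`pure_block`) Fix `R`, `c_R = 2 |R| (n - |R| + 1)`.  By `pure_lap`, `lapOn ρ R v_j = (l_j - c_R) v_j`, so with `A = exp (-s • lapOn ρ R)`:
   `‖A v_j‖^2 = exp (-2 s (l_j - c_R))` (`exp_eigen`, `‖v_j‖ = 1`), i.e. `exp (-2 s l_j) = exp (-2 s c_R) ‖A v_j‖^2`.
   `v_j ∈ Pure ρ R ≤ Inv ρ R`, so `Qop R v_j = v_j` and `∑_j ‖A (Qop R v_j)‖^2 ≤ ∑_g ‖Qop R (A (dlt g))‖^2`
   (`sum_norm_sq_le_of_orthonormal` with `B = A * Qop R`, `B' = Qop R * A`; `A` symmetric by `exp_symm`, `lapOn_symm`; `Qop_symm`)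
   `= choose n |R| * Zfun {x // x ∈ R} s` (`sum_Qop`).
-/

namespace Vale.Agent.Lib.P162

open Equiv NormedSpace

variable {P : Type} [Fintype P] [DecidableEq P]

theorem smul_lap_symm (t : ℝ) (x y : EG (Perm P)) :
    inner ℝ ((t • lap (reg (Perm P))) x) y = inner ℝ x ((t • lap (reg (Perm P))) y) := by
  simp only [ContinuousLinearMap.smul_apply, inner_smul_left, inner_smul_right,
    lap_symm reg_isIso]
  simp

theorem smul_lapOn_symm (R : Finset P) (t : ℝ) (x y : EG (Perm P)) :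
    inner ℝ ((t • lapOn (reg (Perm P)) R) x) y = inner ℝ x ((t • lapOn (reg (Perm P)) R) y) := by
  simp only [ContinuousLinearMap.smul_apply, inner_smul_left, inner_smul_right,
    lapOn_symm reg_isIso]
  simp

theorem Zfun_eq_trace (s : ℝ) :
    Zfun P s = LinearMap.trace ℝ (EG (Perm P))
      ((exp (-(2 * s) • lap (reg (Perm P))) : EG (Perm P) →L[ℝ] EG (Perm P)) :
        EG (Perm P) →ₗ[ℝ] EG (Perm P)) := by
  rw [LinearMap.trace_eq_sum_inner _ (EuclideanSpace.basisFun (Perm P) ℝ), Zfun_eq_sum]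
  refine Finset.sum_congr rfl (fun g _ => ?_)
  have e : (-(2 * s)) • lap (reg (Perm P))
      = (-s) • lap (reg (Perm P)) + (-s) • lap (reg (Perm P)) := by
    rw [← add_smul]; congr 1; ring
  rw [basisFun_eq_dlt, ContinuousLinearMap.coe_coe, e, exp_add_comm (Commute.refl _),
    ContinuousLinearMap.mul_apply, ← exp_symm (smul_lap_symm (-s)), real_inner_self_eq_norm_sq]

theorem pure_block (R : Finset P) (s : ℝ) {m : ℕ} (v : Fin m → EG (Perm P)) (l : Fin m → ℝ)
    (hv : Orthonormal ℝ v) (hmem : ∀ j, v j ∈ Pure (reg (Perm P)) R)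
    (hl : ∀ j, lap (reg (Perm P)) (v j) = l j • v j) :
    ∑ j, Real.exp (-(2 * s) * l j)
      ≤ ((Fintype.card P).choose R.card : ℝ) *
          Real.exp (-(4 * s * (R.card : ℝ) * ((Fintype.card P : ℝ) - (R.card : ℝ) + 1))) *
          Zfun {x // x ∈ R} s := by
  set cR : ℝ := 2 * (R.card : ℝ) * ((Fintype.card P : ℝ) - (R.card : ℝ) + 1) with hcR
  set A : EG (Perm P) →L[ℝ] EG (Perm P) := exp (-s • lapOn (reg (Perm P)) R) with hA
  have hAsymm : ∀ x y, inner ℝ (A x) y = inner ℝ x (A y) := exp_symm (smul_lapOn_symm R (-s))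
  -- eigenvalue of `lapOn`
  have h1 : ∀ j, lapOn (reg (Perm P)) R (v j) = (l j - cR) • v j := by
    intro j
    have := pure_lap reg_isIso (hmem j)
    rw [hl j, ← hcR] at this
    rw [sub_smul, this]
    abel
  have h2 : ∀ j, A (v j) = Real.exp (-s * (l j - cR)) • v j := by
    intro j
    apply exp_eigen
    rw [ContinuousLinearMap.smul_apply, h1 j, smul_smul]
  have h3 : ∀ j, Real.exp (-(2 * s) * l j) = Real.exp (-(2 * s) * cR) * ‖A (v j)‖ ^ 2 := by
    intro j
    rw [h2 j, norm_smul, hv.1 j, mul_one, Real.norm_eq_abs, sq_abs, ← Real.exp_nat_mul,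
      ← Real.exp_add]
    congr 1
    push_cast
    ring
  have hQ : ∀ j, Qop R (v j) = v j := fun j => Qop_fix R (hmem j).1
  have h4 : ∑ j, ‖A (v j)‖ ^ 2 ≤ ((Fintype.card P).choose R.card : ℝ) * Zfun {x // x ∈ R} s := by
    have h5 := sum_norm_sq_le_of_orthonormal (EuclideanSpace.basisFun (Perm P) ℝ) v hv
      (A * Qop R) (Qop R * A) (by
        intro x y
        rw [ContinuousLinearMap.mul_apply, ContinuousLinearMap.mul_apply, hAsymm, Qop_symm])
    simp only [ContinuousLinearMap.mul_apply, hQ, basisFun_eq_dlt] at h5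
    rw [← sum_Qop R s]
    exact h5
  have e4 : Real.exp (-(4 * s * (R.card : ℝ) * ((Fintype.card P : ℝ) - (R.card : ℝ) + 1)))
      = Real.exp (-(2 * s) * cR) := by
    congr 1
    rw [hcR]; ring
  rw [Finset.sum_congr rfl (fun j _ => h3 j), ← Finset.mul_sum, e4]
  calc Real.exp (-(2 * s) * cR) * ∑ j, ‖A (v j)‖ ^ 2
      ≤ Real.exp (-(2 * s) * cR) * (((Fintype.card P).choose R.card : ℝ) * Zfun {x // x ∈ R} s) :=
        mul_le_mul_of_nonneg_left h4 (Real.exp_pos _).le
    _ = _ := by ring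

theorem Zfun_rec [Nonempty P] (s : ℝ) :
    Zfun P s ≤ ∑ R ∈ (Finset.univ : Finset (Finset P)).erase Finset.univ,
      ((Fintype.card P).choose R.card : ℝ) *
        Real.exp (-(4 * s * (R.card : ℝ) * ((Fintype.card P : ℝ) - (R.card : ℝ) + 1))) *
        Zfun {x // x ∈ R} s := by
  have hfam : ∀ R : Finset P, ∃ (m : ℕ) (v : Fin m → EG (Perm P)) (l : Fin m → ℝ),
      Orthonormal ℝ v ∧ Submodule.span ℝ (Set.range v) = Pure (reg (Perm P)) R ∧
        ∀ j, lap (reg (Perm P)) (v j) = l j • v j := fun R =>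
    exists_eigen_family (lap (reg (Perm P))) (lap_symm reg_isIso) (Pure (reg (Perm P)) R)
      (fun v hv => lap_mem_pure reg_isIso hv)
  choose m v l hon hspan heig using hfam
  set S : Finset (Finset P) := (Finset.univ : Finset (Finset P)).erase Finset.univ with hS
  have hmem : ∀ R j, v R j ∈ Pure (reg (Perm P)) R := by
    intro R j
    rw [← hspan R]
    exact Submodule.subset_span ⟨j, rfl⟩
  rw [Zfun_eq_trace]
  have htr := trace_le_of_span
    ((exp (-(2 * s) • lap (reg (Perm P))) : EG (Perm P) →L[ℝ] EG (Perm P)) :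
        EG (Perm P) →ₗ[ℝ] EG (Perm P))
    (J := Σ R : S, Fin (m R.1)) (fun x => v x.1.1 x.2)
    (fun x => Real.exp (-(2 * s) * l x.1.1 x.2)) (fun x => (Real.exp_pos _).le)
    (by
      intro x
      rw [ContinuousLinearMap.coe_coe]
      apply exp_eigen
      rw [ContinuousLinearMap.smul_apply, heig, smul_smul])
    (by
      rw [eq_top_iff, ← iSup_pure_eq_top (reg (Perm P))]
      refine iSup₂_le (fun R hR => ?_)
      rw [← hspan R]
      apply Submodule.span_mono
      rintro _ ⟨j, rfl⟩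
      exact ⟨⟨⟨R, hR⟩, j⟩, rfl⟩)
  refine htr.trans ?_
  rw [Fintype.sum_sigma, ← Finset.sum_coe_sort S]
  exact Finset.sum_le_sum (fun R _ => pure_block R.1 s (v R.1) (l R.1) (hon R.1) (hmem R.1) (heig R.1))

end Vale.Agent.Lib.P162
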