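import Mathlib
import Vale.Agent.Lib.P162.Defs
import Vale.Agent.Lib.P162.ExpOp
import Vale.Agent.Lib.P162.RegBasics
import Vale.Agent.Lib.P162.Zrec
import Vale.Agent.Lib.P162.Frec

/-!
# P162 module H8 `Zbound`: `Zfun P s ≤ Fbd |P| (exp (-2 s))`   (statement FROZEN)

Strong induction on `n = |P|`, for all types `P` at once.
* `n = 0`: `lap = 0` (empty sum), `exp 0 = 1`, `‖dlt 1‖ = 1`, `0! = 1`: `Zfun P s = 1 = Fbd 0 r`.
* `n ≥ 1`: `Zfun_rec`; for `R ≠ univ`, `|R| < n`, `card {x // x ∈ R} = |R|` (`Fintype.card_coe`), induction hypothesis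
  `Zfun {x // x ∈ R} s ≤ Fbd |R| r`.  With `r = exp (-2 s) ∈ (0,1]`:
  `exp (-(4 s p (n - p + 1))) = r^(2 p (n-p+1)) ≤ r^(2 p (n-p))`.
  The summand depends only on `|R|`: `Finset.sum_powerset_apply_card` (`univ.powerset = univ`), the term `p = n` is the removed `R = univ`
  (`Finset.card_eq_iff_eq_univ`): `∑_{R ≠ univ} f |R| = ∑_{p < n} C(n,p) f p`.  Conclude by `Fbd_rec`.
-/

namespace Vale.Agent.Lib.P162

open Equiv NormedSpace

theorem Zfun_of_isEmpty (P : Type) [Fintype P] [DecidableEq P] (h : Fintype.card P = 0) (s : ℝ) :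
    Zfun P s = 1 := by
  have : IsEmpty P := Fintype.card_eq_zero_iff.mp h
  have hlap : lap (reg (Perm P)) = 0 := by
    unfold lap
    simp
  unfold Zfun
  rw [h, hlap, smul_zero, NormedSpace.exp_zero]
  simp [norm_dlt]

theorem sum_erase_univ_card {P : Type} [Fintype P] [DecidableEq P] (f : ℕ → ℝ) :
    ∑ R ∈ (Finset.univ : Finset (Finset P)).erase Finset.univ, f R.card
      = ∑ p ∈ Finset.range (Fintype.card P), ((Fintype.card P).choose p : ℝ) * f p := by
  have h1 := Finset.sum_powerset_apply_card f (x := (Finset.univ : Finset P))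
  rw [Finset.powerset_univ, Finset.card_univ, Finset.sum_range_succ,
    ← Finset.add_sum_erase _ _ (Finset.mem_univ (Finset.univ : Finset P))] at h1
  simp only [Finset.card_univ, Nat.choose_self, one_smul, nsmul_eq_mul] at h1
  linarith

theorem Zfun_le_Fbd (n : ℕ) : ∀ (P : Type) [Fintype P] [DecidableEq P], Fintype.card P = n →
    ∀ s : ℝ, 0 ≤ s → Zfun P s ≤ Fbd n (Real.exp (-(2 * s))) := by
  induction' n using Nat.strong_induction_on with n ih
  intro P _ _ hP s hs
  rcases Nat.eq_zero_or_pos n with hn | hn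
  · subst hn
    rw [Zfun_of_isEmpty P hP s]
    simp [Fbd]
  have : Nonempty P := Fintype.card_pos_iff.mp (by omega)
  set r : ℝ := Real.exp (-(2 * s)) with hr
  have hr0 : 0 ≤ r := (Real.exp_pos _).le
  have hr1 : r ≤ 1 := by
    rw [hr]
    apply Real.exp_le_one_iff.mpr
    linarith
  refine (Zfun_rec s).trans ?_
  have hterm : ∀ R ∈ (Finset.univ : Finset (Finset P)).erase Finset.univ,
      ((Fintype.card P).choose R.card : ℝ) *
        Real.exp (-(4 * s * (R.card : ℝ) * ((Fintype.card P : ℝ) - (R.card : ℝ) + 1))) *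
        Zfun {x // x ∈ R} s
      ≤ (fun p : ℕ => ((n.choose p : ℝ)) * r ^ (2 * p * (n - p)) * Fbd p r) R.card := by
    intro R hR
    have hne : R ≠ Finset.univ := (Finset.mem_erase.mp hR).1
    have hlt : R.card < n := by
      rw [← hP]
      exact lt_of_le_of_ne (Finset.card_le_univ R) (fun h => hne ((Finset.card_eq_iff_eq_univ R).mp h))
    have hZ : Zfun {x // x ∈ R} s ≤ Fbd R.card r :=
      ih R.card hlt {x // x ∈ R} (Fintype.card_coe R) s hs
    have hF : 0 ≤ Fbd R.card r := Fbd_nonneg _ hr0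
    have hcast : ((n - R.card : ℕ) : ℝ) = (n : ℝ) - (R.card : ℝ) := by
      rw [Nat.cast_sub hlt.le]
    have hk0 : (0 : ℝ) ≤ (R.card : ℝ) := Nat.cast_nonneg _
    have he : Real.exp (-(4 * s * (R.card : ℝ) * ((Fintype.card P : ℝ) - (R.card : ℝ) + 1)))
        ≤ r ^ (2 * R.card * (n - R.card)) := by
      rw [hr, ← Real.exp_nat_mul, hP]
      apply Real.exp_le_exp.mpr
      push_cast
      rw [hcast]
      nlinarith [mul_nonneg hs hk0]
    have hC : (0 : ℝ) ≤ ((Fintype.card P).choose R.card : ℝ) := Nat.cast_nonneg _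
    simp only []
    rw [hP] at hC ⊢
    rw [mul_assoc ((n.choose R.card : ℕ) : ℝ), mul_assoc ((n.choose R.card : ℕ) : ℝ)]
    refine mul_le_mul_of_nonneg_left ?_ hC
    calc Real.exp (-(4 * s * (R.card : ℝ) * ((n : ℝ) - (R.card : ℝ) + 1))) * Zfun {x // x ∈ R} s
        ≤ Real.exp (-(4 * s * (R.card : ℝ) * ((n : ℝ) - (R.card : ℝ) + 1))) * Fbd R.card r :=
          mul_le_mul_of_nonneg_left hZ (Real.exp_pos _).le
      _ ≤ r ^ (2 * R.card * (n - R.card)) * Fbd R.card r := by
          rw [hP] at he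
          exact mul_le_mul_of_nonneg_right he hF
  refine (Finset.sum_le_sum hterm).trans ?_
  rw [sum_erase_univ_card (P := P)
    (fun p : ℕ => ((n.choose p : ℝ)) * r ^ (2 * p * (n - p)) * Fbd p r), hP]
  refine le_trans (le_of_eq ?_) (Fbd_rec hn hr0 hr1)
  refine Finset.sum_congr rfl (fun p _ => ?_)
  ring

end Vale.Agent.Lib.P162
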