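import Mathlib
import Vale.Agent.Lib.P162.Defs
import Vale.Agent.Lib.P162.Rep
import Vale.Agent.Lib.P162.Induct
import Vale.Agent.Lib.P162.Frec
import Vale.Agent.Lib.P162.Zbound
import Vale.Agent.Lib.P162.TV
import Vale.Agent.Lib.P162.ConvMA
import Vale.Agent.Lib.P162.ThorpPerm
import Vale.Agent.Lib.P162.Bits
import Vale.Agent.Lib.P162.RotAlg
import Vale.Agent.Lib.P162.PassProd

/-!
# P162 `Final`: assembly   (helper28)
-/

namespace Vale.Agent.Lib.P162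

open Equiv NormedSpace

/-- `e+1` Thorp shuffles of `2^(e+1)` cards are dominated. -/
theorem thorp_block_dominated (V : Type) [NormedAddCommGroup V] [InnerProductSpace ℝ V]
    [CompleteSpace V] (e : ℕ) :
    Dominated V (toMA (thorpLaw (2 ^ e)) ^ (e + 1)) (cseq (e + 1)) := by
  obtain ⟨φ, hφ⟩ := thorp_bits e
  rw [hφ, ← map_pow, rot_pow, ← pass_eq_dirProd]
  exact (pass_dominated V e).push_equiv φ

/-- numerics. -/
theorem numeric (e : ℕ) :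
    3 * ((2 * 2 ^ e : ℕ) : ℝ) ^ 2 *
      Real.exp (-(2 * (((2000 * (e + 1) : ℕ) : ℝ) * cseq (e + 1)))) ^ (2 * 2 ^ e) ≤ 1 / 6 := by
  have hc := cseq_lower e
  have hn : ((2 * 2 ^ e : ℕ) : ℝ) = 2 ^ (e + 1) := by push_cast; ring
  rw [← Real.exp_nat_mul, hn]
  have h1 : (2 : ℝ) ^ (e + 1) * -(2 * (((2000 * (e + 1) : ℕ) : ℝ) * cseq (e + 1)))
      ≤ -(((e + 1 : ℕ) : ℝ) * 7) := by
    push_cast
    have he : (0 : ℝ) ≤ (e : ℝ) + 1 := by positivity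
    nlinarith [mul_le_mul_of_nonneg_left hc he]
  have h2 : Real.exp ((2 : ℝ) ^ (e + 1) * -(2 * (((2000 * (e + 1) : ℕ) : ℝ) * cseq (e + 1))))
      ≤ (1 / 128 : ℝ) ^ (e + 1) := by
    refine (Real.exp_le_exp.mpr h1).trans ?_
    rw [← mul_neg, Real.exp_nat_mul]
    apply pow_le_pow_left₀ (Real.exp_pos _).le
    rw [Real.exp_neg, one_div]
    apply inv_anti₀ (by norm_num)
    have h7 : Real.exp 7 = Real.exp 1 ^ 7 := by
      rw [← Real.exp_nat_mul]; norm_num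
    rw [h7]
    have : (2 : ℝ) ≤ Real.exp 1 := by
      have := Real.add_one_le_exp (1 : ℝ); linarith
    calc (128 : ℝ) = 2 ^ 7 := by norm_num
      _ ≤ Real.exp 1 ^ 7 := pow_le_pow_left₀ (by norm_num) this 7
  have h3 : 3 * ((2 : ℝ) ^ (e + 1)) ^ 2 * (1 / 128 : ℝ) ^ (e + 1) = 3 * (1 / 32 : ℝ) ^ (e + 1) := by
    rw [← pow_mul, mul_comm (e + 1) 2, pow_mul, mul_assoc, ← mul_pow]
    norm_num
  have h4 : (1 / 32 : ℝ) ^ (e + 1) ≤ 1 / 32 := by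
    calc (1 / 32 : ℝ) ^ (e + 1) ≤ (1 / 32 : ℝ) ^ 1 :=
          pow_le_pow_of_le_one (by norm_num) (by norm_num) (by omega)
      _ = 1 / 32 := by norm_num
  calc 3 * ((2 : ℝ) ^ (e + 1)) ^ 2 * Real.exp _
      ≤ 3 * ((2 : ℝ) ^ (e + 1)) ^ 2 * (1 / 128 : ℝ) ^ (e + 1) := by
        apply mul_le_mul_of_nonneg_left h2 (by positivity)
    _ = 3 * (1 / 32 : ℝ) ^ (e + 1) := h3
    _ ≤ 1 / 6 := by linarith

theorem thorp_tv (e : ℕ) :
    tvUnif (convPow (thorpLaw (2 ^ e)) (2000 * (e + 1) ^ 2)) ≤ 1 / 4 := by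
  set k : ℕ := 2000 * (e + 1) with hk
  set s : ℝ := (k : ℝ) * cseq (e + 1) with hs
  have hs0 : 0 ≤ s := mul_nonneg (Nat.cast_nonneg _) (cseq_nonneg _)
  have ht : 2000 * (e + 1) ^ 2 = (e + 1) * k := by rw [hk]; ring
  have hdom : Dominated (EG (Perm (Fin (2 * 2 ^ e))))
      (toMA (convPow (thorpLaw (2 ^ e)) (2000 * (e + 1) ^ 2))) s := by
    rw [toMA_convPow, ht, pow_mul]
    exact (thorp_block_dominated _ e).pow k
  have h1 := tv_sq_le _ (sum_convPow _ (thorpLaw_sum (2 ^ e)) _) s hdom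
  have h2 := Zfun_le_Fbd (2 * 2 ^ e) (Fin (2 * 2 ^ e)) (by simp) s hs0
  have h3 : Fbd (2 * 2 ^ e) (Real.exp (-(2 * s))) ≤ 6 / 5 :=
    Fbd_le (Real.exp_pos _).le (numeric e)
  have h4 : (2 * tvUnif (convPow (thorpLaw (2 ^ e)) (2000 * (e + 1) ^ 2))) ^ 2 ≤ (1 / 2) ^ 2 := by
    linarith
  have h5 := abs_le_of_sq_le_sq h4 (by norm_num)
  linarith [le_abs_self (2 * tvUnif (convPow (thorpLaw (2 ^ e)) (2000 * (e + 1) ^ 2)))]

theorem thorp_tmix (e : ℕ) :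
    tvUnif (convPow (thorpLaw (2 ^ e)) (tmix (2 ^ e))) ≤ 1 / 4 ∧
      tmix (2 ^ e) ≤ 2000 * (e + 1) ^ 2 := by
  have hmem : 2000 * (e + 1) ^ 2 ∈ {t : ℕ | tvUnif (convPow (thorpLaw (2 ^ e)) t) ≤ 1 / 4} :=
    thorp_tv e
  exact ⟨Nat.sInf_mem ⟨_, hmem⟩, Nat.sInf_le hmem⟩

end Vale.Agent.Lib.P162
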